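import Vale.Agent.P097.H877.Bd.Pois

/-!
Lusin-Privalov uniqueness theorem, local form on sawtooth domains.
-/

open Complex Metric Filter Topology Set MeasureTheory

namespace Vale.Agent.P097.H877.Bd

/-- the barrier function -/
noncomputable def bar (K : Set ℝ) (c : ℝ) (z : ℂ) : ℂ := -I * cau K z - c

theorem bar_re (K : Set ℝ) (c : ℝ) (z : ℂ) : (bar K c z).re = (cau K z).im - c := by
  simp [bar]

theorem differentiableAt_bar {K : Set ℝ} (hK : volume K ≠ ⊤) (c : ℝ) {z : ℂ} (hz : 0 < z.im) :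
    DifferentiableAt ℂ (bar K c) z :=
  ((differentiableAt_cau hK hz).const_mul (-I)).sub_const (c : ℂ)

/-- the maximum principle with the barrier -/
theorem priv_max {k h : ℝ} (hk : 0 < k) (hh : 0 < h) {K : Set ℝ} (hK : IsCompact K) {f : ℂ → ℂ}
    (hf : DifferentiableOn ℂ f (saw k h K)) (h1 : ∀ z ∈ saw k h K, ‖f z‖ ≤ 1)
    (hunif : ∀ ε > 0, ∃ δ > 0, ∀ x ∈ K, ∀ z ∈ cone k δ x, ‖f z‖ ≤ ε)
    (hsmall : (volume K).toReal / (h / 2) ≤ Real.pi - 2 * Real.arctan (k / 2)) (N : ℕ) :
    ∀ z ∈ saw (k / 2) (h / 2) K, ‖f z‖ *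
      Real.exp (N * ((cau K z).im - (Real.pi - 2 * Real.arctan (k / 2)))) ≤ 1 := by
  have hKf : volume K ≠ ⊤ := hK.measure_lt_top.ne
  obtain ⟨c, hc⟩ : ∃ c, c = Real.pi - 2 * Real.arctan (k / 2) := ⟨_, rfl⟩
  rw [← hc] at hsmall ⊢
  have hk2 : 0 < k / 2 := by positivity
  have hc0 : 0 ≤ c := by
    refine le_trans ?_ hsmall
    positivity
  have hsub : saw (k / 2) (h / 2) K ⊆ saw k h K :=
    saw_mono hk2 (by linarith) (by linarith) subset_rfl
  set G : ℂ → ℂ := fun z => f z * Complex.exp (N * bar K c z) with hG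
  have hGn : ∀ z, ‖G z‖ = ‖f z‖ * Real.exp (N * ((cau K z).im - c)) := by
    intro z
    simp only [hG, norm_mul, Complex.norm_exp]
    congr 2
    simp [bar_re]
  have hGd : ∀ z ∈ saw k h K, DifferentiableAt ℂ G z := by
    intro z hz
    refine (hf.differentiableAt ((isOpen_saw k h K).mem_nhds hz)).mul ?_
    exact ((differentiableAt_bar hKf c (saw_im_pos hk hz)).const_mul (N : ℂ)).cexp
  have hmain : ∀ z ∈ saw (k / 2) (h / 2) K, ‖G z‖ ≤ 1 := by
    refine norm_le_of_frontier (isBounded_saw hk2 hK.isBounded) (isOpen_saw _ _ _)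
      (fun z hz => (hGd z (hsub hz)).differentiableWithinAt) ?_
    intro ζ hζ δ hδ
    rw [(isOpen_saw _ _ _).frontier_eq] at hζ
    obtain ⟨x, hxK, hx1, hx2⟩ := closure_saw hK hζ.1
    have him : 0 ≤ ζ.im := by
      have := (abs_nonneg _).trans hx1
      by_contra hneg
      push Not at hneg
      nlinarith
    rcases him.eq_or_lt with him | him
    · -- a point of the real axis
      obtain ⟨d, hd, hdf⟩ := hunif (Real.exp (-(N * Real.pi))) (Real.exp_pos _)
      have h2 : ∀ᶠ z : ℂ in 𝓝 ζ, z.im < d :=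
        (isOpen_lt Complex.continuous_im continuous_const).mem_nhds (by
          show ζ.im < d
          rw [← him]; exact hd)
      filter_upwards [mem_nhdsWithin_of_mem_nhds h2, self_mem_nhdsWithin] with z hz1 hz2
      obtain ⟨y, hyK, hy⟩ := mem_saw.mp hz2
      have hzim := cone_im_pos hk2 hy
      have h3 : ‖f z‖ ≤ Real.exp (-(N * Real.pi)) := by
        refine hdf y hyK z ⟨?_, hz1⟩
        have := hy.1
        nlinarith
      rw [hGn]
      have h4 : (cau K z).im - c ≤ Real.pi := by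
        rw [cau_im hKf hzim]
        linarith [setIntegral_pk_le (K := K) hzim]
      have h5 : Real.exp (N * ((cau K z).im - c)) ≤ Real.exp (N * Real.pi) := by
        apply Real.exp_le_exp.mpr
        exact mul_le_mul_of_nonneg_left h4 (Nat.cast_nonneg N)
      calc ‖f z‖ * Real.exp (N * ((cau K z).im - c))
          ≤ Real.exp (-(N * Real.pi)) * Real.exp (N * Real.pi) :=
            mul_le_mul h3 h5 (Real.exp_pos _).le (Real.exp_pos _).le
        _ = 1 := by rw [← Real.exp_add]; simp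
        _ ≤ 1 + δ := by linarith
    · -- a point of the upper half plane
      have hζs : ζ ∈ saw k h K := by
        refine mem_saw.mpr ⟨x, hxK, ?_, by linarith⟩
        nlinarith [mul_pos hk him]
      have hfar : (cau K ζ).im ≤ c := by
        rcases le_or_gt (h / 2) ζ.im with h6 | h6
        · refine (cau_le_of_high hKf him).trans (le_trans ?_ hsmall)
          gcongr
        · rw [hc]
          refine cau_le_of_far hKf him hk2 fun t ht => ?_
          by_contra hcon
          push Not at hcon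
          exact hζ.2 (mem_saw.mpr ⟨t, ht, hcon, h6⟩)
      have hle : ‖G ζ‖ ≤ 1 := by
        rw [hGn]
        have h7 : Real.exp (N * ((cau K ζ).im - c)) ≤ 1 := by
          rw [Real.exp_le_one_iff]
          exact mul_nonpos_of_nonneg_of_nonpos (Nat.cast_nonneg N) (by linarith)
        calc _ ≤ 1 * 1 := mul_le_mul (h1 ζ hζs) h7 (Real.exp_pos _).le zero_le_one
          _ = 1 := one_mul 1
      have h8 : ∀ᶠ z in 𝓝 ζ, ‖G z‖ < 1 + δ :=
        (hGd ζ hζs).continuousAt.norm.eventually (gt_mem_nhds (by linarith))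
      exact mem_nhdsWithin_of_mem_nhds (h8.mono fun z hz => hz.le)
  intro z hz
  rw [← hGn]
  exact hmain z hz

/-- Lusin-Privalov at one density point -/
theorem priv_point {k h : ℝ} (hk : 0 < k) (hh : 0 < h) {K : Set ℝ} (hK : IsCompact K) {f : ℂ → ℂ}
    (hf : DifferentiableOn ℂ f (saw k h K)) (h1 : ∀ z ∈ saw k h K, ‖f z‖ ≤ 1)
    (hunif : ∀ ε > 0, ∃ δ > 0, ∀ x ∈ K, ∀ z ∈ cone k δ x, ‖f z‖ ≤ ε)
    {x₀ : ℝ} (hx₀ : x₀ ∈ K) (hD : Dens K x₀) :
    ∃ h' > 0, ∀ z ∈ cone (k / 2) h' x₀, f z = 0 := by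
  have hk2 : 0 < k / 2 := by positivity
  have hat0 : 0 < Real.arctan (k / 2) := Real.arctan_pos.mpr hk2
  have hat1 := Real.arctan_lt_pi_div_two (k / 2)
  set c : ℝ := Real.pi - 2 * Real.arctan (k / 2) with hc
  have hc0 : 0 < c := by linarith
  set ρ : ℝ := h / 4 * c with hρ
  have hρ0 : 0 < ρ := by positivity
  set K' : Set ℝ := K ∩ closedBall x₀ ρ with hK'
  have hK'c : IsCompact K' := hK.inter_right isClosed_closedBall
  have hK'f : volume K' ≠ ⊤ := hK'c.measure_lt_top.ne
  have hsub : saw k h K' ⊆ saw k h K := saw_mono hk le_rfl le_rfl inter_subset_left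
  have hvol : (volume K').toReal / (h / 2) ≤ c := by
    rw [div_le_iff₀ (by positivity)]
    have h2 : volume K' ≤ ENNReal.ofReal (2 * ρ) := by
      rw [← Real.volume_closedBall]; exact measure_mono inter_subset_right
    have h3 := ENNReal.toReal_le_of_le_ofReal (by positivity) h2
    refine h3.trans (le_of_eq ?_)
    rw [hρ]; ring
  have hD' : Dens K' x₀ := by
    intro ε hε
    obtain ⟨r₀, hr₀, h2⟩ := hD ε hε
    refine ⟨min r₀ ρ, lt_min hr₀ hρ0, fun r hr hr' => ?_⟩
    refine (measure_mono ?_).trans (h2 r hr (hr'.trans_le (min_le_left _ _)))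
    intro t ht
    refine ⟨ht.1, fun htK => ht.2 ⟨htK, ?_⟩⟩
    exact closedBall_subset_closedBall (hr'.trans_le (min_le_right _ _)).le ht.1
  have hx₀' : x₀ ∈ K' := ⟨hx₀, mem_closedBall_self hρ0.le⟩
  obtain ⟨h', hh', hge⟩ := hD'.cau_ge hK'c.measurableSet hK'f hk2 (c := c) (by linarith)
  refine ⟨min h' (h / 2), lt_min hh' (by positivity), fun z hz => ?_⟩
  have hz1 : z ∈ cone (k / 2) h' x₀ := cone_mono hk2 le_rfl (min_le_left _ _) hz
  have hz2 : z ∈ saw (k / 2) (h / 2) K' :=
    mem_saw.mpr ⟨x₀, hx₀', cone_mono hk2 le_rfl (min_le_right _ _) hz⟩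
  have h3 := hge z hz1
  by_contra hne
  have hpos : 0 < ‖f z‖ := norm_pos_iff.mpr hne
  have hall : ∀ N : ℕ, ‖f z‖ * Real.exp (N * ((cau K' z).im - c)) ≤ 1 := fun N =>
    priv_max hk hh hK'c (hf.mono hsub) (fun w hw => h1 w (hsub hw))
      (fun ε hε => by
        obtain ⟨δ, hδ, h4⟩ := hunif ε hε
        exact ⟨δ, hδ, fun x hx => h4 x hx.1⟩) hvol N z hz2
  obtain ⟨N, hN⟩ := exists_nat_gt (1 / (‖f z‖ * ((cau K' z).im - c)))
  have h5 := hall N
  have h6 : 0 < (cau K' z).im - c := by linarith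
  rw [div_lt_iff₀ (by positivity)] at hN
  have h7 := Real.add_one_le_exp (N * ((cau K' z).im - c))
  nlinarith [mul_le_mul_of_nonneg_left h7 hpos.le]

/-- **Lusin-Privalov uniqueness theorem**, local form.  If `f` is holomorphic on `D` and for every
`x ∈ E` there is a truncated cone with vertex `x` in `D` along which `f` tends to `0`, then for
almost every `x ∈ E` the function `f` vanishes identically on a truncated cone with vertex `x`. -/
theorem privalov {D : Set ℂ} {f : ℂ → ℂ} (hf : DifferentiableOn ℂ f D) {E : Set ℝ}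
    (hE : ∀ x ∈ E, ∃ k > 0, ∃ h > 0, cone k h x ⊆ D ∧
      Tendsto f (𝓝[cone k h x] (x : ℂ)) (𝓝 0)) :
    ∀ᵐ x : ℝ, x ∈ E → ∃ k > 0, ∃ h > 0, cone k h x ⊆ D ∧ ∀ z ∈ cone k h x, f z = 0 := by
  set r : ℕ → ℝ := fun n => 1 / ((n : ℝ) + 1) with hr
  have hr0 : ∀ n, 0 < r n := fun n => by simp only [hr]; positivity
  set P : ℝ → Prop := fun x => ∃ k > 0, ∃ h > 0, cone k h x ⊆ D ∧ ∀ z ∈ cone k h x, f z = 0 with hP
  -- closed sets
  set Cl : ℝ → ℝ → ℝ → Set ℝ := fun k h M => {x : ℝ | cone k h x ⊆ D ∧ ∀ z ∈ cone k h x, ‖f z‖ ≤ M}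
    with hCl
  have hClc : ∀ k h M, IsClosed (Cl k h M) := fun k h M => isClosed_coneBound
  -- one step: uniform aperture and height
  have key : ∀ n : ℕ, ∀ R : ℕ, volume {x : ℝ | ¬ P x ∧ x ∈ Cl (r n) (r n) 1 ∧
      Tendsto f (𝓝[cone (r n) (r n) x] (x : ℂ)) (𝓝 0) ∧ x ∈ closedBall (0 : ℝ) R} = 0 := by
    intro n R
    by_contra hne
    set B : Set ℝ := {x : ℝ | ¬ P x ∧ x ∈ Cl (r n) (r n) 1 ∧
      Tendsto f (𝓝[cone (r n) (r n) x] (x : ℂ)) (𝓝 0) ∧ x ∈ closedBall (0 : ℝ) R} with hB
    set ν : Measure ℝ := volume.restrict B with hν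
    have hBfin : volume B < ⊤ :=
      (measure_mono (fun x hx => hx.2.2.2)).trans_lt (isCompact_closedBall (0 : ℝ) R).measure_lt_top
    have hνf : IsFiniteMeasure ν := ⟨by simpa [hν] using hBfin⟩
    have hν0 : ν univ ≠ 0 := by simpa [hν] using hne
    obtain ⟨ε', hε'0, hε'⟩ := ENNReal.exists_pos_sum_of_countable hν0 ℕ
    have hstep : ∀ m : ℕ, ∃ j : ℕ, ν (Cl (r n) (r j) (r m))ᶜ < ε' m := by
      intro m
      have hmono : Antitone fun j : ℕ => (Cl (r n) (r j) (r m))ᶜ := by
        intro i j hij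
        refine compl_subset_compl.mpr fun x hx => ?_
        have hle : r j ≤ r i := by
          simp only [hr]
          have : (i : ℝ) ≤ j := Nat.cast_le.mpr hij
          gcongr
        have hc := cone_mono (x := x) (hr0 n) le_rfl hle
        exact ⟨hc.trans hx.1, fun z hz => hx.2 z (hc hz)⟩
      have hinter : ν (⋂ j : ℕ, (Cl (r n) (r j) (r m))ᶜ) = 0 := by
        rw [hν, Measure.restrict_apply (MeasurableSet.iInter fun j => (hClc _ _ _).measurableSet.compl)]
        refine measure_mono_null (t := ∅) (fun x hx => ?_) measure_empty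
        obtain ⟨hx1, hxP, hxC, hxt, hxR⟩ := hx
        have h2 := Metric.tendsto_nhds.mp hxt (r m) (hr0 m)
        rw [eventually_nhdsWithin_iff] at h2
        obtain ⟨δ, hδ, h3⟩ := Metric.eventually_nhds_iff.mp h2
        obtain ⟨j, hj⟩ := exists_nat_gt (2 / δ + 1 / r n)
        have hjn : r j ≤ r n := by
          have h5 : 1 / r n ≤ j := by
            have : 0 < 2 / δ := by positivity
            linarith
          simp only [hr]
          rw [div_le_iff₀ (by positivity)]
          rw [div_le_iff₀ (hr0 n)] at h5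
          simp only [hr] at h5
          have := hr0 n
          simp only [hr] at this
          nlinarith
        have hjd : 2 * r j < δ := by
          have h5 : 2 / δ < j := by
            have : 0 < 1 / r n := one_div_pos.mpr (hr0 n)
            linarith
          rw [div_lt_iff₀ hδ] at h5
          simp only [hr]
          rw [mul_one_div, div_lt_iff₀ (by positivity)]
          nlinarith
        have hrn1 : r n ≤ 1 := by
          simp only [hr]
          rw [div_le_one (by positivity)]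
          have : (0 : ℝ) ≤ n := Nat.cast_nonneg n
          linarith
        refine (mem_iInter.mp hx1 j) ⟨?_, ?_⟩
        · exact (cone_mono (hr0 n) le_rfl hjn).trans hxC.1
        · intro z hz
          have hz' : z ∈ cone (r n) (r n) x := cone_mono (hr0 n) le_rfl hjn hz
          have hzi := cone_im_pos (hr0 n) hz
          have h6 : dist z (x : ℂ) < δ := by
            rw [dist_eq_norm]
            have h7 := Complex.norm_le_abs_re_add_abs_im (z - x)
            simp only [Complex.sub_re, Complex.ofReal_re, Complex.sub_im, Complex.ofReal_im,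
              sub_zero] at h7
            rw [abs_of_pos hzi] at h7
            have h8 := hz.1
            have h9 := hz.2
            nlinarith
          have h10 := h3 h6 hz'
          rw [dist_zero_right] at h10
          exact h10.le
      have htend : Tendsto (fun j : ℕ => ν (Cl (r n) (r j) (r m))ᶜ) atTop (𝓝 0) := by
        rw [← hinter]
        exact tendsto_measure_iInter_atTop
          (fun j => (hClc _ _ _).measurableSet.compl.nullMeasurableSet) hmono
          ⟨0, measure_ne_top _ _⟩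
      have h11 : (0 : ENNReal) < ε' m := by exact_mod_cast hε'0 m
      exact (htend.eventually (gt_mem_nhds h11)).exists
    choose j hj using hstep
    set K : Set ℝ := (⋂ m, Cl (r n) (r (j m)) (r m)) ∩ (Cl (r n) (r n) 1 ∩ closedBall (0 : ℝ) R)
      with hK
    have hKc : IsCompact K :=
      (((isCompact_closedBall (0 : ℝ) R).inter_left (hClc _ _ _)).inter_left
        (isClosed_iInter fun m => hClc _ _ _))
    have hKν : ν Kᶜ < ν univ := by
      have h2 : Kᶜ = (⋃ m, (Cl (r n) (r (j m)) (r m))ᶜ) ∪ (Cl (r n) (r n) 1 ∩ closedBall (0 : ℝ) R)ᶜ := by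
        rw [hK, compl_inter, compl_iInter]
      have h3 : ν (Cl (r n) (r n) 1 ∩ closedBall (0 : ℝ) R)ᶜ = 0 := by
        rw [hν, Measure.restrict_apply
          (((hClc _ _ _).inter isClosed_closedBall).measurableSet.compl)]
        refine measure_mono_null (t := ∅) (fun x hx => ?_) measure_empty
        exact hx.1 ⟨hx.2.2.1, hx.2.2.2.2⟩
      calc ν Kᶜ ≤ ν (⋃ m, (Cl (r n) (r (j m)) (r m))ᶜ) +
            ν (Cl (r n) (r n) 1 ∩ closedBall (0 : ℝ) R)ᶜ := by rw [h2]; exact measure_union_le _ _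
        _ ≤ (∑' m, ν (Cl (r n) (r (j m)) (r m))ᶜ) + 0 := by
            rw [h3]; exact add_le_add (measure_iUnion_le _) le_rfl
        _ ≤ ∑' m, (ε' m : ENNReal) := by
            rw [add_zero]; exact ENNReal.tsum_le_tsum fun m => (hj m).le
        _ < ν univ := hε'
    have hKpos : volume (K ∩ B) ≠ 0 := by
      intro h0
      have h2 : ν K = 0 := by
        rw [hν, Measure.restrict_apply hKc.measurableSet]; exact h0
      have h3 : ν univ ≤ ν K + ν Kᶜ := by
        rw [← union_compl_self K]; exact measure_union_le _ _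
      rw [h2, zero_add] at h3
      exact absurd hKν (not_lt.mpr h3)
    obtain ⟨x, hx, hxD⟩ : ∃ x ∈ K ∩ B, Dens K x := by
      by_contra hcon
      push Not at hcon
      refine hKpos (measure_mono_null (t := {x | ¬ (x ∈ K → Dens K x)}) (fun x hx => ?_)
        (ae_iff.mp (ae_dens hKc.measurableSet)))
      exact fun h => hcon x hx (h hx.1)
    have hsD : saw (r n) (r n) K ⊆ D := by
      intro z hz
      obtain ⟨y, hy, hzy⟩ := mem_saw.mp hz
      exact hy.2.1.1 hzy
    obtain ⟨h', hh', hzero⟩ := priv_point (hr0 n) (hr0 n) hKc (hf.mono hsD)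
      (fun z hz => by
        obtain ⟨y, hy, hzy⟩ := mem_saw.mp hz
        exact hy.2.1.2 z hzy)
      (fun ε hε => by
        obtain ⟨m, hm⟩ := exists_nat_gt (1 / ε)
        have hrm : r m ≤ ε := by
          simp only [hr]
          rw [div_lt_iff₀ hε] at hm
          rw [div_le_iff₀ (by positivity)]
          nlinarith
        exact ⟨r (j m), hr0 _, fun y hy z hz => ((mem_iInter.mp hy.1 m).2 z hz).trans hrm⟩)
      hx.1 hxD
    refine hx.2.1 ⟨r n / 2, half_pos (hr0 n), min h' (r n), lt_min hh' (hr0 n), ?_, ?_⟩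
    · refine (cone_mono (half_pos (hr0 n)) (half_le_self (hr0 n).le) (min_le_right _ _)).trans ?_
      exact hx.2.2.1.1
    · exact fun z hz => hzero z (cone_mono (half_pos (hr0 n)) le_rfl (min_le_left _ _) hz)
  have h2 : volume (⋃ n : ℕ, ⋃ R : ℕ, {x : ℝ | ¬ P x ∧ x ∈ Cl (r n) (r n) 1 ∧
      Tendsto f (𝓝[cone (r n) (r n) x] (x : ℂ)) (𝓝 0) ∧ x ∈ closedBall (0 : ℝ) R}) = 0 :=
    measure_iUnion_null fun n => measure_iUnion_null fun R => key n R
  rw [ae_iff]
  refine measure_mono_null (fun x hx => ?_) h2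
  simp only [mem_ofPred_eq, Classical.not_imp] at hx
  obtain ⟨hxE, hxP⟩ := hx
  obtain ⟨k, hk, h, hh, hcD, ht⟩ := hE x hxE
  -- a height at which `‖f‖ ≤ 1`
  have h3 := Metric.tendsto_nhds.mp ht 1 one_pos
  rw [eventually_nhdsWithin_iff] at h3
  obtain ⟨δ, hδ, h4⟩ := Metric.eventually_nhds_iff.mp h3
  obtain ⟨n, hn⟩ : ∃ n : ℕ, 1 / k ≤ n ∧ 1 / h ≤ n ∧ 2 / δ < n := by
    obtain ⟨n₁, h₁⟩ := exists_nat_ge (1 / k)
    obtain ⟨n₂, h₂⟩ := exists_nat_ge (1 / h)
    obtain ⟨n₃, h₃⟩ := exists_nat_gt (2 / δ)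
    refine ⟨max n₁ (max n₂ n₃), h₁.trans ?_, h₂.trans ?_, h₃.trans_le ?_⟩ <;>
      exact_mod_cast (by simp)
  have hrk : r n ≤ k := by
    simp only [hr]
    rw [div_le_iff₀ (by positivity)]
    have := (div_le_iff₀ hk).mp hn.1
    nlinarith
  have hrh : r n ≤ h := by
    simp only [hr]
    rw [div_le_iff₀ (by positivity)]
    have := (div_le_iff₀ hh).mp hn.2.1
    nlinarith
  have hrd : 2 * r n < δ := by
    have := (div_lt_iff₀ hδ).mp hn.2.2
    simp only [hr]
    rw [mul_one_div, div_lt_iff₀ (by positivity)]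
    nlinarith
  have hrn1 : r n ≤ 1 := by
    simp only [hr]
    rw [div_le_one (by positivity)]
    have : (0 : ℝ) ≤ n := Nat.cast_nonneg n
    linarith
  have hsub : cone (r n) (r n) x ⊆ cone k h x := cone_mono (hr0 n) hrk hrh
  obtain ⟨R, hR⟩ := exists_nat_ge |x|
  refine mem_iUnion.mpr ⟨n, mem_iUnion.mpr ⟨R, hxP, ⟨hsub.trans hcD, ?_⟩,
    ht.mono_left (nhdsWithin_mono _ hsub), ?_⟩⟩
  · intro z hz
    have hzi := cone_im_pos (hr0 n) hz
    have h6 : dist z (x : ℂ) < δ := by
      rw [dist_eq_norm]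
      have h7 := Complex.norm_le_abs_re_add_abs_im (z - x)
      simp only [Complex.sub_re, Complex.ofReal_re, Complex.sub_im, Complex.ofReal_im,
        sub_zero] at h7
      rw [abs_of_pos hzi] at h7
      have h8 := hz.1
      have h9 := hz.2
      nlinarith
    have h10 := h4 h6 (hsub hz)
    rw [dist_zero_right] at h10
    exact h10.le
  · rw [mem_closedBall, dist_zero_right]
    exact hR

end Vale.Agent.P097.H877.Bd
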