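import Vale.Agent.P097.H877.Bd.Fat2

/-!
Local Fatou theorem, third part: the limit at one point, and the theorem.
-/

open Complex Metric Filter Topology Set MeasureTheory

namespace Vale.Agent.P097.H877.Bd

/-- near a density point of `K` the sawtooth domain contains cones of any aperture -/
theorem Dens.cone_subset {k h : ℝ} (hk : 0 < k) (hh : 0 < h) {K : Set ℝ} {x₀ : ℝ}
    (hD : Dens K x₀) {k' : ℝ} (hk' : 0 < k') : ∃ h' > 0, cone k' h' x₀ ⊆ saw k h K := by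
  obtain ⟨r₀, hr₀, hn⟩ := hD.near (η := k / (2 * (k' + 1))) (by positivity)
  refine ⟨min h (r₀ / (k' + 1)), lt_min hh (by positivity), fun z hz => ?_⟩
  have hY := cone_im_pos hk' hz
  have h1 : z.im < h := hz.2.trans_le (min_le_left _ _)
  have h2 : (k' + 1) * z.im < r₀ := by
    have := hz.2.trans_le (min_le_right _ _)
    rw [lt_div_iff₀ (by positivity)] at this
    linarith
  obtain ⟨s, hs, hst⟩ := hn ((k' + 1) * z.im) (by positivity) h2 z.re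
    (by nlinarith [hz.1.le])
  refine mem_saw.mpr ⟨s, hs, ?_, h1⟩
  have h3 : k / (2 * (k' + 1)) * ((k' + 1) * z.im) = k * z.im / 2 := by
    field_simp
  rw [h3, abs_sub_comm] at hst
  have : 0 < k * z.im := by positivity
  linarith

/-- the points of the half disc below `z` -/
theorem fat_pts {k h : ℝ} (hk : 0 < k) {K : Set ℝ} {x₀ k' η Y x : ℝ} (hk' : 0 < k')
    (hη0 : 0 < η) (hη1 : η ≤ 1 / 2) (hY : 0 < Y) (hY1 : 9 * Y < h)
    (hn : ∀ t : ℝ, |t - x₀| ≤ (k' + 9) * Y → ∃ s ∈ K, |s - t| ≤ k * (η * Y) / 2)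
    (hX : |x - x₀| < k' * Y) {c : ℂ} (hcre : c.re = x) (hcim : c.im = η * Y)
    {ζ : ℂ} (h1 : ‖ζ - c‖ ≤ 8 * Y) (h2 : c.im ≤ ζ.im) :
    ∃ t ∈ K, ζ ∈ cone k h t ∧
      |ζ.re - t| ≤ k * (η * Y) / 2 ∧ |t - x₀| ≤ (k' + 9 + k) * Y ∧ ζ.im ≤ 9 * Y := by
  have h3 : |ζ.re - x| ≤ 8 * Y := by
    have := (Complex.abs_re_le_norm (ζ - c)).trans h1
    simpa [hcre] using this
  have h4 : ζ.im - η * Y ≤ 8 * Y := by
    have := (le_abs_self _).trans ((Complex.abs_im_le_norm (ζ - c)).trans h1)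
    simpa [hcim] using this
  have h5 : |ζ.re - x₀| ≤ (k' + 9) * Y := by
    have := abs_sub_le ζ.re x x₀
    nlinarith
  obtain ⟨t, htK, ht⟩ := hn ζ.re h5
  have h7 : η * Y ≤ 1 / 2 * Y := mul_le_mul_of_nonneg_right hη1 hY.le
  have h8 : ζ.im ≤ 9 * Y := by linarith
  have hηY : 0 < η * Y := by positivity
  refine ⟨t, htK, ⟨?_, by linarith⟩, by rwa [abs_sub_comm], ?_, h8⟩
  · rw [abs_sub_comm]
    have : k * (η * Y) ≤ k * ζ.im := mul_le_mul_of_nonneg_left (hcim ▸ h2) hk.le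
    have : 0 < k * (η * Y) := by positivity
    linarith
  · have := abs_sub_le t ζ.re x₀
    have h9 : k * (η * Y) / 2 ≤ k * Y := by nlinarith [mul_pos hk hY]
    linarith

/-- the estimate of `g = F - b x₀ - (ζ - x₀) A` -/
theorem fat_gb {k h M : ℝ} (hk : 0 < k) (hM : 0 ≤ M) {F : ℂ → ℂ} {x₀ Y y ρ' ε₁ t : ℝ} {b : ℝ → ℂ}
    {A ζ : ℂ} (hε₁ : 0 ≤ ε₁) (ht : ζ ∈ cone k h t) (h3 : ‖F ζ - b t‖ ≤ M * ‖ζ - t‖)
    (ht1 : |ζ.re - t| ≤ y) (ht2 : |t - x₀| ≤ ρ')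
    (h6 : ‖b t - b x₀ - ((t - x₀ : ℝ) : ℂ) * A‖ ≤ ε₁ * |t - x₀|) :
    ‖F ζ - b x₀ - (ζ - x₀) * A‖ ≤ (M + ‖A‖) * (y + ζ.im) + ε₁ * ρ' := by
  have h4 : ‖ζ - t‖ ≤ y + ζ.im := by
    have h5 := Complex.norm_le_abs_re_add_abs_im (ζ - t)
    simp only [Complex.sub_re, Complex.ofReal_re, Complex.sub_im, Complex.ofReal_im,
      sub_zero] at h5
    rw [abs_of_pos (cone_im_pos hk ht)] at h5
    linarith
  have h7 : F ζ - b x₀ - (ζ - x₀) * A =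
      (F ζ - b t) + (b t - b x₀ - ((t - x₀ : ℝ) : ℂ) * A) - (ζ - t) * A := by
    push_cast; ring
  rw [h7]
  have h8 : ‖(ζ - t) * A‖ ≤ (y + ζ.im) * ‖A‖ := by
    rw [norm_mul]; exact mul_le_mul_of_nonneg_right h4 (norm_nonneg _)
  have h9 : ‖F ζ - b t‖ ≤ M * (y + ζ.im) :=
    h3.trans (mul_le_mul_of_nonneg_left h4 hM)
  have h10 : ε₁ * |t - x₀| ≤ ε₁ * ρ' := mul_le_mul_of_nonneg_left ht2 hε₁
  have h11 := norm_sub_le ((F ζ - b t) + (b t - b x₀ - ((t - x₀ : ℝ) : ℂ) * A)) ((ζ - t) * A)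
  have h12 := norm_add_le (F ζ - b t) (b t - b x₀ - ((t - x₀ : ℝ) : ℂ) * A)
  have h13 : (M + ‖A‖) * (y + ζ.im) = M * (y + ζ.im) + (y + ζ.im) * ‖A‖ := by ring
  linarith

/-- Cauchy estimate after the two constants theorem -/
theorem fat_cauchy {z c A : ℂ} {η Y C s : ℝ} (hY : 0 < Y) (hC : 0 ≤ C) (hs0 : 0 ≤ s)
    (hη0 : 0 < η) (hη1 : η ≤ 1 / 2) (hzY : z.im = Y) (hcre : c.re = z.re) (hcim : c.im = η * Y)
    {f g : ℂ → ℂ}
    (hgd : ∀ ζ : ℂ, ‖ζ - c‖ ≤ 8 * Y → c.im ≤ ζ.im → HasDerivAt g (f ζ - A) ζ)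
    (hC1 : ∀ ζ : ℂ, ‖ζ - c‖ ≤ 8 * Y → c.im ≤ ζ.im → ‖g ζ‖ ≤ C * Y)
    (hC2 : ∀ ζ : ℂ, ‖ζ - c‖ ≤ 8 * Y → ζ.im = c.im → ‖g ζ‖ ≤ C * Y * Real.exp (-s)) :
    ‖f z - A‖ ≤ 2 * C * Real.exp (-(7 / 16 * s)) := by
  have htc := two_const (c := c) (R := 8 * Y) (C := C * Y) (s := s) (by positivity)
    (by positivity) hs0 (g := g) (fun ζ h1 h2 => (hgd ζ h1 h2).differentiableAt) hC1 hC2
  have hzc : z - c = (((1 - η) * Y : ℝ) : ℂ) * I := by
    apply Complex.ext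
    · simp [hcre]
    · simp only [Complex.sub_im, hcim, hzY]
      simp
      ring
  have hzc' : ‖z - c‖ ≤ Y := by
    rw [hzc, norm_mul, Complex.norm_I, mul_one, Complex.norm_real, Real.norm_eq_abs,
      abs_of_nonneg (by nlinarith)]
    nlinarith
  have hball : ∀ ζ ∈ closedBall z (Y / 2), ‖ζ - c‖ ≤ 2 * Y ∧ c.im ≤ ζ.im := by
    intro ζ hζ
    rw [mem_closedBall, dist_eq_norm] at hζ
    refine ⟨?_, ?_⟩
    · have : ζ - c = (ζ - z) + (z - c) := by ring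
      rw [this]
      refine (norm_add_le _ _).trans (by linarith)
    · have h1 := (Complex.abs_im_le_norm (ζ - z)).trans hζ
      have h2 := (abs_le.mp h1).1
      simp only [Complex.sub_im] at h2
      rw [hcim]
      nlinarith
  have hd1 : DiffContOnCl ℂ g (ball z (Y / 2)) := by
    have h1 : ∀ ζ ∈ closedBall z (Y / 2), DifferentiableAt ℂ g ζ := fun ζ hζ =>
      (hgd ζ ((hball ζ hζ).1.trans (by linarith)) (hball ζ hζ).2).differentiableAt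
    refine ⟨fun ζ hζ => (h1 ζ (ball_subset_closedBall hζ)).differentiableWithinAt,
      fun ζ hζ => (h1 ζ (closure_ball_subset_closedBall hζ)).continuousAt.continuousWithinAt⟩
  have hcau := Complex.norm_deriv_le_of_forall_mem_sphere_norm_le (by positivity) hd1
    (fun ζ hζ => htc ζ ((hball ζ (sphere_subset_closedBall hζ)).1.trans (by linarith))
      (hball ζ (sphere_subset_closedBall hζ)).2)
  have hdz : deriv g z = f z - A := by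
    refine (hgd z ?_ ?_).deriv
    · exact hzc'.trans (by linarith)
    · exact (hball z (mem_closedBall_self (by positivity))).2
  rw [hdz] at hcau
  refine hcau.trans (le_of_eq ?_)
  field_simp

/-- the constants -/
theorem fat_const {N k k' ε : ℝ} (hk : 0 < k) (hk' : 0 < k') (hN0 : 0 ≤ N) (hε : 0 < ε) :
    ∃ C s η ε₁ : ℝ, 0 < C ∧ 0 ≤ s ∧ 0 < η ∧ η ≤ 1 / 2 ∧ 0 < ε₁ ∧ ε₁ ≤ 1 ∧
      C = N * (k + 9) + (k' + 9 + k) ∧ 2 * C * Real.exp (-(7 / 16 * s)) ≤ ε ∧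
      N * (k / 2 + 1) * η + ε₁ * (k' + 9 + k) ≤ C * Real.exp (-s) := by
  set C : ℝ := N * (k + 9) + (k' + 9 + k) with hC
  have hC0 : 0 < C := by positivity
  obtain ⟨s, hs0, hs⟩ : ∃ s : ℝ, 0 ≤ s ∧ 2 * C * Real.exp (-(7 / 16 * s)) ≤ ε := by
    have h1 : Tendsto (fun s : ℝ => 2 * C * Real.exp (-(7 / 16 * s))) atTop (𝓝 (2 * C * 0)) := by
      refine Tendsto.const_mul _ (Real.tendsto_exp_neg_atTop_nhds_zero.comp ?_)
      exact tendsto_id.const_mul_atTop (by norm_num)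
    rw [mul_zero] at h1
    obtain ⟨s, hs1, hs2⟩ := ((h1.eventually (gt_mem_nhds hε)).and (eventually_ge_atTop 0)).exists
    exact ⟨s, hs2, hs1.le⟩
  have hδ0 : 0 < C * Real.exp (-s) := by positivity
  set δ : ℝ := C * Real.exp (-s) with hδ
  refine ⟨C, s, min (1 / 2) (δ / (2 * (N * (k / 2 + 1) + 1))), min 1 (δ / (2 * (k' + 9 + k))),
    hC0, hs0, lt_min (by norm_num) (by positivity), min_le_left _ _,
    lt_min one_pos (by positivity), min_le_left _ _, rfl, hs, ?_⟩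
  have h1 : min (1 / 2) (δ / (2 * (N * (k / 2 + 1) + 1))) ≤ δ / (2 * (N * (k / 2 + 1) + 1)) :=
    min_le_right _ _
  have h1p : 0 < min (1 / 2) (δ / (2 * (N * (k / 2 + 1) + 1))) :=
    lt_min (by norm_num) (by positivity)
  rw [le_div_iff₀ (by positivity)] at h1
  have h2 : min 1 (δ / (2 * (k' + 9 + k))) ≤ δ / (2 * (k' + 9 + k)) := min_le_right _ _
  rw [le_div_iff₀ (by positivity)] at h2
  nlinarith

theorem fat_est {k h M : ℝ} (hk : 0 < k) (hh : 0 < h) (hM : 0 ≤ M) {K : Set ℝ} {f F : ℂ → ℂ}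
    {b : ℝ → ℂ} (hF : ∀ z ∈ saw k h K, HasDerivAt F (f z) z)
    (hb : ∀ x ∈ K, ∀ z ∈ cone k h x, ‖F z - b x‖ ≤ M * ‖z - x‖)
    {x₀ : ℝ} (hD : Dens K x₀) {A : ℂ} (hA : HasDerivWithinAt b A K x₀)
    {k' : ℝ} (hk' : 0 < k') {ε : ℝ} (hε : 0 < ε) :
    ∃ h'' > 0, ∀ z ∈ cone k' h'' x₀, ‖f z - A‖ ≤ ε := by
  have hN0 : 0 ≤ M + ‖A‖ := by positivity
  obtain ⟨C, s, η, ε₁, hC0, hs0, hη0, hη1, hε₁0, hε₁1, hC, hs, hest⟩ :=
    fat_const (N := M + ‖A‖) hk hk' hN0 hε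
  obtain ⟨ρ, hρ, hρb⟩ : ∃ ρ > 0, ∀ t ∈ K, |t - x₀| < ρ →
      ‖b t - b x₀ - ((t - x₀ : ℝ) : ℂ) * A‖ ≤ ε₁ * |t - x₀| := by
    have h1 := hA.isLittleO.def hε₁0
    rw [eventually_nhdsWithin_iff] at h1
    obtain ⟨ρ, hρ, h2⟩ := Metric.eventually_nhds_iff.mp h1
    refine ⟨ρ, hρ, fun t htK ht => ?_⟩
    have h3 := h2 (y := t) (by rwa [Real.dist_eq]) htK
    simpa only [Complex.real_smul, Real.norm_eq_abs] using h3
  obtain ⟨r₀, hr₀, hn⟩ := hD.near (η := k * η / (2 * (k' + 9))) (by positivity)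
  refine ⟨min (h / 9) (min (r₀ / (k' + 9)) (ρ / (k' + 9 + k))),
    lt_min (by positivity) (lt_min (by positivity) (by positivity)), fun z hz => ?_⟩
  have hY := cone_im_pos hk' hz
  obtain ⟨Y, hYdef⟩ : ∃ Y, Y = z.im := ⟨_, rfl⟩
  rw [← hYdef] at hY
  have hzi : Y < min (h / 9) (min (r₀ / (k' + 9)) (ρ / (k' + 9 + k))) := by
    rw [hYdef]; exact hz.2
  have hY1 : 9 * Y < h := by
    have := hzi.trans_le (min_le_left _ _)
    rw [lt_div_iff₀ (by norm_num)] at this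
    linarith
  have hY2 : (k' + 9) * Y < r₀ := by
    have := hzi.trans_le ((min_le_right _ _).trans (min_le_left _ _))
    rw [lt_div_iff₀ (by positivity)] at this
    linarith
  have hY3 : (k' + 9 + k) * Y < ρ := by
    have := hzi.trans_le ((min_le_right _ _).trans (min_le_right _ _))
    rw [lt_div_iff₀ (by positivity)] at this
    linarith
  have hX : |z.re - x₀| < k' * Y := by rw [hYdef]; exact hz.1
  obtain ⟨c, hcre, hcim⟩ : ∃ c : ℂ, c.re = z.re ∧ c.im = η * Y := ⟨⟨z.re, η * Y⟩, rfl, rfl⟩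
  have hn' : ∀ t : ℝ, |t - x₀| ≤ (k' + 9) * Y → ∃ s ∈ K, |s - t| ≤ k * (η * Y) / 2 := by
    intro t ht
    obtain ⟨s, hsK, hs⟩ := hn ((k' + 9) * Y) (by positivity) hY2 t ht
    refine ⟨s, hsK, hs.trans (le_of_eq ?_)⟩
    field_simp
  have hpt := fun (ζ : ℂ) h1 h2 => fat_pts (h := h) hk hk' hη0 hη1 hY hY1 hn' hX hcre hcim
    (ζ := ζ) h1 h2
  set g : ℂ → ℂ := fun ζ => F ζ - b x₀ - (ζ - x₀) * A with hg
  have hgb : ∀ ζ : ℂ, ‖ζ - c‖ ≤ 8 * Y → c.im ≤ ζ.im →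
      ‖g ζ‖ ≤ (M + ‖A‖) * (k * (η * Y) / 2 + ζ.im) + ε₁ * ((k' + 9 + k) * Y) := by
    intro ζ h1 h2
    obtain ⟨t, htK, ht, ht1, ht2, ht3⟩ := hpt ζ h1 h2
    exact fat_gb (Y := Y) hk hM hε₁0.le ht (hb t htK ζ ht) ht1 ht2
      (hρb t htK (ht2.trans_lt hY3))
  have hgd : ∀ ζ : ℂ, ‖ζ - c‖ ≤ 8 * Y → c.im ≤ ζ.im → HasDerivAt g (f ζ - A) ζ := by
    intro ζ h1 h2
    obtain ⟨t, htK, ht, -⟩ := hpt ζ h1 h2
    have h3 := (hF ζ (mem_saw.mpr ⟨t, htK, ht⟩)).sub_const (b x₀)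
    have h4 : HasDerivAt (fun ζ : ℂ => (ζ - x₀) * A) A ζ := by
      simpa using ((hasDerivAt_id ζ).sub_const (x₀ : ℂ)).mul_const A
    exact h3.sub h4
  refine (fat_cauchy (c := c) hY hC0.le hs0 hη0 hη1 hYdef.symm hcre hcim hgd ?_ ?_).trans hs
  · intro ζ h1 h2
    obtain ⟨t, htK, ht, ht1, ht2, ht3⟩ := hpt ζ h1 h2
    refine (hgb ζ h1 h2).trans ?_
    have h3 : k * (η * Y) / 2 + ζ.im ≤ (k + 9) * Y := by nlinarith [mul_pos hk hY]
    have h4 : (M + ‖A‖) * (k * (η * Y) / 2 + ζ.im) ≤ (M + ‖A‖) * ((k + 9) * Y) :=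
      mul_le_mul_of_nonneg_left h3 hN0
    have h5 : ε₁ * ((k' + 9 + k) * Y) ≤ 1 * ((k' + 9 + k) * Y) :=
      mul_le_mul_of_nonneg_right hε₁1 (by positivity)
    have h6 : C * Y = (M + ‖A‖) * ((k + 9) * Y) + (k' + 9 + k) * Y := by rw [hC]; ring
    linarith
  · intro ζ h1 h2
    refine (hgb ζ h1 h2.ge).trans ?_
    rw [h2, hcim]
    have h3 : (M + ‖A‖) * (k * (η * Y) / 2 + η * Y) + ε₁ * ((k' + 9 + k) * Y) =
        ((M + ‖A‖) * (k / 2 + 1) * η + ε₁ * (k' + 9 + k)) * Y := by ring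
    have h5 : C * Y * Real.exp (-s) = (C * Real.exp (-s)) * Y := by ring
    rw [h3, h5]
    exact mul_le_mul_of_nonneg_right hest hY.le

theorem fat_point {k h M : ℝ} (hk : 0 < k) (hh : 0 < h) (hM : 0 ≤ M) {K : Set ℝ} {f F : ℂ → ℂ}
    {b : ℝ → ℂ} (hF : ∀ z ∈ saw k h K, HasDerivAt F (f z) z)
    (hb : ∀ x ∈ K, ∀ z ∈ cone k h x, ‖F z - b x‖ ≤ M * ‖z - x‖)
    {x₀ : ℝ} (hD : Dens K x₀) {A : ℂ} (hA : HasDerivWithinAt b A K x₀) :
    ∀ k' > 0, ∃ h' > 0, cone k' h' x₀ ⊆ saw k h K ∧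
      Tendsto f (𝓝[cone k' h' x₀] (x₀ : ℂ)) (𝓝 A) := by
  intro k' hk'
  obtain ⟨h', hh', hsub⟩ := hD.cone_subset hk hh hk'
  refine ⟨h', hh', hsub, ?_⟩
  rw [Metric.tendsto_nhds]
  intro ε hε
  obtain ⟨h'', hh'', hest⟩ := fat_est hk hh hM hF hb hD hA hk' (half_pos hε)
  have h1 : ∀ᶠ z : ℂ in 𝓝 (x₀ : ℂ), z.im < h'' := by
    have : (x₀ : ℂ).im < h'' := by simpa using hh''
    exact (isOpen_lt Complex.continuous_im continuous_const).mem_nhds this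
  filter_upwards [mem_nhdsWithin_of_mem_nhds h1, self_mem_nhdsWithin] with z hz1 hz2
  rw [dist_eq_norm]
  exact (hest z ⟨hz2.1, hz1⟩).trans_lt (half_lt_self hε)

/-- local Fatou theorem on one sawtooth domain with a short base -/
theorem fat_core {k h M : ℝ} (hk : 0 < k) (hh : 0 < h) {K : Set ℝ}
    (hK : MeasurableSet K) {f : ℂ → ℂ} (hf : DifferentiableOn ℂ f (saw k h K))
    (hM : ∀ z ∈ saw k h K, ‖f z‖ ≤ M) {a : ℝ} (ha : ∀ x ∈ K, |x - a| < k * h / 2) :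
    ∀ᵐ x : ℝ, x ∈ K → ∃ L : ℂ, ∀ k' > 0, ∃ h' > 0, cone k' h' x ⊆ saw k h K ∧
      Tendsto f (𝓝[cone k' h' x] (x : ℂ)) (𝓝 L) := by
  rcases K.eq_empty_or_nonempty with rfl | ⟨y₀, hy₀⟩
  · simp
  set c : ℂ := (a : ℂ) + ((3 / 4 * h : ℝ) : ℂ) * I with hc
  have hcre : c.re = a := by simp [hc]
  have hcim : c.im = 3 / 4 * h := by simp [hc]
  have hcK : ∀ x ∈ K, c ∈ cone k h x := by
    intro x hx
    refine ⟨?_, by rw [hcim]; linarith⟩
    rw [hcre, hcim, abs_sub_comm]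
    have := ha x hx
    have : 0 < k * h := by positivity
    nlinarith
  have hM0 : 0 ≤ M := (norm_nonneg _).trans (hM c (mem_saw.mpr ⟨y₀, hy₀, hcK y₀ hy₀⟩))
  obtain ⟨F, hF⟩ := prim_star (isOpen_saw k h K) (starConvex_saw hcK) hf
  have hFl : ∀ x ∈ K, ∀ z ∈ cone k h x, ∀ w ∈ cone k h x, ‖F z - F w‖ ≤ M * ‖z - w‖ := by
    intro x hx z hz w hw
    exact (convex_cone k h x).norm_image_sub_le_of_norm_hasDerivWithin_le
      (fun ζ hζ => (hF ζ (mem_saw.mpr ⟨x, hx, hζ⟩)).hasDerivWithinAt)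
      (fun ζ hζ => hM ζ (mem_saw.mpr ⟨x, hx, hζ⟩)) hw hz
  obtain ⟨b, hb⟩ := exists_bdry hk hh hM0 hFl
  have hlip : LipschitzOnWith (Real.toNNReal (M * (1 + 3 / (2 * k)))) b K := by
    refine LipschitzOnWith.of_dist_le_mul fun x hx y hy => ?_
    rw [dist_eq_norm, Real.dist_eq, Real.coe_toNNReal _ (by positivity)]
    refine bdry_lipschitz hk hM0 hb hx hy ?_
    have h1 := ha x hx
    have h2 := ha y hy
    have h3 := abs_sub_le x a y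
    rw [abs_sub_comm a y] at h3
    linarith
  filter_upwards [ae_dens hK, hlip.ae_differentiableWithinAt_of_mem_real] with x hx1 hx2 hxK
  exact ⟨derivWithin b K x, fat_point hk hh hM0 hF hb (hx1 hxK) (hx2 hxK).hasDerivWithinAt⟩

/-- **Local Fatou theorem** (Privalov; Calderón).  If `f` is holomorphic on `D` and, for every
`x ∈ E`, `D` contains a truncated cone with vertex `x` on which `f` is bounded, then at almost
every point of `E` the function `f` has a limit in every cone. -/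
theorem fatloc {D : Set ℂ} {f : ℂ → ℂ} (hf : DifferentiableOn ℂ f D) {E : Set ℝ}
    (hE : ∀ x ∈ E, ∃ k > 0, ∃ h > 0, ∃ M : ℝ, cone k h x ⊆ D ∧ ∀ z ∈ cone k h x, ‖f z‖ ≤ M) :
    ∀ᵐ x : ℝ, x ∈ E → ∃ L : ℂ, ∀ k' > 0, ∃ h' > 0, cone k' h' x ⊆ D ∧
      Tendsto f (𝓝[cone k' h' x] (x : ℂ)) (𝓝 L) := by
  -- the countable cover
  set r : ℕ → ℝ := fun n => 1 / ((n : ℝ) + 1) with hr
  have hr0 : ∀ n, 0 < r n := fun n => by simp only [hr]; positivity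
  set K : ℕ → ℤ → Set ℝ := fun n j =>
    {x : ℝ | cone (r n) (r n) x ⊆ D ∧ ∀ z ∈ cone (r n) (r n) x, ‖f z‖ ≤ n} ∩
      Icc (j * (r n * r n / 4)) ((j + 1) * (r n * r n / 4)) with hK
  have hKm : ∀ n j, MeasurableSet (K n j) := fun n j =>
    (isClosed_coneBound.inter isClosed_Icc).measurableSet
  have hsaw : ∀ n j, saw (r n) (r n) (K n j) ⊆ D := by
    intro n j z hz
    obtain ⟨x, hx, hzx⟩ := mem_saw.mp hz
    exact hx.1.1 hzx
  have h1 : ∀ n j, ∀ᵐ x : ℝ, x ∈ K n j → ∃ L : ℂ, ∀ k' > 0, ∃ h' > 0,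
      cone k' h' x ⊆ saw (r n) (r n) (K n j) ∧
      Tendsto f (𝓝[cone k' h' x] (x : ℂ)) (𝓝 L) := by
    intro n j
    refine fat_core (M := n) (hr0 n) (hr0 n) (hKm n j) (hf.mono (hsaw n j)) ?_
      (a := j * (r n * r n / 4)) ?_
    · intro z hz
      obtain ⟨x, hx, hzx⟩ := mem_saw.mp hz
      exact hx.1.2 z hzx
    · intro x hx
      have h2 := hx.2.1
      have h3 := hx.2.2
      have h4 : 0 < r n * r n := mul_pos (hr0 n) (hr0 n)
      rw [abs_of_nonneg (by linarith)]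
      nlinarith
  have h2 : ∀ᵐ x : ℝ, ∀ n j, x ∈ K n j → ∃ L : ℂ, ∀ k' > 0, ∃ h' > 0,
      cone k' h' x ⊆ saw (r n) (r n) (K n j) ∧
      Tendsto f (𝓝[cone k' h' x] (x : ℂ)) (𝓝 L) :=
    ae_all_iff.mpr fun n => ae_all_iff.mpr fun j => h1 n j
  filter_upwards [h2] with x hx hxE
  obtain ⟨k, hk, h, hh, M, hcD, hM⟩ := hE x hxE
  obtain ⟨n, hn⟩ : ∃ n : ℕ, 1 / k ≤ n ∧ 1 / h ≤ n ∧ M ≤ n := by
    obtain ⟨n₁, h₁⟩ := exists_nat_ge (1 / k)
    obtain ⟨n₂, h₂⟩ := exists_nat_ge (1 / h)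
    obtain ⟨n₃, h₃⟩ := exists_nat_ge M
    refine ⟨max n₁ (max n₂ n₃), h₁.trans ?_, h₂.trans ?_, h₃.trans ?_⟩ <;>
      exact_mod_cast (by simp)
  have hrk : r n ≤ k := by
    simp only [hr]
    rw [div_le_iff₀ (by positivity)]
    have := (div_le_iff₀ hk).mp hn.1
    nlinarith
  have hrh : r n ≤ h := by
    simp only [hr]
    rw [div_le_iff₀ (by positivity)]
    have := (div_le_iff₀ hh).mp hn.2.1
    nlinarith
  have hsub : cone (r n) (r n) x ⊆ cone k h x := cone_mono (hr0 n) hrk hrh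
  have hrr : 0 < r n * r n / 4 := by have := hr0 n; positivity
  have hmem : x ∈ K n ⌊x / (r n * r n / 4)⌋ := by
    refine ⟨⟨hsub.trans hcD, fun z hz => (hM z (hsub hz)).trans hn.2.2⟩, ?_, ?_⟩
    · rw [← le_div_iff₀ hrr]
      exact Int.floor_le _
    · rw [← div_le_iff₀ hrr]
      exact (Int.lt_floor_add_one _).le
  obtain ⟨L, hL⟩ := hx n _ hmem
  refine ⟨L, fun k' hk' => ?_⟩
  obtain ⟨h', hh', hc, ht⟩ := hL k' hk'
  exact ⟨h', hh', hc.trans (hsaw n _), ht⟩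

end Vale.Agent.P097.H877.Bd
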