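import Vale.Agent.P097.H877.Bd.Hart
import Vale.Agent.P097.H407.Hol

/-!
Extension of holomorphic functions of two variables from a large disc on real slices `w = u`,
`u ∈ A`, near a density point of `A` (Hartogs-Terada type theorem).
-/

open Complex Metric Filter Topology Set MeasureTheory

namespace Vale.Agent.P097.H877.Bd

/-- sums of dominated series of holomorphic functions are holomorphic, any number of variables -/
theorem differentiableOn_tsum_dom {E : Type*} [NormedAddCommGroup E] [NormedSpace ℂ E] {U : Set E}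
    (hU : IsOpen U) {F : ℕ → E → ℂ} (hF : ∀ n, DifferentiableOn ℂ (F n) U) {u : ℕ → ℝ}
    (hu : Summable u) (hb : ∀ n x, x ∈ U → ‖F n x‖ ≤ u n) :
    DifferentiableOn ℂ (fun x => ∑' n, F n x) U := by
  intro x₀ hx₀
  obtain ⟨r, hr, hrU⟩ := Metric.isOpen_iff.1 hU x₀ hx₀
  have hr2 : 0 < r / 2 := by positivity
  have hsub : ∀ x ∈ ball x₀ (r / 2), ball x (r / 2) ⊆ U := by
    intro x hx y hy
    apply hrU
    rw [mem_ball] at hx hy ⊢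
    linarith [dist_triangle y x x₀]
  have h1 := hasFDerivAt_tsum_of_isPreconnected (𝕜 := ℂ) (f := F)
    (f' := fun n x => fderiv ℂ (F n) x) (hu.div_const (r / 2)) (isOpen_ball (x := x₀) (ε := r / 2))
    (convex_ball x₀ (r / 2)).isPreconnected
    (fun n x hx => ((hF n).differentiableAt (hU.mem_nhds
      (hsub x hx (mem_ball_self hr2)))).hasFDerivAt)
    (fun n x hx => Vale.Agent.P097.Hol.norm_fderiv_le_of_ball hr2 ((hF n).mono (hsub x hx))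
      fun y hy => hb n y (hsub x hx hy))
    (mem_ball_self hr2)
    (Summable.of_norm_bounded hu fun n => hb n x₀ hx₀) (mem_ball_self hr2)
  exact h1.differentiableAt.differentiableWithinAt

/-- the Taylor coefficients in the first variable -/
noncomputable def tc (f : ℂ × ℂ → ℂ) (ξ₁ : ℂ) (d : ℝ) (n : ℕ) (w : ℂ) : ℂ :=
  (cauchyPowerSeries (fun ξ => f (ξ, w)) ξ₁ d).coeff n

theorem tc_eq (f : ℂ × ℂ → ℂ) (ξ₁ : ℂ) (d : ℝ) (n : ℕ) (w : ℂ) :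
    tc f ξ₁ d n w = (2 * Real.pi * I : ℂ)⁻¹ •
      ∮ z in C(ξ₁, d), (1 / (z - ξ₁)) ^ n • (z - ξ₁)⁻¹ • f (z, w) := by
  have h := cauchyPowerSeries_apply (fun ξ => f (ξ, w)) ξ₁ d n 1
  exact h

theorem norm_coeff_le (g : ℂ → ℂ) {ξ₁ : ℂ} {d K : ℝ} (hd : 0 < d)
    (hK : ∀ z ∈ sphere ξ₁ d, ‖g z‖ ≤ K) (n : ℕ) :
    ‖(cauchyPowerSeries g ξ₁ d).coeff n‖ ≤ K * (d⁻¹) ^ n := by
  have h1 : ‖(cauchyPowerSeries g ξ₁ d).coeff n‖ ≤ ‖cauchyPowerSeries g ξ₁ d n‖ := by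
    rw [FormalMultilinearSeries.coeff]
    simp
  refine h1.trans ((norm_cauchyPowerSeries_le g ξ₁ d n).trans ?_)
  rw [abs_of_pos hd]
  refine mul_le_mul_of_nonneg_right ?_ (by positivity)
  have h2 : ∫ θ : ℝ in 0..2 * Real.pi, ‖g (circleMap ξ₁ d θ)‖ ≤ K * (2 * Real.pi) := by
    have h3 := intervalIntegral.norm_integral_le_of_norm_le_const (a := 0) (b := 2 * Real.pi)
      (f := fun θ : ℝ => ‖g (circleMap ξ₁ d θ)‖) (C := K) (fun θ _ => by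
        rw [norm_norm]
        exact hK _ (circleMap_mem_sphere ξ₁ hd.le θ))
    rw [sub_zero, abs_of_pos Real.two_pi_pos] at h3
    exact (le_abs_self _).trans h3
  calc (2 * Real.pi)⁻¹ * ∫ θ : ℝ in 0..2 * Real.pi, ‖g (circleMap ξ₁ d θ)‖
      ≤ (2 * Real.pi)⁻¹ * (K * (2 * Real.pi)) := by
        have := Real.pi_pos
        gcongr
    _ = K := by field_simp [Real.pi_ne_zero]

theorem hasSum_coeff {g : ℂ → ℂ} {ξ₁ : ℂ} {d : ℝ} (hd : 0 < d)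
    (hg : DifferentiableOn ℂ g (closedBall ξ₁ d)) {ξ : ℂ} (hξ : ξ ∈ ball ξ₁ d) :
    HasSum (fun n => (cauchyPowerSeries g ξ₁ d).coeff n * (ξ - ξ₁) ^ n) (g ξ) := by
  obtain ⟨R, hR⟩ : ∃ R : NNReal, (R : ℝ) = d := ⟨⟨d, hd.le⟩, rfl⟩
  subst hR
  have h1 := hg.hasFPowerSeriesOnBall (NNReal.coe_pos.mp hd)
  have h2 : ξ - ξ₁ ∈ Metric.eball (0 : ℂ) R := by
    rw [Metric.mem_eball, edist_zero_right]
    have h3 : ‖ξ - ξ₁‖ < R := by rwa [mem_ball, dist_eq_norm] at hξ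
    rw [← ofReal_norm]
    rw [← ENNReal.ofReal_coe_nnreal]
    exact (ENNReal.ofReal_lt_ofReal_iff hd).mpr h3
  have h3 := h1.hasSum h2
  rw [add_sub_cancel] at h3
  refine h3.congr_fun fun n => ?_
  rw [FormalMultilinearSeries.apply_eq_pow_smul_coeff, smul_eq_mul, mul_comm]

theorem coeff_congr {g₁ g₂ : ℂ → ℂ} {ξ₁ : ℂ} {d₁ d₂ : ℝ} (h₁ : 0 < d₁) (h₂ : 0 < d₂)
    (hg₁ : DifferentiableOn ℂ g₁ (closedBall ξ₁ d₁))
    (hg₂ : DifferentiableOn ℂ g₂ (closedBall ξ₁ d₂)) (heq : ∀ᶠ z in 𝓝 ξ₁, g₁ z = g₂ z) (n : ℕ) :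
    (cauchyPowerSeries g₁ ξ₁ d₁).coeff n = (cauchyPowerSeries g₂ ξ₁ d₂).coeff n := by
  obtain ⟨R₁, hR₁⟩ : ∃ R : NNReal, (R : ℝ) = d₁ := ⟨⟨d₁, h₁.le⟩, rfl⟩
  obtain ⟨R₂, hR₂⟩ : ∃ R : NNReal, (R : ℝ) = d₂ := ⟨⟨d₂, h₂.le⟩, rfl⟩
  subst hR₁
  subst hR₂
  have e1 := (hg₁.hasFPowerSeriesOnBall (NNReal.coe_pos.mp h₁)).hasFPowerSeriesAt
  have e2 := (hg₂.hasFPowerSeriesOnBall (NNReal.coe_pos.mp h₂)).hasFPowerSeriesAt
  rw [e1.eq_formalMultilinearSeries_of_eventually e2 heq]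

theorem differentiableOn_tc {ξ₁ : ℂ} {d d₁ : ℝ} (hd₁ : 0 < d₁) (hdd : d₁ < d) {V : Set ℂ}
    (hV : IsOpen V) {f : ℂ × ℂ → ℂ} (hf : DifferentiableOn ℂ f (ball ξ₁ d ×ˢ V)) (n : ℕ) :
    DifferentiableOn ℂ (tc f ξ₁ d₁ n) V := by
  have e : tc f ξ₁ d₁ n = fun w => (2 * Real.pi * I : ℂ)⁻¹ •
      ∮ z in C(ξ₁, d₁), (fun q : ℂ × ℂ => (1 / (q.2 - ξ₁)) ^ n • (q.2 - ξ₁)⁻¹ • f (q.2, q.1)) (w, z) := by
    ext w
    exact tc_eq f ξ₁ d₁ n w
  rw [e]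
  suffices h : DifferentiableOn ℂ (fun w => ∮ z in C(ξ₁, d₁),
      (fun q : ℂ × ℂ => (1 / (q.2 - ξ₁)) ^ n • (q.2 - ξ₁)⁻¹ • f (q.2, q.1)) (w, z)) V from
    h.const_smul ((2 * Real.pi * I : ℂ)⁻¹)
  refine Vale.Agent.P097.Hol.differentiableOn_circleIntegral
    (G := fun q : ℂ × ℂ => (1 / (q.2 - ξ₁)) ^ n • (q.2 - ξ₁)⁻¹ • f (q.2, q.1))
    (W := ball ξ₁ d \ {ξ₁}) hd₁.le hV
    (isOpen_ball.sdiff isClosed_singleton) ?_ ?_
  · intro z hz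
    refine ⟨sphere_subset_closedBall.trans (closedBall_subset_ball hdd) hz, ?_⟩
    rintro rfl
    rw [mem_sphere, dist_self] at hz
    exact hd₁.ne hz
  · have h1 : ∀ q ∈ V ×ˢ (ball ξ₁ d \ {ξ₁}), q.2 - ξ₁ ≠ 0 := fun q hq => sub_ne_zero.mpr hq.2.2
    have h2 : DifferentiableOn ℂ (fun q : ℂ × ℂ => q.2 - ξ₁) (V ×ˢ (ball ξ₁ d \ {ξ₁})) :=
      (differentiable_snd.sub_const ξ₁).differentiableOn
    have h3 : DifferentiableOn ℂ (fun q : ℂ × ℂ => f (q.2, q.1)) (V ×ˢ (ball ξ₁ d \ {ξ₁})) := by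
      refine hf.comp (differentiable_snd.prodMk differentiable_fst).differentiableOn ?_
      intro q hq
      exact ⟨hq.2.1, hq.1⟩
    have h4 : DifferentiableOn ℂ (fun q : ℂ × ℂ => (1 / (q.2 - ξ₁)) ^ n)
        (V ×ˢ (ball ξ₁ d \ {ξ₁})) := by
      simp only [one_div]
      exact (h2.fun_inv h1).fun_pow n
    exact h4.fun_smul ((h2.fun_inv h1).fun_smul h3)

/-- **Hartogs-Terada type extension theorem**.  Let `f` be holomorphic on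
`ball ξ₁ d × ball u₀ δ`, let `u₀` be a density point of `A ⊆ ℝ`, and suppose that for every
`u ∈ A` near `u₀` the function `f (·, u)` extends to a holomorphic function `g u` on `ball ξ₁ ρ₁`.
Then, for every `ρ < ρ₁`, `f` extends to a holomorphic function on `ball ξ₁ ρ × ball u₀ δ'`. -/
theorem hart {ξ₁ : ℂ} {u₀ d δ ρ₁ : ℝ} (hd : 0 < d) (hδ : 0 < δ) {f : ℂ × ℂ → ℂ}
    (hf : DifferentiableOn ℂ f (ball ξ₁ d ×ˢ ball (u₀ : ℂ) δ)) {A : Set ℝ} (hA : Dens A u₀)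
    {g : ℝ → ℂ → ℂ}
    (hg : ∀ u ∈ A, |u - u₀| < δ →
      DifferentiableOn ℂ (g u) (ball ξ₁ ρ₁) ∧ ∀ᶠ ξ in 𝓝 ξ₁, g u ξ = f (ξ, u))
    {ρ : ℝ} (hρ : 0 < ρ) (hρ1 : ρ < ρ₁) :
    ∃ δ' > 0, δ' ≤ δ ∧ ∃ F : ℂ × ℂ → ℂ,
      DifferentiableOn ℂ F (ball ξ₁ ρ ×ˢ ball (u₀ : ℂ) δ') ∧
      (∀ ξ w, ξ ∈ ball ξ₁ (min d ρ) → w ∈ ball (u₀ : ℂ) δ' → F (ξ, w) = f (ξ, w)) ∧
      ∀ u ∈ A, |u - u₀| < δ' → ∀ ξ ∈ ball ξ₁ ρ, F (ξ, u) = g u ξ := by
  -- radii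
  set d₁ : ℝ := d / 2 with hd₁
  have hd₁0 : 0 < d₁ := by positivity
  have hd₁d : d₁ < d := by rw [hd₁]; linarith
  set δ₁ : ℝ := δ / 2 with hδ₁
  have hδ₁0 : 0 < δ₁ := by positivity
  have hδ₁δ : δ₁ < δ := by rw [hδ₁]; linarith
  obtain ⟨r₃, hr₃, hr₃'⟩ := exists_between hρ1
  obtain ⟨r₂, hr₂, hr₂'⟩ := exists_between hr₃'
  obtain ⟨r₁, hr₁, hr₁'⟩ := exists_between hr₂'
  have hr₃0 : 0 < r₃ := hρ.trans hr₃
  have hr₂0 : 0 < r₂ := hr₃0.trans hr₂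
  have hr₁0 : 0 < r₁ := hr₂0.trans hr₁
  -- the bound of `f`
  obtain ⟨Kb, hKb⟩ : ∃ Kb : ℝ, ∀ z ∈ closedBall ξ₁ d₁, ∀ w ∈ closedBall (u₀ : ℂ) δ₁,
      ‖f (z, w)‖ ≤ Kb := by
    have hcomp : IsCompact (closedBall ξ₁ d₁ ×ˢ closedBall (u₀ : ℂ) δ₁) :=
      (isCompact_closedBall _ _).prod (isCompact_closedBall _ _)
    obtain ⟨C, hC⟩ := hcomp.exists_bound_of_continuousOn (hf.continuousOn.mono
      (prod_mono (closedBall_subset_ball hd₁d) (closedBall_subset_ball hδ₁δ)))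
    exact ⟨C, fun z hz w hw => hC (z, w) ⟨hz, hw⟩⟩
  have hKb0 : 0 ≤ Kb := (norm_nonneg _).trans
    (hKb ξ₁ (mem_closedBall_self hd₁0.le) u₀ (mem_closedBall_self hδ₁0.le))
  have hslice : ∀ w ∈ ball (u₀ : ℂ) δ, DifferentiableOn ℂ (fun ξ => f (ξ, w)) (ball ξ₁ d) := by
    intro w hw
    refine hf.comp (differentiable_id.prodMk (differentiable_const w)).differentiableOn ?_
    intro z hz
    exact ⟨hz, hw⟩
  have hsl : ∀ w ∈ ball (u₀ : ℂ) δ, DifferentiableOn ℂ (fun ξ => f (ξ, w)) (closedBall ξ₁ d₁) :=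
    fun w hw => (hslice w hw).mono (closedBall_subset_ball hd₁d)
  have hcb : ∀ n, ∀ w ∈ closedBall (u₀ : ℂ) δ₁, ‖tc f ξ₁ d₁ n w‖ ≤ Kb * (d₁⁻¹) ^ n := by
    intro n w hw
    exact norm_coeff_le _ hd₁0 (fun z hz => hKb z (sphere_subset_closedBall hz) w hw) n
  have hc : ∀ n, DifferentiableOn ℂ (tc f ξ₁ d₁ n) (ball (u₀ : ℂ) δ₁) := fun n =>
    (differentiableOn_tc hd₁0 hd₁d isOpen_ball hf n).mono (ball_subset_ball hδ₁δ.le)
  have hmemδ : ∀ u : ℝ, |u - u₀| < δ → (u : ℂ) ∈ ball (u₀ : ℂ) δ := by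
    intro u hu
    rw [mem_ball, dist_eq_norm, ← Complex.ofReal_sub, Complex.norm_real, Real.norm_eq_abs]
    exact hu
  -- growth on the disc
  have hM : ∀ᶠ n in atTop, ∀ w ∈ ball (u₀ : ℂ) δ₁, ‖tc f ξ₁ d₁ n w‖ ≤ ((Kb + 1) * d₁⁻¹) ^ n := by
    filter_upwards [eventually_ge_atTop 1] with n hn w hw
    refine (hcb n w (ball_subset_closedBall hw)).trans ?_
    rw [mul_pow]
    have h1 : Kb ≤ (Kb + 1) ^ n := by
      calc Kb ≤ Kb + 1 := by linarith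
        _ = (Kb + 1) ^ 1 := (pow_one _).symm
        _ ≤ (Kb + 1) ^ n := pow_le_pow_right₀ (by linarith) hn
    gcongr
  -- growth on `A`
  have hgc : ∀ u ∈ A, |u - u₀| < δ → ∀ n,
      tc f ξ₁ d₁ n u = (cauchyPowerSeries (g u) ξ₁ r₁).coeff n := by
    intro u hu huδ n
    obtain ⟨h1, h2⟩ := hg u hu huδ
    refine coeff_congr hd₁0 hr₁0 (hsl u (hmemδ u huδ))
      (h1.mono (closedBall_subset_ball hr₁')) ?_ n
    filter_upwards [h2] with z hz using hz.symm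
  have hAm : ∀ u ∈ A, |u - u₀| < δ₁ → ∀ᶠ n in atTop, ‖tc f ξ₁ d₁ n u‖ ≤ (r₂⁻¹) ^ n := by
    intro u hu huδ
    have huδ' : |u - u₀| < δ := huδ.trans hδ₁δ
    obtain ⟨h1, h2⟩ := hg u hu huδ'
    obtain ⟨Ku, hKu⟩ := (isCompact_sphere ξ₁ r₁).exists_bound_of_continuousOn
      (h1.continuousOn.mono (sphere_subset_closedBall.trans (closedBall_subset_ball hr₁')))
    have h3 : Tendsto (fun n : ℕ => Ku * (r₁⁻¹ * r₂) ^ n) atTop (𝓝 (Ku * 0)) := by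
      refine (tendsto_pow_atTop_nhds_zero_of_lt_one (by positivity) ?_).const_mul Ku
      rw [inv_mul_lt_iff₀ hr₁0]
      linarith
    rw [mul_zero] at h3
    filter_upwards [h3.eventually (gt_mem_nhds one_pos)] with n hn
    rw [hgc u hu huδ' n]
    refine (norm_coeff_le _ hr₁0 hKu n).trans ?_
    rw [mul_pow, ← mul_assoc] at hn
    have h4 : 0 < r₂ ^ n := by positivity
    rw [inv_pow r₂, ← one_div (r₂ ^ n), le_div_iff₀ h4]
    exact hn.le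
  -- the Hartogs lemma
  obtain ⟨δ', hδ'0, hδ'⟩ := hart_coeff (m' := r₃⁻¹) hδ₁0 hc (by positivity) hM hA hAm
    (by
      rw [inv_lt_inv₀ hr₂0 hr₃0]
      exact hr₂)
  obtain ⟨N, hN⟩ := eventually_atTop.mp hδ'
  set δ₂ : ℝ := min δ' δ₁ with hδ₂
  have hδ₂0 : 0 < δ₂ := lt_min hδ'0 hδ₁0
  have hδ₂δ₁ : δ₂ ≤ δ₁ := min_le_right _ _
  set F : ℂ × ℂ → ℂ := fun p => ∑' n, tc f ξ₁ d₁ n p.2 * (p.1 - ξ₁) ^ n with hF
  have hFd : DifferentiableOn ℂ F (ball ξ₁ ρ ×ˢ ball (u₀ : ℂ) δ₂) := by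
    refine differentiableOn_tsum_dom (isOpen_ball.prod isOpen_ball)
      (u := fun n => if n < N then Kb * (d₁⁻¹) ^ n * ρ ^ n else (r₃⁻¹ * ρ) ^ n) ?_ ?_ ?_
    · intro n
      refine DifferentiableOn.mul ?_ ?_
      · refine ((hc n).mono (ball_subset_ball hδ₂δ₁)).comp differentiable_snd.differentiableOn ?_
        intro p hp
        exact hp.2
      · exact ((differentiable_fst.sub_const ξ₁).pow n).differentiableOn
    · rw [← summable_nat_add_iff N]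
      have h1 : (fun n : ℕ => if n + N < N then Kb * (d₁⁻¹) ^ (n + N) * ρ ^ (n + N)
          else (r₃⁻¹ * ρ) ^ (n + N)) = fun n : ℕ => (r₃⁻¹ * ρ) ^ (n + N) := by
        ext n
        rw [if_neg (by omega)]
      rw [h1]
      have h2 : Summable fun n : ℕ => (r₃⁻¹ * ρ) ^ n := by
        refine summable_geometric_of_lt_one (by positivity) ?_
        rw [inv_mul_lt_iff₀ hr₃0]
        linarith
      exact (summable_nat_add_iff N).mpr h2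
    · intro n p hp
      rw [norm_mul, norm_pow]
      have h1 : ‖p.1 - ξ₁‖ ≤ ρ := by
        have := hp.1
        rw [mem_ball, dist_eq_norm] at this
        exact this.le
      have h2 : ‖p.1 - ξ₁‖ ^ n ≤ ρ ^ n := pow_le_pow_left₀ (norm_nonneg _) h1 n
      split_ifs with h3
      · exact mul_le_mul (hcb n _ (ball_subset_closedBall (ball_subset_ball hδ₂δ₁ hp.2))) h2
          (by positivity) (by positivity)
      · rw [mul_pow]
        exact mul_le_mul (hN n (not_lt.mp h3) _ (ball_subset_ball (min_le_left _ _) hp.2)) h2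
          (by positivity) (by positivity)
  -- `F = f` near `ξ₁`
  have hFf : ∀ ξ ∈ ball ξ₁ d₁, ∀ w ∈ ball (u₀ : ℂ) δ, F (ξ, w) = f (ξ, w) := by
    intro ξ hξ w hw
    exact (hasSum_coeff hd₁0 (hsl w hw) hξ).tsum_eq
  refine ⟨δ₂, hδ₂0, hδ₂δ₁.trans hδ₁δ.le, F, hFd, ?_, ?_⟩
  · intro ξ w hξ hw
    have hwδ : w ∈ ball (u₀ : ℂ) δ := ball_subset_ball (hδ₂δ₁.trans hδ₁δ.le) hw
    have hmin : 0 < min d ρ := lt_min hd hρ
    have h1 : AnalyticOnNhd ℂ (fun ξ => F (ξ, w)) (ball ξ₁ (min d ρ)) := by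
      refine DifferentiableOn.analyticOnNhd ?_ isOpen_ball
      refine hFd.comp (differentiable_id.prodMk (differentiable_const w)).differentiableOn ?_
      intro z hz
      exact ⟨ball_subset_ball (min_le_right _ _) hz, hw⟩
    have h2 : AnalyticOnNhd ℂ (fun ξ => f (ξ, w)) (ball ξ₁ (min d ρ)) :=
      ((hslice w hwδ).mono (ball_subset_ball (min_le_left _ _))).analyticOnNhd isOpen_ball
    refine h1.eqOn_of_preconnected_of_eventuallyEq h2 (convex_ball _ _).isPreconnected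
      (mem_ball_self hmin) ?_ hξ
    filter_upwards [isOpen_ball.mem_nhds (mem_ball_self hd₁0)] with z hz
    exact hFf z hz w hwδ
  · intro u hu huδ ξ hξ
    have huδ' : |u - u₀| < δ := huδ.trans_le (hδ₂δ₁.trans hδ₁δ.le)
    obtain ⟨h1, h2⟩ := hg u hu huδ'
    have h3 := hasSum_coeff hr₁0 (h1.mono (closedBall_subset_ball hr₁'))
      (ball_subset_ball (hr₃.le.trans (hr₂.le.trans hr₁.le)) hξ)
    have h4 : (fun n => (cauchyPowerSeries (g u) ξ₁ r₁).coeff n * (ξ - ξ₁) ^ n) =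
        fun n => tc f ξ₁ d₁ n u * (ξ - ξ₁) ^ n := by
      ext n
      rw [hgc u hu huδ' n]
    rw [h4] at h3
    exact h3.tsum_eq

end Vale.Agent.P097.H877.Bd
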