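import Vale.Agent.P097.H877.Bd.End6
import Vale.Agent.P097.H286.C.Defs

/-!
(A6) + (A7), both types, conclusion `CC.TopM`; conversion of 85's windows.
-/

open Complex Metric Filter Topology Set MeasureTheory
open scoped ComplexConjugate

namespace Vale.Agent.P097.H877.Bd

open Vale.Agent.P097.H85 Vale.Agent.P097.TA Vale.Agent.P097.H543

/-- **wall data**: `L_(j-1)` with coordinates `(al, pp)` on `Q`, the next line with coordinates
`(f₁, f₂)` (continued vertically from the base `B`), the position `θ` on `W`, the labels `A`. -/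
structure WD (H y₀ r ε c₁ s₁ s₂ b : ℝ) (k : ℂ) (F q : ℂ → ℂ) (A : Set ℝ) (R c : ℝ → ℝ)
    (W Q : Set (ℂ × ℂ)) (θ al pp : ℂ × ℂ → ℂ) (B : Set (ℂ × ℂ)) (f₁ f₂ : ℂ → ℂ → ℂ) : Prop where
  H0 : 0 < H
  r0 : 0 < r
  c0 : 0 < c₁
  ss : s₂ + 2 * ε / c₁ < s₁
  k0 : k ≠ 0
  dF : DifferentiableOn ℂ F {z : ℂ | |z.im| < H}
  dq : DifferentiableOn ℂ q {z : ℂ | |z.im| < H}
  wr : ∀ z : ℂ, |z.im| < H → deriv (deriv q) z * deriv F z - deriv q z * deriv (deriv F) z +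
    q z * deriv F z ^ 3 = k
  Rc : ∀ u ∈ A, ∃ d > 0, ∀ u' : ℝ, |u' - u| < d → R u + c u * (u' - u) - ε * |u' - u| ≤ R u'
  bR : ∀ u ∈ A, b < R u
  oW : IsOpen W
  dθ : DifferentiableOn ℂ θ W
  win : ∀ u ∈ A, ∀ t : ℂ, |t.re - y₀| < r → R u - r < t.im → t.im < R u →
    (t, (u : ℂ)) ∈ W ∧ -H < (θ (t, u)).im ∧ (θ (t, u)).im < H
  oQ : IsOpen Q
  dal : DifferentiableOn ℂ al Q
  dpp : DifferentiableOn ℂ pp Q
  WQ : W ⊆ Q
  inc : ∀ z ∈ W, deriv F (θ z) * (q (θ z) * cos (al z - F (θ z)) - pp z) +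
    deriv q (θ z) * sin (al z - F (θ z)) = 0
  Qc : ∀ u ∈ A, ∃ δ₁ > 0, ∀ t w : ℂ, |t.re - y₀| < r → R u - r < t.im →
    t.im < R u + c u * (w.re - u) + s₁ * w.im → c₁ * |w.re - u| < w.im → ‖w - u‖ < δ₁ →
    (t, w) ∈ Q
  Q1 : ∀ u ∈ A, ∃ K₀ : ℝ, ∃ δ₁ > 0, ∀ t w : ℂ, |t.re - y₀| < r → R u - r < t.im →
    t.im < R u - K₀ * ‖w - u‖ → ‖w - u‖ < δ₁ → (t, w) ∈ Q
  J : ∀ t w : ℂ, (t, w) ∈ Q → 0 < w.im →
    deriv (fun x => al (x, w)) t * deriv (fun z => pp (t, z)) w -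
    deriv (fun z => al (t, z)) w * deriv (fun x => pp (x, w)) t ≠ 0
  dnB : Dn b B
  jf₁ : JD f₁ B
  jf₂ : JD f₂ B
  M1 : ∀ u ∈ A, ∃ K₀ : ℝ, ∃ δ₁ > 0, ∀ t w : ℂ, |t.re - y₀| < r → R u - r < t.im →
    t.im < R u - K₀ * ‖w - u‖ → ‖w - u‖ < δ₁ → (t, w) ∈ Mx b f₁ B ∧ (t, w) ∈ Mx b f₂ B
  rel : ∀ z ∈ W, gx b f₁ B z.1 z.2 = 2 * F (θ z) - al z ∧
    gx b f₂ B z.1 z.2 = 2 * q (θ z) * cos (F (θ z) - al z) - pp z
  no : ∀ u ∈ A, ∀ x : ℝ, |x - y₀| < r → ∀ η > 0, ∃ t w : ℂ, |t.re - x| < η ∧ ‖w - u‖ < η ∧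
    c₁ * |w.re - u| < w.im ∧ b < t.im ∧ t.im < R u + c u * (w.re - u) + s₂ * w.im ∧
    ¬ ((t, w) ∈ Mx b f₁ B ∧ (t, w) ∈ Mx b f₂ B)

section
variable {H y₀ r ε c₁ s₁ s₂ b : ℝ} {k : ℂ} {F q : ℂ → ℂ} {A : Set ℝ} {R c : ℝ → ℝ}
  {W Q : Set (ℂ × ℂ)} {θ al pp : ℂ × ℂ → ℂ} {B : Set (ℂ × ℂ)} {f₁ f₂ : ℂ → ℂ → ℂ}

theorem WD.mono (D : WD H y₀ r ε c₁ s₁ s₂ b k F q A R c W Q θ al pp B f₁ f₂) {A' : Set ℝ}
    (h : A' ⊆ A) : WD H y₀ r ε c₁ s₁ s₂ b k F q A' R c W Q θ al pp B f₁ f₂ :=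
  { D with
    Rc := fun u hu => D.Rc u (h hu)
    bR := fun u hu => D.bR u (h hu)
    win := fun u hu => D.win u (h hu)
    Qc := fun u hu => D.Qc u (h hu)
    Q1 := fun u hu => D.Q1 u (h hu)
    M1 := fun u hu => D.M1 u (h hu)
    no := fun u hu => D.no u (h hu) }

/-- top type -/
theorem WD.top (D : WD H y₀ r ε c₁ s₁ s₂ b k F q A R c W Q θ al pp B f₁ f₂)
    (hA : volume A ≠ 0)
    (hlim : ∀ u ∈ A, ∀ᵐ x : ℝ, |x - y₀| < r →
      Tendsto (fun η : ℝ => (θ (x + (R u - η : ℝ) * I, u)).im) (𝓝[>] 0) (𝓝 H)) :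
    ∃ (a ε' : ℝ) (Z' q' : ℂ → ℂ), 0 < ε' ∧
      DifferentiableOn ℂ Z' (ball ((a : ℂ) + H * I) ε') ∧
      DifferentiableOn ℂ q' (ball ((a : ℂ) + H * I) ε') ∧
      ∀ z ∈ ball ((a : ℂ) + H * I) ε', z.im < H → Z' z = exp (I * F z) ∧ q' z = q z :=
  wall_end D.H0 D.r0 D.c0 D.ss D.k0 D.dF D.dq D.wr hA D.Rc D.bR D.oW D.dθ D.win hlim D.oQ D.dal
    D.dpp D.WQ D.inc D.Qc D.Q1 D.J D.dnB D.jf₁ D.jf₂ D.M1 D.rel D.no

theorem dneg (F : ℂ → ℂ) : deriv (fun x => F (-x)) = fun x => -deriv F (-x) := by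
  funext x
  exact deriv_comp_neg F x

theorem ddneg (F : ℂ → ℂ) : deriv (deriv (fun x => F (-x))) = fun x => deriv (deriv F) (-x) := by
  rw [dneg]
  funext x
  have h : (fun x => -deriv F (-x)) = -fun x => (deriv F) (-x) := rfl
  rw [h, deriv.neg, dneg]
  simp

/-- the data of the reflected curve `x ↦ γ (-x)` -/
theorem WD.refl (D : WD H y₀ r ε c₁ s₁ s₂ b k F q A R c W Q θ al pp B f₁ f₂) :
    WD H y₀ r ε c₁ s₁ s₂ b (-k) (fun x => F (-x)) (fun x => q (-x)) A R c W Q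
      (fun z => -θ z) al pp B f₁ f₂ := by
  have hm : ∀ z : ℂ, |z.im| < H → |(-z).im| < H := by
    intro z hz
    rw [neg_im, abs_neg]
    exact hz
  refine { D with
    k0 := neg_ne_zero.2 D.k0
    dF := DifferentiableOn.comp D.dF (differentiableOn_neg _) fun z hz => hm z hz
    dq := DifferentiableOn.comp D.dq (differentiableOn_neg _) fun z hz => hm z hz
    wr := ?_
    dθ := D.dθ.neg
    win := ?_
    inc := ?_
    rel := ?_ }
  · intro z hz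
    rw [ddneg, ddneg, dneg, dneg, ← D.wr (-z) (hm z hz)]
    ring
  · intro u hu t a1 a2 a3
    obtain ⟨e1, e2, e3⟩ := D.win u hu t a1 a2 a3
    refine ⟨e1, ?_, ?_⟩
    · rw [neg_im]; linarith
    · rw [neg_im]; linarith
  · intro z hz
    have h := D.inc z hz
    rw [dneg, dneg]
    simp only [neg_neg]
    linear_combination -h
  · intro z hz
    have h := D.rel z hz
    simp only [neg_neg]
    exact h

/-- bottom type: extension of the reflected curve -/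
theorem WD.bot (D : WD H y₀ r ε c₁ s₁ s₂ b k F q A R c W Q θ al pp B f₁ f₂)
    (hA : volume A ≠ 0)
    (hlim : ∀ u ∈ A, ∀ᵐ x : ℝ, |x - y₀| < r →
      Tendsto (fun η : ℝ => (θ (x + (R u - η : ℝ) * I, u)).im) (𝓝[>] 0) (𝓝 (-H))) :
    ∃ (a ε' : ℝ) (Z' q' : ℂ → ℂ), 0 < ε' ∧
      DifferentiableOn ℂ Z' (ball ((a : ℂ) + H * I) ε') ∧
      DifferentiableOn ℂ q' (ball ((a : ℂ) + H * I) ε') ∧
      ∀ z ∈ ball ((a : ℂ) + H * I) ε', z.im < H →
        Z' z = exp (I * F (-z)) ∧ q' z = q (-z) := by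
  refine D.refl.top hA ?_
  intro u hu
  filter_upwards [hlim u hu] with x hx h1
  have h2 := (hx h1).neg
  rw [neg_neg] at h2
  refine h2.congr fun η => ?_
  simp

theorem topM_of_ext {F q : ℂ → ℂ} {H : ℝ} (h : ∃ (a ε' : ℝ) (Z' q' : ℂ → ℂ), 0 < ε' ∧
      DifferentiableOn ℂ Z' (ball ((a : ℂ) + H * I) ε') ∧
      DifferentiableOn ℂ q' (ball ((a : ℂ) + H * I) ε') ∧
      ∀ z ∈ ball ((a : ℂ) + H * I) ε', z.im < H → Z' z = exp (I * F z) ∧ q' z = q z) :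
    CC.TopM H F q := by
  obtain ⟨a, ε', Z', q', h0, h1, h2, h3⟩ := h
  exact ⟨a, ε', Z', q', h0, fun z hz => (h1.analyticAt (isOpen_ball.mem_nhds hz)).meromorphicAt,
    fun z hz => (h2.analyticAt (isOpen_ball.mem_nhds hz)).meromorphicAt, h3⟩

theorem topM_of_ext_neg {F q : ℂ → ℂ} {H : ℝ} (hH : 0 < H)
    (hFc : ∀ z : ℂ, |z.im| < H → F (conj z) = conj (F z))
    (hqc : ∀ z : ℂ, |z.im| < H → q (conj z) = conj (q z))
    (h : ∃ (a ε' : ℝ) (Z' q' : ℂ → ℂ), 0 < ε' ∧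
      DifferentiableOn ℂ Z' (ball ((a : ℂ) + H * I) ε') ∧
      DifferentiableOn ℂ q' (ball ((a : ℂ) + H * I) ε') ∧
      ∀ z ∈ ball ((a : ℂ) + H * I) ε', z.im < H →
        Z' z = exp (I * F (-z)) ∧ q' z = q (-z)) :
    CC.TopM H F q := by
  obtain ⟨a, ε', Z', q', h0, h1, h2, h3⟩ := h
  have hm : ∀ z ∈ ball (((-a : ℝ) : ℂ) + H * I) (min ε' H),
      -conj z ∈ ball ((a : ℂ) + H * I) ε' ∧ -H < z.im := by
    intro z hz
    rw [mem_ball, dist_eq_norm] at hz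
    constructor
    · rw [mem_ball, dist_eq_norm]
      have e : -conj z - ((a : ℂ) + H * I) = -conj (z - (((-a : ℝ) : ℂ) + H * I)) := by
        simp only [map_sub, map_add, map_mul, conj_ofReal, conj_I]
        push_cast
        ring
      rw [e, norm_neg, norm_conj]
      exact hz.trans_le (min_le_left _ _)
    · have h4 := (Complex.abs_im_le_norm _).trans_lt (hz.trans_le (min_le_right _ _))
      have h5 := (abs_lt.1 h4).1
      simp only [sub_im, add_im, ofReal_im, mul_im, ofReal_re, I_im, mul_one, I_re, mul_zero,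
        add_zero, zero_add] at h5
      linarith
  have hA : ∀ {f : ℂ → ℂ}, DifferentiableOn ℂ f (ball ((a : ℂ) + H * I) ε') →
      AnalyticOnNhd ℂ (fun z => conj (f (-conj z)))
        (ball (((-a : ℝ) : ℂ) + H * I) (min ε' H)) := by
    intro f hf
    apply DifferentiableOn.analyticOnNhd _ isOpen_ball
    intro z hz
    have h5 : DifferentiableAt ℂ (fun x => f (-x)) (star z) := by
      have h6 : DifferentiableAt ℂ f (-(star z)) :=
        hf.differentiableAt (isOpen_ball.mem_nhds (hm z hz).1)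
      exact DifferentiableAt.comp (star z) (f := fun x : ℂ => -x) h6 differentiableAt_id.neg
    have h7 := h5.star_star
    rw [star_star] at h7
    exact h7.differentiableWithinAt
  refine ⟨-a, min ε' H, fun z => (conj (Z' (-conj z)))⁻¹, fun z => conj (q' (-conj z)),
    lt_min h0 hH, fun z hz => (hA h1 z hz).meromorphicAt.inv, fun z hz =>
      (hA h2 z hz).meromorphicAt, ?_⟩
  intro z hz hzH
  obtain ⟨e1, e2⟩ := hm z hz
  have hz' : |z.im| < H := abs_lt.2 ⟨e2, hzH⟩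
  obtain ⟨e3, e4⟩ := h3 _ e1 (by simpa using hzH)
  constructor
  · simp only []
    rw [e3, neg_neg, hFc z hz', ← exp_conj, ← exp_neg]
    congr 1
    simp only [map_mul, conj_I, conj_conj]
    ring
  · simp only []
    rw [e4, neg_neg, hqc z hz', conj_conj]

/-- **One type is impossible** (both types allowed, depending on the label). -/
theorem WD.topM (D : WD H y₀ r ε c₁ s₁ s₂ b k F q A R c W Q θ al pp B f₁ f₂)
    (hFc : ∀ z : ℂ, |z.im| < H → F (conj z) = conj (F z))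
    (hqc : ∀ z : ℂ, |z.im| < H → q (conj z) = conj (q z)) (hA : volume A ≠ 0)
    (hlim : ∀ u ∈ A,
      (∀ᵐ x : ℝ, |x - y₀| < r →
        Tendsto (fun η : ℝ => (θ (x + (R u - η : ℝ) * I, u)).im) (𝓝[>] 0) (𝓝 H)) ∨
      (∀ᵐ x : ℝ, |x - y₀| < r →
        Tendsto (fun η : ℝ => (θ (x + (R u - η : ℝ) * I, u)).im) (𝓝[>] 0) (𝓝 (-H)))) :
    CC.TopM H F q := by
  set A₁ : Set ℝ := {u | u ∈ A ∧ ∀ᵐ x : ℝ, |x - y₀| < r →
        Tendsto (fun η : ℝ => (θ (x + (R u - η : ℝ) * I, u)).im) (𝓝[>] 0) (𝓝 H)} with hA₁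
  set A₂ : Set ℝ := {u | u ∈ A ∧ ∀ᵐ x : ℝ, |x - y₀| < r →
        Tendsto (fun η : ℝ => (θ (x + (R u - η : ℝ) * I, u)).im) (𝓝[>] 0) (𝓝 (-H))} with hA₂
  have hcov : A ⊆ A₁ ∪ A₂ := by
    intro u hu
    rcases hlim u hu with h | h
    · exact Or.inl ⟨hu, h⟩
    · exact Or.inr ⟨hu, h⟩
  by_cases h1 : volume A₁ = 0
  · have h2 : volume A₂ ≠ 0 := by
      intro h2
      exact hA (measure_mono_null hcov (measure_union_null h1 h2))
    exact topM_of_ext_neg D.H0 hFc hqc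
      ((D.mono (A' := A₂) fun u hu => hu.1).bot h2 fun u hu => hu.2)
  · exact topM_of_ext ((D.mono (A' := A₁) fun u hu => hu.1).top h1 fun u hu => hu.2)

end

/-! ### 85's windows -/

/-- from `¬ Win ⊆ M` at all small scales -/
theorem not_of_win {M : Set (ℂ × ℂ)} {b u R₀ c x s s₂ c₀ c₁ Λ r₁ : ℝ} (hc : c₁ < c₀) (hc₀ : 0 < c₀)
    (hs : s < s₂) (hc1 : 0 < c₁) (hΛ : 0 ≤ Λ)
    (hr₁ : 0 < r₁) (h : ∀ r, 0 < r → r < r₁ → ¬ Win b u R₀ c x r s c₀ Λ ⊆ M) :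
    ∀ η > 0, ∃ t w : ℂ, |t.re - x| < η ∧ ‖w - u‖ < η ∧ c₁ * |w.re - u| < w.im ∧ b < t.im ∧
      t.im < R₀ + c * (w.re - u) + s₂ * w.im ∧ (t, w) ∉ M := by
  intro η hη
  set r : ℝ := min (r₁ / 2) (η / (2 * (Λ + 2))) with hr
  have hr0 : 0 < r := lt_min (by positivity) (by positivity)
  have hr1 : r < r₁ := (min_le_left _ _).trans_lt (by linarith)
  have hr2 : (Λ + 2) * r ≤ η / 2 := by
    have h1 : r ≤ η / (2 * (Λ + 2)) := min_le_right _ _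
    have h2 := mul_le_mul_of_nonneg_left h1 (by positivity : 0 ≤ Λ + 2)
    have h3 : (Λ + 2) * (η / (2 * (Λ + 2))) = η / 2 := by field_simp
    linarith
  have h4 := h r hr0 hr1
  rw [not_subset] at h4
  obtain ⟨⟨t, w⟩, ⟨a1, a2, a3, a4, a5, a6⟩, a7⟩ := h4
  simp only at a1 a2 a3 a4 a5 a6
  have hw0 : 0 < w.im := (mul_pos hc₀ hr0).trans_le a2
  refine ⟨t, w, ?_, ?_, ?_, a5, ?_, a7⟩
  · nlinarith
  · have h5 := norm_le_two a1 (by rw [abs_of_pos hw0]; exact a3)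
    nlinarith
  · have h6 : c₁ * |w.re - u| ≤ c₁ * r := mul_le_mul_of_nonneg_left a1 hc1.le
    have h7 : c₁ * r < c₀ * r := mul_lt_mul_of_pos_right hc hr0
    linarith
  · have h8 : s * w.im < s₂ * w.im := mul_lt_mul_of_pos_right hs hw0
    linarith

/-- from `Win ⊆ M` at all small scales and all abscissae -/
theorem of_win {M : Set (ℂ × ℂ)} {b u R₀ c y₀ r s c₀ Λ r₁ : ℝ} (hc₀ : 0 < c₀) (hc1 : c₀ ≤ 1)
    (hΛ : 0 ≤ Λ) (hr₁ : 0 < r₁)
    (h : ∀ y ρ, |y - y₀| < r → 0 < ρ → ρ < r₁ → Win b u R₀ c y ρ s c₀ Λ ⊆ M) :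
    ∃ δ₁ > 0, ∀ t w : ℂ, |t.re - y₀| < r → b < t.im →
      t.im < R₀ + c * (w.re - u) + s * w.im → c₀ * |w.re - u| < w.im → ‖w - u‖ < δ₁ →
      (t, w) ∈ M := by
  refine ⟨r₁, hr₁, ?_⟩
  intro t w a1 a2 a3 a4 a5
  have hw0 : 0 < w.im := (by positivity : 0 ≤ c₀ * |w.re - u|).trans_lt a4
  have hre : |w.re - u| ≤ ‖w - u‖ := by
    have := Complex.abs_re_le_norm (w - u)
    simpa using this
  have him : w.im ≤ ‖w - u‖ := by
    have := Complex.abs_im_le_norm (w - u)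
    simp only [sub_im, ofReal_im, sub_zero] at this
    exact (le_abs_self _).trans this
  have hm0 : 0 < max |w.re - u| w.im := hw0.trans_le (le_max_right _ _)
  apply h t.re (max |w.re - u| w.im) a1 hm0 ((max_le hre him).trans_lt a5)
  refine ⟨le_max_left _ _, ?_, le_max_right _ _, ?_, a2, a3.le⟩
  · show c₀ * max |w.re - u| w.im ≤ w.im
    rcases max_choice |w.re - u| w.im with h1 | h1
    · rw [h1]; exact a4.le
    · rw [h1]; nlinarith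
  · show |t.re - t.re| ≤ Λ * max |w.re - u| w.im
    rw [sub_self, abs_zero]
    positivity

end Vale.Agent.P097.H877.Bd
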