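import Mathlib

/-!
Boundary tools for (ALPHA): truncated cones, a weak form of the maximum principle,
density points.
-/

namespace Vale.Agent.P097.H877.Bd

open Set Filter Topology MeasureTheory Metric

/-- the truncated (open) cone of aperture `k`, height `h` and vertex `x` in the upper half plane -/
def cone (k h x : ℝ) : Set ℂ := {z | |z.re - x| < k * z.im ∧ z.im < h}

theorem isOpen_cone (k h x : ℝ) : IsOpen (cone k h x) := by
  have h1 : IsOpen {z : ℂ | |z.re - x| < k * z.im} :=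
    isOpen_lt (by fun_prop) (by fun_prop)
  have h2 : IsOpen {z : ℂ | z.im < h} := isOpen_lt (by fun_prop) (by fun_prop)
  exact h1.inter h2

theorem cone_im_pos {k h x : ℝ} (hk : 0 < k) {z : ℂ} (hz : z ∈ cone k h x) : 0 < z.im := by
  have := hz.1
  by_contra hneg
  push Not at hneg
  have h1 : k * z.im ≤ 0 := mul_nonpos_of_nonneg_of_nonpos hk.le hneg
  linarith [abs_nonneg (z.re - x)]

theorem cone_mono {k k' h h' x : ℝ} (hk : 0 < k) (hkk : k ≤ k') (hh : h ≤ h') :
    cone k h x ⊆ cone k' h' x := by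
  intro z hz
  have := cone_im_pos hk hz
  exact ⟨hz.1.trans_le (mul_le_mul_of_nonneg_right hkk this.le), hz.2.trans_le hh⟩

theorem convex_cone (k h x : ℝ) : Convex ℝ (cone k h x) := by
  intro z hz w hw a b ha hb hab
  obtain ⟨hz1, hz2⟩ := hz
  obtain ⟨hw1, hw2⟩ := hw
  rw [abs_lt] at hz1 hw1
  refine ⟨?_, ?_⟩
  · simp only [Complex.add_re, Complex.real_smul, Complex.mul_re, Complex.ofReal_re,
      Complex.ofReal_im, zero_mul, sub_zero, Complex.add_im, Complex.mul_im, add_zero]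
    have hx : x = a * x + b * x := by rw [← add_mul, hab, one_mul]
    rw [abs_lt]
    rcases eq_or_lt_of_le ha with ha0 | ha0
    · have hb1 : b = 1 := by linarith
      subst hb1
      rw [← ha0]
      constructor <;> nlinarith
    · constructor
      · nlinarith [mul_pos ha0 (sub_pos.mpr hz1.1), mul_nonneg hb (sub_pos.mpr hw1.1).le]
      · nlinarith [mul_pos ha0 (sub_pos.mpr hz1.2), mul_nonneg hb (sub_pos.mpr hw1.2).le]
  · simp only [Complex.add_im, Complex.real_smul, Complex.mul_im, Complex.ofReal_re,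
      Complex.ofReal_im, zero_mul, add_zero]
    rcases eq_or_lt_of_le ha with ha0 | ha0
    · have hb1 : b = 1 := by linarith
      subst hb1
      rw [← ha0]
      linarith
    · have hh : h = a * h + b * h := by rw [← add_mul, hab, one_mul]
      nlinarith [mul_pos ha0 (sub_pos.mpr hz2), mul_nonneg hb (sub_pos.mpr hw2).le]

/-- weak maximum principle: `limsup ‖g‖ ≤ C` at every boundary point -/
theorem norm_le_of_frontier {U : Set ℂ} (hU : Bornology.IsBounded U) (hUo : IsOpen U)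
    {g : ℂ → ℂ} (hg : DifferentiableOn ℂ g U) {C : ℝ}
    (hfr : ∀ ζ ∈ frontier U, ∀ δ > 0, ∀ᶠ z in 𝓝[U] ζ, ‖g z‖ ≤ C + δ) :
    ∀ z ∈ U, ‖g z‖ ≤ C := by
  intro z₀ hz₀
  refine le_of_forall_pos_le_add fun δ hδ => ?_
  set V : Set ℂ := {z | z ∈ U ∧ C + δ < ‖g z‖} with hV
  have hVo : IsOpen V := by
    have := hg.continuousOn.norm.isOpen_inter_preimage hUo (isOpen_Ioi (a := C + δ))
    exact this
  have hVU : V ⊆ U := fun z hz => hz.1
  have hcl : closure V ⊆ U := by
    intro ζ hζ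
    by_contra hζU
    have hfrζ : ζ ∈ frontier U := by
      rw [hUo.frontier_eq]
      exact ⟨closure_mono hVU hζ, hζU⟩
    have h1 := hfr ζ hfrζ δ hδ
    have h2 : ∃ᶠ z in 𝓝 ζ, z ∈ V := mem_closure_iff_frequently.mp hζ
    rw [eventually_nhdsWithin_iff] at h1
    obtain ⟨z, hzV, hz⟩ := (h2.and_eventually h1).exists
    exact absurd (hz hzV.1) (not_le.mpr hzV.2)
  have hd : DiffContOnCl ℂ g V :=
    ⟨hg.mono hVU, hg.continuousOn.mono hcl⟩
  have hfV : ∀ z ∈ frontier V, ‖g z‖ ≤ C + δ := by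
    intro z hz
    rw [hVo.frontier_eq] at hz
    by_contra hcon
    exact hz.2 ⟨hcl hz.1, not_le.mp hcon⟩
  by_contra hcon
  have hz₀V : z₀ ∈ V := ⟨hz₀, not_le.mp hcon⟩
  exact hcon (Complex.norm_le_of_forall_mem_frontier_norm_le (hU.subset hVU) hd hfV
    (subset_closure hz₀V))

/-- density points, in the form used below -/
def Dens (K : Set ℝ) (x : ℝ) : Prop :=
  ∀ ε > 0, ∃ r₀ > 0, ∀ r, 0 < r → r < r₀ →
    volume (closedBall x r \ K) ≤ ENNReal.ofReal (ε * r)

theorem ae_dens {K : Set ℝ} (hK : MeasurableSet K) : ∀ᵐ x ∂volume, x ∈ K → Dens K x := by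
  filter_upwards [Besicovitch.ae_tendsto_measure_inter_div_of_measurableSet
    (volume : Measure ℝ) hK.compl] with x hx hxK ε hε
  have h0 : (Kᶜ).indicator (1 : ℝ → ENNReal) x = 0 := by
    simp [hxK]
  rw [h0] at hx
  have h1 : ∀ᶠ r in 𝓝[>] (0:ℝ), volume (Kᶜ ∩ closedBall x r) / volume (closedBall x r)
      < ENNReal.ofReal (ε / 2) :=
    hx.eventually (gt_mem_nhds (by simpa using half_pos hε))
  rw [eventually_nhdsWithin_iff] at h1
  obtain ⟨r₀, hr₀, h2⟩ := Metric.eventually_nhds_iff.mp h1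
  refine ⟨r₀, hr₀, fun r hr hr0 => ?_⟩
  have h3 := h2 (y := r) (by simpa [abs_of_pos hr] using hr0) hr
  rw [Real.volume_closedBall] at h3
  have h4 : volume (Kᶜ ∩ closedBall x r) ≤ ENNReal.ofReal (ε / 2) * ENNReal.ofReal (2 * r) := by
    have h5 : ENNReal.ofReal (2 * r) ≠ 0 := by simp [hr]
    have h6 : ENNReal.ofReal (2 * r) ≠ ⊤ := ENNReal.ofReal_ne_top
    exact (ENNReal.div_le_iff h5 h6).mp h3.le
  rw [← ENNReal.ofReal_mul (by positivity)] at h4
  have h7 : closedBall x r \ K = Kᶜ ∩ closedBall x r := by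
    ext y; simp [and_comm]
  rw [h7]
  refine h4.trans (ENNReal.ofReal_le_ofReal (by nlinarith))

/-- near a density point the set is relatively dense at every small scale -/
theorem Dens.near {K : Set ℝ} {x : ℝ} (h : Dens K x) {η : ℝ} (hη : 0 < η) :
    ∃ r₀ > 0, ∀ r, 0 < r → r < r₀ → ∀ t, |t - x| ≤ r → ∃ s ∈ K, |s - t| ≤ η * r := by
  set η' := min η 1 with hη'
  have hη'0 : 0 < η' := lt_min hη one_pos
  obtain ⟨r₀, hr₀, h1⟩ := h (η' / 2) (by positivity)
  refine ⟨r₀ / 2, by positivity, fun r hr hr0 t ht => ?_⟩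
  by_contra hcon
  push Not at hcon
  have hsub : Ioo (t - η' * r) (t + η' * r) ⊆ closedBall x (2 * r) \ K := by
    intro s hs
    have hs' : |s - t| ≤ η' * r := by
      rw [abs_le]; constructor <;> linarith [hs.1, hs.2]
    refine ⟨?_, fun hsK => ?_⟩
    · rw [mem_closedBall, Real.dist_eq]
      have : |s - x| ≤ |s - t| + |t - x| := abs_sub_le _ _ _
      have h2 : η' * r ≤ 1 * r := mul_le_mul_of_nonneg_right (min_le_right _ _) hr.le
      linarith
    · have := hcon s hsK
      have h2 : η' * r ≤ η * r := mul_le_mul_of_nonneg_right (min_le_left _ _) hr.le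
      linarith
  have h2 := (measure_mono hsub).trans (h1 (2 * r) (by positivity) (by linarith))
  rw [Real.volume_Ioo] at h2
  have h3 : t + η' * r - (t - η' * r) ≤ η' / 2 * (2 * r) :=
    (ENNReal.ofReal_le_ofReal_iff (by positivity)).mp h2
  nlinarith [mul_pos hη'0 hr]

end Vale.Agent.P097.H877.Bd
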