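import Mathlib

/-!
(A7), part 1: from a meromorphic extension of the curve point across one point of the line
`Im = b` to an analytic extension of `exp (i F)` and `q` across a nearby point.
-/

open Complex Metric Filter Topology Set

namespace Vale.Agent.P097.H877.Bd

/-- a holomorphic function on a disc which does not vanish identically does not vanish identically
on the horizontal diameter -/
theorem exists_line_ne {f : ℂ → ℂ} {c : ℂ} {r : ℝ} (hf : DifferentiableOn ℂ f (ball c r))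
    (hne : ∃ z ∈ ball c r, f z ≠ 0) :
    ∃ x : ℝ, |x - c.re| < r ∧ f ((x : ℂ) + c.im * I) ≠ 0 := by
  by_contra hcon
  push Not at hcon
  obtain ⟨z, hz, hfz⟩ := hne
  have hr : 0 < r := dist_nonneg.trans_lt hz
  have ha : AnalyticOnNhd ℂ f (ball c r) := hf.analyticOnNhd isOpen_ball
  have hfr : ∃ᶠ z in 𝓝[≠] c, f z = 0 := by
    have hT : Tendsto (fun s : ℝ => c + (s : ℂ)) (𝓝[>] 0) (𝓝[≠] c) := by
      apply tendsto_nhdsWithin_iff.2
      constructor
      · have : Continuous fun s : ℝ => c + (s : ℂ) := by fun_prop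
        have h := this.tendsto 0
        simp only [ofReal_zero, add_zero] at h
        exact h.mono_left nhdsWithin_le_nhds
      · filter_upwards [self_mem_nhdsWithin] with s hs
        simpa using (ne_of_gt hs : s ≠ 0)
    have h0 : ∀ᶠ s : ℝ in 𝓝[>] 0, f (c + (s : ℂ)) = 0 := by
      have h1 : ∀ᶠ s : ℝ in 𝓝[>] 0, s < r := nhdsWithin_le_nhds (gt_mem_nhds hr)
      filter_upwards [h1, self_mem_nhdsWithin] with s h2 h3
      have h3' : 0 < s := h3
      have := hcon (c.re + s) (by simpa [abs_of_pos h3'] using h2)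
      rw [← this]
      congr 1
      apply Complex.ext <;> simp
    exact hT.frequently h0.frequently
  have hev := (ha c (mem_ball_self hr)).frequently_zero_iff_eventually_zero.1 hfr
  exact hfz (ha.eqOn_zero_of_preconnected_of_eventuallyEq_zero (convex_ball c r).isPreconnected
    (mem_ball_self hr) hev hz)

/-- local square root -/
theorem exists_sqrt {D : ℂ → ℂ} {c : ℂ} {r : ℝ} (hr : 0 < r) (hD : DifferentiableOn ℂ D (ball c r))
    (h0 : D c ≠ 0) : ∃ ε > 0, ε ≤ r ∧ ∃ s : ℂ → ℂ, DifferentiableOn ℂ s (ball c ε) ∧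
      ∀ z ∈ ball c ε, s z ^ 2 = D z ∧ s z ≠ 0 := by
  have hc : ContinuousAt (fun z => D z / D c) c :=
    ((hD.differentiableAt (isOpen_ball.mem_nhds (mem_ball_self hr))).continuousAt).div_const _
  have hev : ∀ᶠ z in 𝓝 c, D z / D c ∈ slitPlane := by
    apply hc.eventually
    apply isOpen_slitPlane.mem_nhds
    show D c / D c ∈ slitPlane
    rw [div_self h0]
    exact one_mem_slitPlane
  obtain ⟨ε, hε, hh⟩ := Metric.eventually_nhds_iff_ball.mp hev
  refine ⟨min ε r, lt_min hε hr, min_le_right _ _, fun z => exp (log (D c) / 2) *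
    exp (log (D z / D c) / 2), ?_, ?_⟩
  · intro z hz
    have hz1 : z ∈ ball c ε := ball_subset_ball (min_le_left _ _) hz
    have hz2 : z ∈ ball c r := ball_subset_ball (min_le_right _ _) hz
    have h1 : DifferentiableAt ℂ D z := hD.differentiableAt (isOpen_ball.mem_nhds hz2)
    have h2 : DifferentiableAt ℂ (fun z => log (D z / D c)) z :=
      (h1.div_const _).clog (hh z hz1)
    exact (((h2.div_const 2).cexp).const_mul _).differentiableWithinAt
  · intro z hz
    have hz1 : z ∈ ball c ε := ball_subset_ball (min_le_left _ _) hz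
    have h3 : D z / D c ≠ 0 := slitPlane_ne_zero (hh z hz1)
    refine ⟨?_, mul_ne_zero (exp_ne_zero _) (exp_ne_zero _)⟩
    rw [mul_pow, ← exp_nat_mul, ← exp_nat_mul]
    have e1 : ((2 : ℕ) : ℂ) * (log (D c) / 2) = log (D c) := by push_cast; ring
    have e2 : ((2 : ℕ) : ℂ) * (log (D z / D c) / 2) = log (D z / D c) := by push_cast; ring
    rw [e1, e2, exp_log h0, exp_log h3]
    field_simp

/-- derivative of the curve point -/
theorem curve_deriv {F q : ℂ → ℂ} {z : ℂ} {k : ℂ} (hF : AnalyticAt ℂ F z) (hq : AnalyticAt ℂ q z)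
    (h0 : deriv F z ≠ 0)
    (wr : deriv (deriv q) z * deriv F z - deriv q z * deriv (deriv F) z + q z * deriv F z ^ 3 = k) :
    HasDerivAt (fun z => q z * cos (F z) - deriv q z / deriv F z * sin (F z))
      (-(k / deriv F z ^ 2) * sin (F z)) z ∧
    HasDerivAt (fun z => q z * sin (F z) + deriv q z / deriv F z * cos (F z))
      (k / deriv F z ^ 2 * cos (F z)) z := by
  have h1 : HasDerivAt F (deriv F z) z := hF.differentiableAt.hasDerivAt
  have h2 : HasDerivAt q (deriv q z) z := hq.differentiableAt.hasDerivAt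
  have h3 : HasDerivAt (deriv F) (deriv (deriv F) z) z := hF.deriv.differentiableAt.hasDerivAt
  have h4 : HasDerivAt (deriv q) (deriv (deriv q) z) z := hq.deriv.differentiableAt.hasDerivAt
  have h5 := h4.div h3 h0
  have hs := (Complex.hasDerivAt_sin (F z)).comp z h1
  have hc := (Complex.hasDerivAt_cos (F z)).comp z h1
  subst wr
  constructor
  · refine ((h2.mul hc).sub (h5.mul hs)).congr_deriv ?_
    simp only [Function.comp_apply, Pi.div_apply]
    field_simp
    ring
  · refine ((h2.mul hs).add (h5.mul hc)).congr_deriv ?_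
    simp only [Function.comp_apply, Pi.div_apply]
    field_simp
    ring

/-- **end of (E2)**: if the curve point `(q cos F - (q'/F') sin F, q sin F + (q'/F') cos F)` is
meromorphic at a point of the line `Im = b`, then `exp (i F)` and `q` extend across a point of this
line. -/
theorem top_of_cross {b r : ℝ} {k : ℂ} (hk : k ≠ 0) {b₀ : ℂ} (hb₀ : b₀.im = b)
    {F q : ℂ → ℂ} (dF : DifferentiableOn ℂ F {z | z ∈ ball b₀ r ∧ z.im < b})
    (dq : DifferentiableOn ℂ q {z | z ∈ ball b₀ r ∧ z.im < b})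
    (wr : ∀ z ∈ ball b₀ r, z.im < b →
      deriv (deriv q) z * deriv F z - deriv q z * deriv (deriv F) z + q z * deriv F z ^ 3 = k)
    {N₁ N₂ N₃ : ℂ → ℂ} (h1 : DifferentiableOn ℂ N₁ (ball b₀ r))
    (h2 : DifferentiableOn ℂ N₂ (ball b₀ r)) (h3 : DifferentiableOn ℂ N₃ (ball b₀ r))
    (hne : ∃ z ∈ ball b₀ r, N₃ z ≠ 0)
    (he1 : ∀ z ∈ ball b₀ r, z.im < b →
      N₃ z * (q z * deriv F z * cos (F z) - deriv q z * sin (F z)) = N₁ z * deriv F z)
    (he2 : ∀ z ∈ ball b₀ r, z.im < b →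
      N₃ z * (q z * deriv F z * sin (F z) + deriv q z * cos (F z)) = N₂ z * deriv F z) :
    ∃ (a ε : ℝ) (Z' q' : ℂ → ℂ), 0 < ε ∧ ball ((a : ℂ) + b * I) ε ⊆ ball b₀ r ∧
      DifferentiableOn ℂ Z' (ball ((a : ℂ) + b * I) ε) ∧
      DifferentiableOn ℂ q' (ball ((a : ℂ) + b * I) ε) ∧
      ∀ z ∈ ball ((a : ℂ) + b * I) ε, z.im < b → Z' z = exp (I * F z) ∧ q' z = q z := by
  have hOo : IsOpen {z : ℂ | z ∈ ball b₀ r ∧ z.im < b} :=
    isOpen_ball.inter (isOpen_lt continuous_im continuous_const)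
  have aF : ∀ z ∈ ball b₀ r, z.im < b → AnalyticAt ℂ F z := fun z hz hzb =>
    dF.analyticAt (hOo.mem_nhds ⟨hz, hzb⟩)
  have aq : ∀ z ∈ ball b₀ r, z.im < b → AnalyticAt ℂ q z := fun z hz hzb =>
    dq.analyticAt (hOo.mem_nhds ⟨hz, hzb⟩)
  -- the first centre
  obtain ⟨x₁, hx₁, hN₁⟩ := exists_line_ne h3 hne
  set c₁ : ℂ := (x₁ : ℂ) + b₀.im * I with hc₁
  have hc₁b : c₁ ∈ ball b₀ r := by
    rw [mem_ball, dist_eq_norm]
    have : c₁ - b₀ = ((x₁ - b₀.re : ℝ) : ℂ) := by
      apply Complex.ext <;> simp [hc₁]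
    rw [this, norm_real, Real.norm_eq_abs]
    exact hx₁
  have hc₁i : c₁.im = b := by simp [hc₁, hb₀]
  have hev : ∀ᶠ z in 𝓝 c₁, z ∈ ball b₀ r ∧ N₃ z ≠ 0 := by
    have a1 : ContinuousAt N₃ c₁ := (h3.differentiableAt (isOpen_ball.mem_nhds hc₁b)).continuousAt
    have a2 : ∀ᶠ z in 𝓝 c₁, z ∈ ball b₀ r := isOpen_ball.mem_nhds hc₁b
    exact a2.and (a1.eventually_ne hN₁)
  obtain ⟨r₁, hr₁, hh₁⟩ := Metric.eventually_nhds_iff_ball.mp hev
  set X : ℂ → ℂ := fun z => N₁ z / N₃ z with hX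
  set Y : ℂ → ℂ := fun z => N₂ z / N₃ z with hY
  have dX : DifferentiableOn ℂ X (ball c₁ r₁) := by
    intro z hz
    have hm := isOpen_ball.mem_nhds (hh₁ z hz).1
    exact ((h1.differentiableAt hm).div (h3.differentiableAt hm) (hh₁ z hz).2).differentiableWithinAt
  have dY : DifferentiableOn ℂ Y (ball c₁ r₁) := by
    intro z hz
    have hm := isOpen_ball.mem_nhds (hh₁ z hz).1
    exact ((h2.differentiableAt hm).div (h3.differentiableAt hm) (hh₁ z hz).2).differentiableWithinAt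
  -- `F'` does not vanish below
  have hF' : ∀ z ∈ ball c₁ r₁, z.im < b → deriv F z ≠ 0 := by
    intro z hz hzb h0
    obtain ⟨e1, e2⟩ := hh₁ z hz
    have e3 := he1 z e1 hzb
    have e4 := he2 z e1 hzb
    have e5 := wr z e1 hzb
    rw [h0] at e3 e4 e5
    have e6 : deriv q z * sin (F z) = 0 := by
      have : N₃ z * (deriv q z * sin (F z)) = 0 := by linear_combination -e3
      exact (mul_eq_zero.1 this).resolve_left e2
    have e7 : deriv q z * cos (F z) = 0 := by
      have : N₃ z * (deriv q z * cos (F z)) = 0 := by linear_combination e4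
      exact (mul_eq_zero.1 this).resolve_left e2
    have e8 : deriv q z = 0 := by
      linear_combination sin (F z) * e6 + cos (F z) * e7 - deriv q z * sin_sq_add_cos_sq (F z)
    apply hk
    rw [← e5, e8]
    ring
  have hXe : ∀ z ∈ ball c₁ r₁, z.im < b →
      X z = q z * cos (F z) - deriv q z / deriv F z * sin (F z) ∧
      Y z = q z * sin (F z) + deriv q z / deriv F z * cos (F z) := by
    intro z hz hzb
    have e0 := hF' z hz hzb
    obtain ⟨e1, e2⟩ := hh₁ z hz
    have e3 := he1 z e1 hzb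
    have e4 := he2 z e1 hzb
    constructor
    · simp only [hX]
      rw [div_eq_iff e2]
      field_simp
      linear_combination -e3
    · simp only [hY]
      rw [div_eq_iff e2]
      field_simp
      linear_combination -e4
  have hO₁ : IsOpen {z : ℂ | z ∈ ball c₁ r₁ ∧ z.im < b} :=
    isOpen_ball.inter (isOpen_lt continuous_im continuous_const)
  have hXd : ∀ z ∈ ball c₁ r₁, z.im < b →
      deriv X z = -(k / deriv F z ^ 2) * sin (F z) ∧ deriv Y z = k / deriv F z ^ 2 * cos (F z) := by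
    intro z hz hzb
    obtain ⟨e1, e2⟩ := curve_deriv (aF z (hh₁ z hz).1 hzb) (aq z (hh₁ z hz).1 hzb)
      (hF' z hz hzb) (wr z (hh₁ z hz).1 hzb)
    have hn := hO₁.mem_nhds (show z ∈ {z : ℂ | z ∈ ball c₁ r₁ ∧ z.im < b} from ⟨hz, hzb⟩)
    constructor
    · rw [← e1.deriv]
      apply Filter.EventuallyEq.deriv_eq
      filter_upwards [hn] with ζ hζ using (hXe ζ hζ.1 hζ.2).1
    · rw [← e2.deriv]
      apply Filter.EventuallyEq.deriv_eq
      filter_upwards [hn] with ζ hζ using (hXe ζ hζ.1 hζ.2).2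
  -- the second centre
  set D : ℂ → ℂ := fun z => deriv X z ^ 2 + deriv Y z ^ 2 with hD
  have dX' : DifferentiableOn ℂ (deriv X) (ball c₁ r₁) := dX.deriv isOpen_ball
  have dY' : DifferentiableOn ℂ (deriv Y) (ball c₁ r₁) := dY.deriv isOpen_ball
  have dD : DifferentiableOn ℂ D (ball c₁ r₁) := (dX'.pow 2).add (dY'.pow 2)
  have hDe : ∀ z ∈ ball c₁ r₁, z.im < b → D z = (k / deriv F z ^ 2) ^ 2 := by
    intro z hz hzb
    obtain ⟨e1, e2⟩ := hXd z hz hzb
    simp only [hD]
    rw [e1, e2]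
    linear_combination (k / deriv F z ^ 2) ^ 2 * sin_sq_add_cos_sq (F z)
  have hDne : ∃ z ∈ ball c₁ r₁, D z ≠ 0 := by
    refine ⟨c₁ - ((r₁ / 2 : ℝ) : ℂ) * I, ?_, ?_⟩
    · rw [mem_ball, dist_eq_norm]
      simp only [sub_sub_cancel_left, norm_neg, norm_mul, norm_real, norm_I, mul_one,
        Real.norm_eq_abs]
      rw [abs_of_pos (by positivity)]
      linarith
    · have e1 : c₁ - ((r₁ / 2 : ℝ) : ℂ) * I ∈ ball c₁ r₁ := by
        rw [mem_ball, dist_eq_norm]
        simp only [sub_sub_cancel_left, norm_neg, norm_mul, norm_real, norm_I, mul_one,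
          Real.norm_eq_abs]
        rw [abs_of_pos (by positivity)]
        linarith
      have e2 : (c₁ - ((r₁ / 2 : ℝ) : ℂ) * I).im < b := by
        simp only [sub_im, mul_im, ofReal_re, I_im, mul_one, ofReal_im, I_re, mul_zero, add_zero]
        linarith
      rw [hDe _ e1 e2]
      exact pow_ne_zero _ (div_ne_zero hk (pow_ne_zero _ (hF' _ e1 e2)))
  obtain ⟨x₂, hx₂, hD₂⟩ := exists_line_ne dD hDne
  rw [hc₁i] at hD₂
  set c₂ : ℂ := (x₂ : ℂ) + b * I with hc₂
  have hc₂b : c₂ ∈ ball c₁ r₁ := by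
    rw [mem_ball, dist_eq_norm]
    have : c₂ - c₁ = ((x₂ - c₁.re : ℝ) : ℂ) := by
      apply Complex.ext
      · simp [hc₂]
      · simp [hc₂, hc₁i]
    rw [this, norm_real, Real.norm_eq_abs]
    exact hx₂
  have hc₂i : c₂.im = b := by simp [hc₂]
  obtain ⟨r₂, hr₂, hh₂⟩ := Metric.isOpen_iff.1 isOpen_ball c₂ hc₂b
  obtain ⟨ε, hε, hεr, s, ds, hs⟩ := exists_sqrt hr₂ (dD.mono hh₂) hD₂
  have hsub : ball c₂ ε ⊆ ball c₁ r₁ := (ball_subset_ball hεr).trans hh₂
  -- sign of the root
  set S : Set ℂ := {z | z ∈ ball c₂ ε ∧ z.im < b} with hS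
  have hSc : Convex ℝ S := (convex_ball c₂ ε).inter (convex_halfSpace_im_lt b)
  have hSsub : ∀ z ∈ S, z ∈ ball c₁ r₁ ∧ z.im < b := fun z hz => ⟨hsub hz.1, hz.2⟩
  have hcρ : ContinuousOn (fun z => k / deriv F z ^ 2) S := by
    apply ContinuousOn.div continuousOn_const
    · apply ContinuousOn.pow
      intro z hz
      have hz' := hSsub z hz
      exact (aF z (hh₁ z hz'.1).1 hz'.2).deriv.continuousAt.continuousWithinAt
    · intro z hz
      exact pow_ne_zero _ (hF' z (hSsub z hz).1 hz.2)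
  have hsg := IsPreconnected.eq_or_eq_neg_of_sq_eq hSc.isPreconnected
    (ds.continuousOn.mono fun z hz => hz.1) hcρ (by
      intro z hz
      simp only [Pi.pow_apply]
      rw [(hs z hz.1).1, hDe z (hSsub z hz).1 hz.2]) (by
      intro z hz
      exact div_ne_zero hk (pow_ne_zero _ (hF' z (hSsub z hz).1 hz.2)))
  obtain ⟨σ, hσ, hσs⟩ : ∃ σ : ℂ, σ ^ 2 = 1 ∧ ∀ z ∈ S, σ * s z = k / deriv F z ^ 2 := by
    rcases hsg with h | h
    · exact ⟨1, by norm_num, fun z hz => by rw [one_mul]; exact h hz⟩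
    · refine ⟨-1, by norm_num, fun z hz => ?_⟩
      have := h hz
      simp only [Pi.neg_apply] at this
      rw [this]; ring
  have hσ0 : σ ≠ 0 := by
    intro h; rw [h] at hσ; norm_num at hσ
  refine ⟨x₂, ε, fun z => (deriv Y z - I * deriv X z) / (σ * s z),
    fun z => (X z * deriv Y z - Y z * deriv X z) / (σ * s z), hε,
    hsub.trans fun z hz => (hh₁ z hz).1, ?_, ?_, ?_⟩
  · apply DifferentiableOn.div ((dY'.mono hsub).sub ((dX'.mono hsub).const_mul I))
      (ds.const_mul σ)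
    intro z hz
    exact mul_ne_zero hσ0 (hs z hz).2
  · apply DifferentiableOn.div (((dX.mul dY').sub (dY.mul dX')).mono hsub) (ds.const_mul σ)
    intro z hz
    exact mul_ne_zero hσ0 (hs z hz).2
  · intro z hz hzb
    have hzS : z ∈ S := ⟨hz, hzb⟩
    obtain ⟨e1, e2⟩ := hXd z (hsub hz) hzb
    obtain ⟨e3, e4⟩ := hXe z (hsub hz) hzb
    have e5 := hσs z hzS
    have e0 := hF' z (hsub hz) hzb
    have e6 : k / deriv F z ^ 2 ≠ 0 := div_ne_zero hk (pow_ne_zero _ e0)
    constructor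
    · simp only []
      rw [e1, e2, e5, mul_comm I (F z), exp_mul_I, div_eq_iff e6]
      ring
    · simp only []
      rw [e1, e2, e3, e4, e5, div_eq_iff e6]
      linear_combination (k / deriv F z ^ 2) * q z * sin_sq_add_cos_sq (F z)

end Vale.Agent.P097.H877.Bd
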