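import Vale.Agent.P097.H877.Bd.WallC
import Vale.Agent.P097.H877.Bd.End1

/-!
(A7), part 2: **(E2)** — if the leaf `w ↦ F (b₀, w)` through the edge point has a slope smaller than
the slope of the windows on which the line data `(al, pp)` are holomorphic, then the curve point is
meromorphic at `b₀`.
-/

open Complex Metric Filter Topology Set

namespace Vale.Agent.P097.H877.Bd

/-- the lines through a moving point are not constant if the Jacobian does not vanish -/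
theorem cross_ne {Q : Set (ℂ × ℂ)} (hQ : IsOpen Q) {al pp : ℂ × ℂ → ℂ}
    (hal : DifferentiableOn ℂ al Q) (hpp : DifferentiableOn ℂ pp Q) {G : ℂ → ℂ} {C : Set ℂ}
    (hC : IsOpen C) (hG : DifferentiableOn ℂ G C) (hm : ∀ w ∈ C, (G w, w) ∈ Q) {w₀ : ℂ}
    (hw₀ : w₀ ∈ C)
    (hJ : deriv (fun t => al (t, w₀)) (G w₀) * deriv (fun w => pp (G w₀, w)) w₀ -
      deriv (fun w => al (G w₀, w)) w₀ * deriv (fun t => pp (t, w₀)) (G w₀) ≠ 0) :
    ∃ w₁ ∈ C, ¬ (cos (al (G w₁, w₁)) * sin (al (G w₀, w₀)) -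
        sin (al (G w₁, w₁)) * cos (al (G w₀, w₀)) = 0 ∧
      pp (G w₁, w₁) * sin (al (G w₀, w₀)) - pp (G w₀, w₀) * sin (al (G w₁, w₁)) = 0 ∧
      pp (G w₀, w₀) * cos (al (G w₁, w₁)) - pp (G w₁, w₁) * cos (al (G w₀, w₀)) = 0) := by
  by_contra hcon
  push Not at hcon
  apply hJ
  have hGd : HasDerivAt G (deriv G w₀) w₀ :=
    (hG.differentiableAt (hC.mem_nhds hw₀)).hasDerivAt
  have key : ∀ {f : ℂ × ℂ → ℂ}, DifferentiableOn ℂ f Q →
      HasDerivAt (fun w => f (G w, w)) (deriv (fun t => f (t, w₀)) (G w₀) * deriv G w₀ +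
        deriv (fun w => f (G w₀, w)) w₀) w₀ := by
    intro f hf
    have h0 : HasFDerivAt f (fderiv ℂ f (G w₀, w₀)) (G w₀, w₀) :=
      (hf.differentiableAt (hQ.mem_nhds (hm w₀ hw₀))).hasFDerivAt
    have h1 : HasDerivAt (fun t : ℂ => (t, w₀)) ((1 : ℂ), (0 : ℂ)) (G w₀) :=
      (hasDerivAt_id _).prodMk (hasDerivAt_const _ _)
    have h2 : HasDerivAt (fun w : ℂ => (G w₀, w)) ((0 : ℂ), (1 : ℂ)) w₀ :=
      (hasDerivAt_const _ _).prodMk (hasDerivAt_id _)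
    have h3 : HasDerivAt (fun w : ℂ => (G w, w)) (deriv G w₀, (1 : ℂ)) w₀ :=
      hGd.prodMk (hasDerivAt_id _)
    have e1 : HasDerivAt (fun t => f (t, w₀)) (fderiv ℂ f (G w₀, w₀) (1, 0)) (G w₀) :=
      HasFDerivAt.comp_hasDerivAt (G w₀) (f := fun t : ℂ => (t, w₀)) h0 h1
    have e2 : HasDerivAt (fun w => f (G w₀, w)) (fderiv ℂ f (G w₀, w₀) (0, 1)) w₀ :=
      HasFDerivAt.comp_hasDerivAt w₀ (f := fun w : ℂ => (G w₀, w)) h0 h2
    have e3 : HasDerivAt (fun w => f (G w, w)) (fderiv ℂ f (G w₀, w₀) (deriv G w₀, 1)) w₀ :=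
      HasFDerivAt.comp_hasDerivAt w₀ (f := fun w : ℂ => (G w, w)) h0 h3
    rw [e1.deriv, e2.deriv]
    refine e3.congr_deriv ?_
    have : ((deriv G w₀, 1) : ℂ × ℂ) = (deriv G w₀) • ((1, 0) : ℂ × ℂ) + ((0, 1) : ℂ × ℂ) := by
      ext <;> simp
    rw [this, map_add, map_smul, smul_eq_mul]
    ring
  have ka := key hal
  have kp := key hpp
  set a : ℂ → ℂ := fun w => al (G w, w) with ha
  set p : ℂ → ℂ := fun w => pp (G w, w) with hp
  have hea : ∀ᶠ w in 𝓝 w₀, a w = a w₀ := by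
    have h1 : Tendsto (fun w => ‖a w₀ - a w‖) (𝓝 w₀) (𝓝 0) := by
      have := (ka.continuousAt.tendsto.const_sub (a w₀)).norm
      simpa using this
    filter_upwards [h1.eventually (gt_mem_nhds Real.pi_pos), hC.mem_nhds hw₀] with w h2 h3
    have h4 : sin (a w₀ - a w) = 0 := by
      have := (hcon w h3).1
      rw [Complex.sin_sub]
      linear_combination this
    rw [Complex.sin_eq_zero_iff] at h4
    obtain ⟨k, hk⟩ := h4
    have h5 : k = 0 := by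
      by_contra hk0
      rw [hk, norm_mul, norm_real, Real.norm_eq_abs, abs_of_pos Real.pi_pos, norm_intCast] at h2
      have h6 : (1 : ℝ) ≤ |(k : ℝ)| := by
        have := Int.one_le_abs hk0
        exact_mod_cast this
      have := mul_le_mul_of_nonneg_right h6 Real.pi_pos.le
      linarith
    rw [h5] at hk
    simp only [Int.cast_zero, zero_mul] at hk
    linear_combination -hk
  have hep : ∀ᶠ w in 𝓝 w₀, p w = p w₀ := by
    filter_upwards [hea, hC.mem_nhds hw₀] with w h1 h2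
    obtain ⟨-, h4, h5⟩ := hcon w h2
    have h1' : al (G w, w) = al (G w₀, w₀) := h1
    rw [h1'] at h4 h5
    simp only [hp]
    linear_combination sin (al (G w₀, w₀)) * h4 - cos (al (G w₀, w₀)) * h5 -
      (pp (G w, w) - pp (G w₀, w₀)) * sin_sq_add_cos_sq (al (G w₀, w₀))
  have za : deriv (fun t => al (t, w₀)) (G w₀) * deriv G w₀ +
        deriv (fun w => al (G w₀, w)) w₀ = 0 :=
    ka.unique ((hasDerivAt_const w₀ (a w₀)).congr_of_eventuallyEq hea)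
  have zp : deriv (fun t => pp (t, w₀)) (G w₀) * deriv G w₀ +
        deriv (fun w => pp (G w₀, w)) w₀ = 0 :=
    kp.unique ((hasDerivAt_const w₀ (p w₀)).congr_of_eventuallyEq hep)
  linear_combination deriv (fun t => al (t, w₀)) (G w₀) * zp -
    deriv (fun t => pp (t, w₀)) (G w₀) * za

/-- first order expansions, uniform near the edge point -/
theorem str_est {F : ℂ × ℂ → ℂ} {b₀ u₀ : ℂ} (hF : AnalyticAt ℂ F (b₀, u₀)) {ε : ℝ} (hε : 0 < ε) :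
    ∃ r' > 0, (∀ ξ ∈ ball b₀ r', ∀ w ∈ ball u₀ r',
      ‖F (ξ, w) - F (ξ, u₀) - deriv (fun w => F (b₀, w)) u₀ * (w - u₀)‖ ≤ ε * ‖w - u₀‖) ∧
      ∀ ξ ∈ ball b₀ r', ∀ ξ' ∈ ball b₀ r',
      ‖F (ξ, u₀) - F (ξ', u₀) - deriv (fun z => F (z, u₀)) b₀ * (ξ - ξ')‖ ≤ ε * ‖ξ - ξ'‖ := by
  have hst := hF.hasStrictFDerivAt
  have h0 : HasFDerivAt F (fderiv ℂ F (b₀, u₀)) (b₀, u₀) := hst.hasFDerivAt
  have h1 : HasDerivAt (fun t : ℂ => (t, u₀)) ((1 : ℂ), (0 : ℂ)) b₀ :=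
    (hasDerivAt_id _).prodMk (hasDerivAt_const _ _)
  have h2 : HasDerivAt (fun w : ℂ => (b₀, w)) ((0 : ℂ), (1 : ℂ)) u₀ :=
    (hasDerivAt_const _ _).prodMk (hasDerivAt_id _)
  have e1 : HasDerivAt (fun t => F (t, u₀)) (fderiv ℂ F (b₀, u₀) (1, 0)) b₀ :=
    HasFDerivAt.comp_hasDerivAt b₀ (f := fun t : ℂ => (t, u₀)) h0 h1
  have e2 : HasDerivAt (fun w => F (b₀, w)) (fderiv ℂ F (b₀, u₀) (0, 1)) u₀ :=
    HasFDerivAt.comp_hasDerivAt u₀ (f := fun w : ℂ => (b₀, w)) h0 h2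
  have hlo := hst.isLittleO.def hε
  obtain ⟨r', hr', hh⟩ := Metric.eventually_nhds_iff_ball.mp hlo
  have hmem : ∀ ξ ∈ ball b₀ r', ∀ w ∈ ball u₀ r', ∀ ξ' ∈ ball b₀ r', ∀ w' ∈ ball u₀ r',
      (((ξ, w), (ξ', w')) : (ℂ × ℂ) × (ℂ × ℂ)) ∈ ball ((b₀, u₀), (b₀, u₀)) r' := by
    intro ξ h1 w h2 ξ' h3 w' h4
    rw [← ball_prod_same, ← ball_prod_same]
    exact ⟨⟨h1, h2⟩, ⟨h3, h4⟩⟩
  refine ⟨r', hr', ?_, ?_⟩
  · intro ξ hξ w hw
    have h := hh _ (hmem ξ hξ w hw ξ hξ u₀ (mem_ball_self hr'))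
    simp only [Prod.mk_sub_mk, sub_self] at h
    rw [e2.deriv]
    have e3 : fderiv ℂ F (b₀, u₀) (0, w - u₀) = fderiv ℂ F (b₀, u₀) (0, 1) * (w - u₀) := by
      have : ((0, w - u₀) : ℂ × ℂ) = (w - u₀) • ((0, 1) : ℂ × ℂ) := by simp
      rw [this, map_smul, smul_eq_mul, mul_comm]
    rw [e3] at h
    refine h.trans (le_of_eq ?_)
    rw [Prod.norm_def]
    simp
  · intro ξ hξ ξ' hξ'
    have h := hh _ (hmem ξ hξ u₀ (mem_ball_self hr') ξ' hξ' u₀ (mem_ball_self hr'))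
    simp only [Prod.mk_sub_mk, sub_self] at h
    rw [e1.deriv]
    have e3 : fderiv ℂ F (b₀, u₀) (ξ - ξ', 0) = fderiv ℂ F (b₀, u₀) (1, 0) * (ξ - ξ') := by
      have : ((ξ - ξ', 0) : ℂ × ℂ) = (ξ - ξ') • ((1, 0) : ℂ × ℂ) := by simp
      rw [this, map_smul, smul_eq_mul, mul_comm]
    rw [e3] at h
    refine h.trans (le_of_eq ?_)
    rw [Prod.norm_def]
    simp

/-- identity theorem along a segment of slices: from `(ξ₁, u₀)` to `(ξ₂, u₀)` -/
theorem seg_zero {O : Set (ℂ × ℂ)} (hO : IsOpen O) {E : ℂ × ℂ → ℂ} (hE : DifferentiableOn ℂ E O)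
    {ξ₁ ξ₂ u₀ : ℂ} (hseg : ∀ ξ ∈ segment ℝ ξ₁ ξ₂, (ξ, u₀) ∈ O)
    (h0 : ∀ᶠ z in 𝓝 (ξ₁, u₀), E z = 0) : ∀ᶠ z in 𝓝 (ξ₂, u₀), E z = 0 := by
  have hK : IsCompact (segment ℝ ξ₁ ξ₂) := by
    rw [segment_eq_image_lineMap]
    exact isCompact_Icc.image AffineMap.lineMap_continuous
  obtain ⟨U, V, hU, hV, hKU, hV0, hUV⟩ := generalized_tube_lemma hK
    (isCompact_singleton (x := u₀)) hO (by
      rintro ⟨ξ, w⟩ ⟨h1, h2⟩
      rw [mem_singleton_iff] at h2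
      simp only at h1 h2
      subst h2
      exact hseg ξ h1)
  obtain ⟨ε, hε, hεU⟩ := hK.exists_thickening_subset_open hU hKU
  obtain ⟨ε', hε', hεV⟩ := Metric.isOpen_iff.1 hV u₀ (hV0 rfl)
  set S : Set (ℂ × ℂ) := thickening ε (segment ℝ ξ₁ ξ₂) ×ˢ ball u₀ ε' with hS
  have hSo : IsOpen S := isOpen_thickening.prod isOpen_ball
  have hSO : S ⊆ O := (prod_mono hεU hεV).trans hUV
  have hSc : Convex ℝ S := ((convex_segment ξ₁ ξ₂).thickening ε).prod (convex_ball u₀ ε')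
  have ha : AnalyticOnNhd ℂ E S :=
    Vale.Agent.P097.Hol.analyticOnNhd_of_differentiableOn hSo (hE.mono hSO)
  have m1 : (ξ₁, u₀) ∈ S := ⟨self_subset_thickening hε _ (left_mem_segment ℝ _ _),
    mem_ball_self hε'⟩
  have m2 : (ξ₂, u₀) ∈ S := ⟨self_subset_thickening hε _ (right_mem_segment ℝ _ _),
    mem_ball_self hε'⟩
  have heq := ha.eqOn_zero_of_preconnected_of_eventuallyEq_zero hSc.isPreconnected m1 h0
  filter_upwards [hSo.mem_nhds m2] with z hz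
  exact heq hz

end Vale.Agent.P097.H877.Bd
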