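import Vale.Agent.P097.H877.Bd.End2

/-!
(A7), part 3: **(E2)** — the theorem.
-/

open Complex Metric Filter Topology Set

namespace Vale.Agent.P097.H877.Bd

/-- upper and lower bounds of the height of `F (ξ, w)` near the edge point -/
theorem edge_est {H R₀ ρ δ u₀ c c' σ c₁ g : ℝ} {ξ₁ b₀ : ℂ} (hb : b₀ ∈ ball ξ₁ ρ)
    (hbi : b₀.im = H) (hδ : 0 < δ) (hc₁ : 0 < c₁) (hg : 0 < g)
    {F : ℂ × ℂ → ℂ} (dF : DifferentiableOn ℂ F (ball ξ₁ ρ ×ˢ ball (u₀ : ℂ) δ))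
    (hlow : ∀ ξ ∈ ball ξ₁ ρ, ξ.im < H → (F (ξ, u₀)).im < R₀)
    (hedge : ∀ ξ ∈ ball ξ₁ ρ, ξ.im = H → (F (ξ, u₀)).im = R₀)
    (hsl : deriv (fun w => F (b₀, w)) u₀ = σ + c' * I) :
    ∃ κ' > 0, ∃ r' > 0, ball b₀ r' ⊆ ball ξ₁ ρ ∧ ball (u₀ : ℂ) r' ⊆ ball (u₀ : ℂ) δ ∧
      ∀ ξ ∈ ball b₀ r', ∀ w ∈ ball (u₀ : ℂ) r', c₁ * |w.re - u₀| < w.im →
        ξ.im ≤ H + κ' * w.im →
        (F (ξ, w)).im < R₀ + c * (w.re - u₀) + (σ + |c' - c| / c₁ + g) * w.im := by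
  have hO : IsOpen (ball ξ₁ ρ ×ˢ ball (u₀ : ℂ) δ) := isOpen_ball.prod isOpen_ball
  have hm0 : (b₀, (u₀ : ℂ)) ∈ ball ξ₁ ρ ×ˢ ball (u₀ : ℂ) δ := ⟨hb, mem_ball_self hδ⟩
  have hFa : AnalyticAt ℂ F (b₀, (u₀ : ℂ)) :=
    Vale.Agent.P097.Hol.analyticOnNhd_of_differentiableOn hO dF _ hm0
  set ε : ℝ := g / (4 * (1 + 1 / c₁)) with hε
  have hk0 : 0 < 1 + 1 / c₁ := by positivity
  have hε0 : 0 < ε := by positivity
  have hεk : ε * (1 + 1 / c₁) = g / 4 := by rw [hε]; field_simp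
  obtain ⟨r₁, hr₁, hE1, hE2⟩ := str_est hFa hε0
  set D : ℂ := deriv (fun z => F (z, (u₀ : ℂ))) b₀ with hD
  set κ' : ℝ := g / (4 * (‖D‖ + ε)) with hκ'
  have hDε : 0 < ‖D‖ + ε := by positivity
  have hκ'0 : 0 < κ' := by positivity
  have hκD : (‖D‖ + ε) * κ' = g / 4 := by rw [hκ']; field_simp
  obtain ⟨r₂, hr₂, hr₂s⟩ := Metric.isOpen_iff.1 isOpen_ball b₀ hb
  refine ⟨κ', hκ'0, min (min r₁ r₂) δ, lt_min (lt_min hr₁ hr₂) hδ, ?_, ?_, ?_⟩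
  · exact (ball_subset_ball ((min_le_left _ _).trans (min_le_right _ _))).trans hr₂s
  · exact ball_subset_ball (min_le_right _ _)
  intro ξ hξ w hw hcone hξw
  have hv0 : 0 < w.im := (by positivity : 0 ≤ c₁ * |w.re - u₀|).trans_lt hcone
  have hre : |w.re - u₀| ≤ w.im / c₁ := by rw [le_div_iff₀ hc₁]; linarith
  have hnv : ‖w - u₀‖ ≤ (1 + 1 / c₁) * w.im := by
    have h := Complex.norm_le_abs_re_add_abs_im (w - u₀)
    simp only [sub_re, ofReal_re, sub_im, ofReal_im, sub_zero] at h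
    rw [abs_of_pos hv0] at h
    have : (1 + 1 / c₁) * w.im = w.im + w.im / c₁ := by ring
    linarith
  have hξ1 : ξ ∈ ball b₀ r₁ :=
    ball_subset_ball ((min_le_left _ _).trans (min_le_left _ _)) hξ
  have hw1 : w ∈ ball (u₀ : ℂ) r₁ :=
    ball_subset_ball ((min_le_left _ _).trans (min_le_left _ _)) hw
  -- the foot
  set ξ' : ℂ := ⟨ξ.re, min ξ.im H⟩ with hξ'
  have hdist : dist ξ' b₀ ≤ dist ξ b₀ := by
    rw [dist_eq_norm, dist_eq_norm, Complex.norm_def, Complex.norm_def]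
    apply Real.sqrt_le_sqrt
    rw [normSq_apply, normSq_apply]
    have e1 : (ξ' - b₀).re = (ξ - b₀).re := rfl
    have e2 : (ξ' - b₀).im * (ξ' - b₀).im ≤ (ξ - b₀).im * (ξ - b₀).im := by
      simp only [sub_im, hξ', hbi]
      rcases le_total ξ.im H with h | h
      · rw [min_eq_left h]
      · rw [min_eq_right h]
        nlinarith
    rw [e1]
    linarith
  have hξ'1 : ξ' ∈ ball b₀ r₁ := by
    rw [mem_ball] at hξ1 ⊢; exact hdist.trans_lt hξ1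
  have hξ'2 : ξ' ∈ ball ξ₁ ρ := by
    apply hr₂s
    have := ball_subset_ball ((min_le_left _ _).trans (min_le_right _ _)) hξ
    rw [mem_ball] at this ⊢; exact hdist.trans_lt this
  have hξ'R : (F (ξ', u₀)).im ≤ R₀ := by
    rcases lt_or_ge ξ.im H with h | h
    · apply (hlow ξ' hξ'2 _).le
      simp only [hξ', min_eq_left h.le]
      exact h
    · apply (hedge ξ' hξ'2 _).le
      simp only [hξ', min_eq_right h]
  have hd : ‖ξ - ξ'‖ ≤ κ' * w.im := by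
    have h1 : ‖ξ - ξ'‖ ≤ |(ξ - ξ').re| + |(ξ - ξ').im| := Complex.norm_le_abs_re_add_abs_im _
    have e1 : (ξ - ξ').re = 0 := by simp [hξ']
    have e2 : |(ξ - ξ').im| ≤ κ' * w.im := by
      simp only [sub_im, hξ']
      rcases le_total ξ.im H with h | h
      · rw [min_eq_left h, sub_self, abs_zero]; positivity
      · rw [min_eq_right h, abs_of_nonneg (by linarith)]; linarith
    rw [e1, abs_zero, zero_add] at h1
    exact h1.trans e2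
  -- assemble
  have k1 := hE1 ξ hξ1 w hw1
  have k2 := hE2 ξ hξ1 ξ' hξ'1
  rw [hsl] at k1
  have k1' : (F (ξ, w)).im ≤ (F (ξ, u₀)).im + ((σ : ℂ) + c' * I).im * (w - u₀).re +
      ((σ : ℂ) + c' * I).re * (w - u₀).im + ε * ‖w - u₀‖ := by
    have := (Complex.abs_im_le_norm _).trans k1
    have := (abs_le.1 this).2
    rw [sub_im, sub_im, mul_im] at this
    linarith
  have k2' : (F (ξ, u₀)).im ≤ (F (ξ', u₀)).im + (‖D‖ + ε) * ‖ξ - ξ'‖ := by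
    have h1 := (Complex.abs_im_le_norm _).trans k2
    have h1 := (abs_le.1 h1).2
    have h2 := (abs_le.1 ((Complex.abs_im_le_norm (D * (ξ - ξ'))).trans (norm_mul_le _ _))).2
    rw [sub_im, sub_im] at h1
    linarith
  have k3 : (‖D‖ + ε) * ‖ξ - ξ'‖ ≤ g / 4 * w.im := by
    have := mul_le_mul_of_nonneg_left hd hDε.le
    rw [← mul_assoc, hκD] at this
    exact this
  have k4 : ε * ‖w - u₀‖ ≤ g / 4 * w.im := by
    have := mul_le_mul_of_nonneg_left hnv hε0.le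
    rw [← mul_assoc, hεk] at this
    exact this
  have k5 : (c' - c) * (w.re - u₀) ≤ |c' - c| / c₁ * w.im := by
    have h1 : (c' - c) * (w.re - u₀) ≤ |c' - c| * |w.re - u₀| := by
      rw [← abs_mul]; exact le_abs_self _
    have h2 := mul_le_mul_of_nonneg_left hre (abs_nonneg (c' - c))
    have h3 : |c' - c| * (w.im / c₁) = |c' - c| / c₁ * w.im := by ring
    linarith
  simp only [add_im, ofReal_im, mul_im, ofReal_re, I_im, mul_one, I_re, mul_zero, add_zero,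
    zero_add, add_re, mul_re, sub_re, sub_im, sub_zero, sub_self] at k1'
  nlinarith

/-- **(E2).** -/
theorem end_E2 {H r y₀ R₀ ρ δ u₀ c c' σ s c₁ δ₁ : ℝ} {ξ₁ b₀ : ℂ} (h1 : ξ₁.im < H)
    (hb : b₀ ∈ ball ξ₁ ρ) (hbi : b₀.im = H) (hδ : 0 < δ) (hδ₁ : 0 < δ₁) (hc₁ : 0 < c₁)
    (hr : 0 < r)
    {F : ℂ × ℂ → ℂ} (dF : DifferentiableOn ℂ F (ball ξ₁ ρ ×ˢ ball (u₀ : ℂ) δ))
    (hlow : ∀ ξ ∈ ball ξ₁ ρ, ξ.im < H → |(F (ξ, u₀)).re - y₀| < r ∧ R₀ - r < (F (ξ, u₀)).im ∧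
      (F (ξ, u₀)).im < R₀)
    (hedge : ∀ ξ ∈ ball ξ₁ ρ, ξ.im = H → |(F (ξ, u₀)).re - y₀| < r ∧ (F (ξ, u₀)).im = R₀)
    (hsl : deriv (fun w => F (b₀, w)) u₀ = σ + c' * I)
    {Q : Set (ℂ × ℂ)} (hQ : IsOpen Q) {al pp : ℂ × ℂ → ℂ} (hal : DifferentiableOn ℂ al Q)
    (hpp : DifferentiableOn ℂ pp Q)
    (hQ0 : ∀ t : ℂ, |t.re - y₀| < r → R₀ - r < t.im → t.im < R₀ → (t, (u₀ : ℂ)) ∈ Q)
    (hQc : ∀ t w : ℂ, |t.re - y₀| < r → R₀ - r < t.im →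
      t.im < R₀ + c * (w.re - u₀) + s * w.im → c₁ * |w.re - u₀| < w.im → ‖w - u₀‖ < δ₁ →
      (t, w) ∈ Q)
    (hs : σ + |c' - c| / c₁ < s)
    (hJ : ∀ t w : ℂ, (t, w) ∈ Q → 0 < w.im →
      deriv (fun x => al (x, w)) t * deriv (fun z => pp (t, z)) w -
      deriv (fun z => al (t, z)) w * deriv (fun x => pp (x, w)) t ≠ 0)
    {a₁ a₂ a₃ : ℂ → ℂ} (d1 : DifferentiableOn ℂ a₁ {z | z ∈ ball ξ₁ ρ ∧ z.im < H})
    (d2 : DifferentiableOn ℂ a₂ {z | z ∈ ball ξ₁ ρ ∧ z.im < H})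
    (d3 : DifferentiableOn ℂ a₃ {z | z ∈ ball ξ₁ ρ ∧ z.im < H})
    (ha₃ : ∃ z ∈ ball ξ₁ ρ, z.im < H ∧ a₃ z ≠ 0)
    (inc : ∀ᶠ z in 𝓝 (ξ₁, (u₀ : ℂ)), a₁ z.1 * cos (al (F z, z.2)) + a₂ z.1 * sin (al (F z, z.2)) =
      a₃ z.1 * pp (F z, z.2)) :
    ∃ r' > 0, ball b₀ r' ⊆ ball ξ₁ ρ ∧ ∃ N₁ N₂ N₃ : ℂ → ℂ,
      DifferentiableOn ℂ N₁ (ball b₀ r') ∧ DifferentiableOn ℂ N₂ (ball b₀ r') ∧
      DifferentiableOn ℂ N₃ (ball b₀ r') ∧ (∃ z ∈ ball b₀ r', N₃ z ≠ 0) ∧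
      ∀ z ∈ ball b₀ r', z.im < H → N₃ z * a₁ z = N₁ z * a₃ z ∧ N₃ z * a₂ z = N₂ z * a₃ z := by
  have hρ : 0 < ρ := dist_nonneg.trans_lt hb
  have hξ₁ : ξ₁ ∈ ball ξ₁ ρ := mem_ball_self hρ
  have hO : IsOpen (ball ξ₁ ρ ×ˢ ball (u₀ : ℂ) δ) := isOpen_ball.prod isOpen_ball
  have hm0 : (b₀, (u₀ : ℂ)) ∈ ball ξ₁ ρ ×ˢ ball (u₀ : ℂ) δ := ⟨hb, mem_ball_self hδ⟩
  set g : ℝ := (s - (σ + |c' - c| / c₁)) with hg
  have hg0 : 0 < g := by rw [hg]; linarith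
  obtain ⟨κ', hκ', r₁, hr₁, hr₁a, hr₁b, hE⟩ := edge_est (c := c) hb hbi hδ hc₁ hg0 dF
    (fun ξ a b => (hlow ξ a b).2.2) (fun ξ a b => (hedge ξ a b).2) hsl
  have hsg : σ + |c' - c| / c₁ + g = s := by rw [hg]; ring
  -- continuity at the edge point
  have hcF : ContinuousAt F (b₀, (u₀ : ℂ)) := (dF.differentiableAt (hO.mem_nhds hm0)).continuousAt
  have hev : ∀ᶠ z in 𝓝 (b₀, (u₀ : ℂ)), |(F z).re - y₀| < r ∧ R₀ - r < (F z).im := by
    have e1 := (hedge b₀ hb hbi)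
    have t1 : Tendsto (fun z => |(F z).re - y₀|) (𝓝 (b₀, (u₀ : ℂ)))
        (𝓝 |(F (b₀, (u₀ : ℂ))).re - y₀|) :=
      (((continuous_re.tendsto _).comp hcF.tendsto).sub_const y₀).abs
    have t2 : Tendsto (fun z => (F z).im) (𝓝 (b₀, (u₀ : ℂ))) (𝓝 (F (b₀, (u₀ : ℂ))).im) :=
      (continuous_im.tendsto _).comp hcF.tendsto
    exact (t1.eventually (gt_mem_nhds e1.1)).and (t2.eventually (lt_mem_nhds (by
      rw [e1.2]; linarith)))
  obtain ⟨r₂, hr₂, hh₂⟩ := Metric.eventually_nhds_iff_ball.mp hev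
  set r' : ℝ := min (min r₁ r₂) δ₁ with hr'
  have hr'0 : 0 < r' := lt_min (lt_min hr₁ hr₂) hδ₁
  have hr'1 : r' ≤ r₁ := (min_le_left _ _).trans (min_le_left _ _)
  have hr'2 : r' ≤ r₂ := (min_le_left _ _).trans (min_le_right _ _)
  have hr'3 : r' ≤ δ₁ := min_le_right _ _
  have hbs : ball b₀ r' ⊆ ball ξ₁ ρ := (ball_subset_ball hr'1).trans hr₁a
  -- membership in `Q`
  have hmQ : ∀ ξ ∈ ball b₀ r', ∀ w ∈ ball (u₀ : ℂ) r', c₁ * |w.re - u₀| < w.im →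
      ξ.im ≤ H + κ' * w.im → (F (ξ, w), w) ∈ Q := by
    intro ξ hξ w hw hcone hξw
    have e1 := hE ξ (ball_subset_ball hr'1 hξ) w (ball_subset_ball hr'1 hw) hcone hξw
    rw [hsg] at e1
    have e2 := hh₂ (ξ, w) (by
      rw [← ball_prod_same]
      exact ⟨ball_subset_ball hr'2 hξ, ball_subset_ball hr'2 hw⟩)
    apply hQc _ _ e2.1 e2.2 e1 hcone
    have := ball_subset_ball hr'3 hw
    rwa [mem_ball, dist_eq_norm] at this
  -- the function `E`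
  set O : Set (ℂ × ℂ) := {z | (z ∈ ball ξ₁ ρ ×ˢ ball (u₀ : ℂ) δ ∧ z.1.im < H) ∧ (F z, z.2) ∈ Q}
    with hOd
  have hO2 : IsOpen {z : ℂ × ℂ | z.1.im < H} :=
    isOpen_lt (continuous_im.comp continuous_fst) continuous_const
  have hO1 : IsOpen {z : ℂ × ℂ | z ∈ ball ξ₁ ρ ×ˢ ball (u₀ : ℂ) δ ∧ z.1.im < H} := hO.inter hO2
  have dF' : DifferentiableOn ℂ (fun z => (F z, z.2))
      {z : ℂ × ℂ | z ∈ ball ξ₁ ρ ×ˢ ball (u₀ : ℂ) δ ∧ z.1.im < H} :=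
    (dF.mono fun z hz => hz.1).prodMk (by fun_prop)
  have hOo : IsOpen O := dF'.continuousOn.isOpen_inter_preimage hO1 hQ
  set E : ℂ × ℂ → ℂ := fun z => a₁ z.1 * cos (al (F z, z.2)) + a₂ z.1 * sin (al (F z, z.2)) -
      a₃ z.1 * pp (F z, z.2) with hEd
  have dal : DifferentiableOn ℂ (fun z : ℂ × ℂ => al (F z, z.2)) O :=
    DifferentiableOn.comp hal (dF'.mono fun z hz => hz.1) fun z hz => hz.2
  have dpp : DifferentiableOn ℂ (fun z : ℂ × ℂ => pp (F z, z.2)) O :=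
    DifferentiableOn.comp hpp (dF'.mono fun z hz => hz.1) fun z hz => hz.2
  have dfst : ∀ {a : ℂ → ℂ}, DifferentiableOn ℂ a {z | z ∈ ball ξ₁ ρ ∧ z.im < H} →
      DifferentiableOn ℂ (fun z : ℂ × ℂ => a z.1) O := by
    intro a ha
    exact DifferentiableOn.comp ha differentiableOn_fst fun z hz => ⟨hz.1.1.1, hz.1.2⟩
  have dE : DifferentiableOn ℂ E O :=
    (((dfst d1).mul dal.ccos).add ((dfst d2).mul dal.csin)).sub ((dfst d3).mul dpp)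
  have hE0 : ∀ᶠ z in 𝓝 (ξ₁, (u₀ : ℂ)), E z = 0 := by
    filter_upwards [inc] with z hz
    simp only [hEd]
    rw [hz, sub_self]
  set ξ₂ : ℂ := b₀ - ((r' / 2 : ℝ) : ℂ) * I with hξ₂
  have hξ₂b : ξ₂ ∈ ball b₀ r' := by
    rw [mem_ball, dist_eq_norm, hξ₂]
    simp only [sub_sub_cancel_left, norm_neg, norm_mul, norm_real, norm_I, mul_one,
      Real.norm_eq_abs]
    rw [abs_of_pos (by positivity)]
    linarith
  have hξ₂i : ξ₂.im < H := by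
    rw [hξ₂]
    simp only [sub_im, mul_im, ofReal_re, I_im, mul_one, ofReal_im, I_re, mul_zero, add_zero, hbi]
    linarith
  have hcv : Convex ℝ {z : ℂ | z ∈ ball ξ₁ ρ ∧ z.im < H} :=
    (convex_ball ξ₁ ρ).inter (convex_halfSpace_im_lt H)
  have hE2 : ∀ᶠ z in 𝓝 (ξ₂, (u₀ : ℂ)), E z = 0 := by
    apply seg_zero hOo dE _ hE0
    intro ξ hξ
    have hm := hcv.segment_subset ⟨hξ₁, h1⟩ ⟨hbs hξ₂b, hξ₂i⟩ hξ
    obtain ⟨e1, e2, e3⟩ := hlow ξ hm.1 hm.2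
    exact ⟨⟨⟨hm.1, mem_ball_self hδ⟩, hm.2⟩, hQ0 _ e1 e2 e3⟩
  -- the cone
  set C : Set ℂ := {w | w ∈ ball (u₀ : ℂ) r' ∧ c₁ * |w.re - u₀| < w.im} with hC
  have hCo : IsOpen C := isOpen_ball.inter (isOpen_lt (by fun_prop) continuous_im)
  have hCc2 : Convex ℝ {w : ℂ | c₁ * |w.re - u₀| < w.im} := by
    intro x hx y hy α β hα hβ hαβ
    have hx : c₁ * |x.re - u₀| < x.im := hx
    have hy : c₁ * |y.re - u₀| < y.im := hy
    show c₁ * |(α • x + β • y).re - u₀| < (α • x + β • y).im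
    have e1 : (α • x + β • y).re - u₀ = α * (x.re - u₀) + β * (y.re - u₀) := by
      simp only [add_re, smul_re, smul_eq_mul]
      linear_combination u₀ * hαβ
    have e2 : (α • x + β • y).im = α * x.im + β * y.im := by
      simp only [add_im, smul_im, smul_eq_mul]
    rw [e1, e2]
    have e3 : |α * (x.re - u₀) + β * (y.re - u₀)| ≤ α * |x.re - u₀| + β * |y.re - u₀| := by
      refine (abs_add_le _ _).trans ?_
      rw [abs_mul, abs_mul, abs_of_nonneg hα, abs_of_nonneg hβ]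
    have e4 := mul_le_mul_of_nonneg_left e3 hc₁.le
    rcases hα.eq_or_lt with h | h
    · have hβ1 : β = 1 := by linarith
      rw [← h, hβ1] at e4 ⊢
      simp only [zero_mul, zero_add, one_mul] at e4 ⊢
      linarith
    · have e5 := mul_lt_mul_of_pos_left hx h
      have e6 := mul_le_mul_of_nonneg_left hy.le hβ
      linarith
  have hCc : Convex ℝ C := (convex_ball _ _).inter hCc2
  have hCm : ∀ τ : ℝ, 0 < τ → τ < r' → ((u₀ : ℂ) + τ * I) ∈ C := by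
    intro τ h0 h2
    refine ⟨?_, ?_⟩
    · rw [mem_ball, dist_eq_norm]
      simp only [add_sub_cancel_left, norm_mul, norm_real, norm_I, mul_one, Real.norm_eq_abs]
      rw [abs_of_pos h0]
      exact h2
    · simp only [add_re, ofReal_re, mul_re, I_re, mul_zero, ofReal_im, I_im, mul_one, sub_self,
        add_zero, abs_zero, add_im, mul_im, zero_add]
      exact h0
  have hCim : ∀ w ∈ C, 0 < w.im := fun w hw =>
    (by positivity : 0 ≤ c₁ * |w.re - u₀|).trans_lt hw.2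
  -- `E = 0` on the lower part
  set S : Set (ℂ × ℂ) := {z : ℂ | z ∈ ball b₀ r' ∧ z.im < H} ×ˢ C with hS
  have hSO : S ⊆ O := by
    rintro ⟨ξ, w⟩ ⟨hξ, hw⟩
    simp only at hξ hw
    have hw0 := hCim w hw
    refine ⟨⟨⟨hbs hξ.1, hr₁b (ball_subset_ball hr'1 hw.1)⟩, hξ.2⟩,
      hmQ ξ hξ.1 w hw.1 hw.2 ?_⟩
    have : 0 < κ' * w.im := by positivity
    linarith [hξ.2]
  have hSo : IsOpen S := (isOpen_ball.inter (isOpen_lt continuous_im continuous_const)).prod hCo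
  have hSc : Convex ℝ S := ((convex_ball b₀ r').inter (convex_halfSpace_im_lt H)).prod hCc
  have hES : ∀ ξ ∈ ball b₀ r', ξ.im < H → ∀ w ∈ C, E (ξ, w) = 0 := by
    obtain ⟨ε₂, hε₂, hh⟩ := Metric.eventually_nhds_iff_ball.mp hE2
    have haE : AnalyticOnNhd ℂ E S :=
      Vale.Agent.P097.Hol.analyticOnNhd_of_differentiableOn hSo (dE.mono hSO)
    set τ : ℝ := min ε₂ r' / 2 with hτ
    have hmp : 0 < min ε₂ r' := lt_min hε₂ hr'0
    have hτ0 : 0 < τ := by positivity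
    have hτ1 : τ < ε₂ := by
      have := min_le_left ε₂ r'
      linarith
    have hτ2 : τ < r' := by
      have := min_le_right ε₂ r'
      linarith
    have hm2 : (ξ₂, (u₀ : ℂ) + τ * I) ∈ S := ⟨⟨hξ₂b, hξ₂i⟩, hCm τ hτ0 hτ2⟩
    have hm3 : (ξ₂, (u₀ : ℂ) + τ * I) ∈ ball (ξ₂, (u₀ : ℂ)) ε₂ := by
      rw [← ball_prod_same]
      refine ⟨mem_ball_self hε₂, ?_⟩
      rw [mem_ball, dist_eq_norm]
      simp only [add_sub_cancel_left, norm_mul, norm_real, norm_I, mul_one, Real.norm_eq_abs]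
      rw [abs_of_pos hτ0]
      exact hτ1
    have hz : ∀ᶠ z in 𝓝 (ξ₂, (u₀ : ℂ) + τ * I), E z = 0 := by
      filter_upwards [isOpen_ball.mem_nhds hm3] with z hz using hh z hz
    have := haE.eqOn_zero_of_preconnected_of_eventuallyEq_zero hSc.isPreconnected hm2 hz
    intro ξ h1 h2 w h3
    exact this (show (ξ, w) ∈ S from ⟨⟨h1, h2⟩, h3⟩)
  -- two labels
  set w₀ : ℂ := (u₀ : ℂ) + ((r' / 2 : ℝ) : ℂ) * I with hw₀
  have hw₀C : w₀ ∈ C := hCm (r' / 2) (by positivity) (by linarith)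
  have hGd : DifferentiableOn ℂ (fun w => F (ξ₂, w)) C := by
    intro w hw
    have h : DifferentiableAt ℂ F (ξ₂, w) :=
      dF.differentiableAt (hO.mem_nhds ⟨hbs hξ₂b, hr₁b (ball_subset_ball hr'1 hw.1)⟩)
    have h' : DifferentiableAt ℂ (fun w : ℂ => (ξ₂, w)) w :=
      (differentiableAt_const _).prodMk differentiableAt_id
    exact (DifferentiableAt.comp w (f := fun w : ℂ => (ξ₂, w)) h h').differentiableWithinAt
  have hGQ : ∀ w ∈ C, (F (ξ₂, w), w) ∈ Q := by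
    intro w hw
    have hw0 := hCim w hw
    apply hmQ ξ₂ hξ₂b w hw.1 hw.2
    have : 0 < κ' * w.im := by positivity
    linarith
  obtain ⟨w₁, hw₁C, hcr⟩ := cross_ne hQ hal hpp hCo hGd hGQ hw₀C
    (hJ _ _ (hGQ w₀ hw₀C) (hCim w₀ hw₀C))
  have hw₀i := hCim w₀ hw₀C
  have hw₁i := hCim w₁ hw₁C
  set κ₂ : ℝ := κ' * min w₀.im w₁.im with hκ₂
  have hκ₂0 : 0 < κ₂ := mul_pos hκ' (lt_min hw₀i hw₁i)
  set D : Set ℂ := {z | z ∈ ball b₀ r' ∧ z.im < H + κ₂} with hDd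
  have hDo : IsOpen D := isOpen_ball.inter (isOpen_lt continuous_im continuous_const)
  have hDc : Convex ℝ D := (convex_ball b₀ r').inter (convex_halfSpace_im_lt _)
  have hDQ : ∀ w, w = w₀ ∨ w = w₁ → ∀ ξ ∈ D, (F (ξ, w), w) ∈ Q := by
    intro w hw ξ hξ
    rcases hw with hw | hw
    · rw [hw]
      apply hmQ ξ hξ.1 _ hw₀C.1 hw₀C.2
      have := mul_le_mul_of_nonneg_left (min_le_left w₀.im w₁.im) hκ'.le
      linarith [hξ.2]
    · rw [hw]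
      apply hmQ ξ hξ.1 _ hw₁C.1 hw₁C.2
      have := mul_le_mul_of_nonneg_left (min_le_right w₀.im w₁.im) hκ'.le
      linarith [hξ.2]
  have hDF : ∀ w ∈ C, DifferentiableOn ℂ (fun ξ => (F (ξ, w), w)) D := by
    intro w hw ξ hξ
    have h : DifferentiableAt ℂ F (ξ, w) :=
      dF.differentiableAt (hO.mem_nhds ⟨hbs hξ.1, hr₁b (ball_subset_ball hr'1 hw.1)⟩)
    have h' : DifferentiableAt ℂ (fun ξ : ℂ => (ξ, w)) ξ :=
      differentiableAt_id.prodMk (differentiableAt_const _)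
    exact ((DifferentiableAt.comp ξ (f := fun ξ : ℂ => (ξ, w)) h h').prodMk
      (differentiableAt_const _)).differentiableWithinAt
  have dal0 : DifferentiableOn ℂ (fun ξ => al (F (ξ, w₀), w₀)) D :=
    DifferentiableOn.comp hal (hDF w₀ hw₀C) (hDQ w₀ (Or.inl rfl))
  have dal1 : DifferentiableOn ℂ (fun ξ => al (F (ξ, w₁), w₁)) D :=
    DifferentiableOn.comp hal (hDF w₁ hw₁C) (hDQ w₁ (Or.inr rfl))
  have dpp0 : DifferentiableOn ℂ (fun ξ => pp (F (ξ, w₀), w₀)) D :=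
    DifferentiableOn.comp hpp (hDF w₀ hw₀C) (hDQ w₀ (Or.inl rfl))
  have dpp1 : DifferentiableOn ℂ (fun ξ => pp (F (ξ, w₁), w₁)) D :=
    DifferentiableOn.comp hpp (hDF w₁ hw₁C) (hDQ w₁ (Or.inr rfl))
  set N₁ : ℂ → ℂ := fun ξ => pp (F (ξ, w₁), w₁) * sin (al (F (ξ, w₀), w₀)) -
    pp (F (ξ, w₀), w₀) * sin (al (F (ξ, w₁), w₁)) with hN₁
  set N₂ : ℂ → ℂ := fun ξ => pp (F (ξ, w₀), w₀) * cos (al (F (ξ, w₁), w₁)) -
    pp (F (ξ, w₁), w₁) * cos (al (F (ξ, w₀), w₀)) with hN₂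
  set N₃ : ℂ → ℂ := fun ξ => cos (al (F (ξ, w₁), w₁)) * sin (al (F (ξ, w₀), w₀)) -
    sin (al (F (ξ, w₁), w₁)) * cos (al (F (ξ, w₀), w₀)) with hN₃
  have dN₁ : DifferentiableOn ℂ N₁ D := (dpp1.mul dal0.csin).sub (dpp0.mul dal1.csin)
  have dN₂ : DifferentiableOn ℂ N₂ D := (dpp0.mul dal1.ccos).sub (dpp1.mul dal0.ccos)
  have dN₃ : DifferentiableOn ℂ N₃ D := (dal1.ccos.mul dal0.csin).sub (dal1.csin.mul dal0.ccos)
  have hrel : ∀ z ∈ ball b₀ r', z.im < H → N₃ z * a₁ z = N₁ z * a₃ z ∧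
      N₃ z * a₂ z = N₂ z * a₃ z := by
    intro z hz hzH
    have e0 := hES z hz hzH w₀ hw₀C
    have e1 := hES z hz hzH w₁ hw₁C
    simp only [hEd] at e0 e1
    constructor
    · simp only [hN₁, hN₃]
      linear_combination sin (al (F (z, w₀), w₀)) * e1 - sin (al (F (z, w₁), w₁)) * e0
    · simp only [hN₂, hN₃]
      linear_combination cos (al (F (z, w₁), w₁)) * e0 - cos (al (F (z, w₀), w₀)) * e1
  have hξ₂D : ξ₂ ∈ D := ⟨hξ₂b, by linarith⟩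
  have hb₀D : b₀ ∈ D := ⟨mem_ball_self hr'0, by rw [hbi]; linarith⟩
  -- `N₃` is not identically zero
  have hN₃ne : ¬ ∀ z ∈ D, N₃ z = 0 := by
    intro hz
    have hlowO : IsOpen {z : ℂ | z ∈ ball b₀ r' ∧ z.im < H} :=
      isOpen_ball.inter (isOpen_lt continuous_im continuous_const)
    have hev2 : ∀ᶠ z in 𝓝 ξ₂, N₁ z * a₃ z = 0 ∧ N₂ z * a₃ z = 0 := by
      filter_upwards [hlowO.mem_nhds ⟨hξ₂b, hξ₂i⟩] with z h
      obtain ⟨e1, e2⟩ := hrel z h.1 h.2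
      rw [hz z ⟨h.1, by linarith [h.2]⟩, zero_mul] at e1 e2
      exact ⟨e1.symm, e2.symm⟩
    have hlow2 : IsOpen {z : ℂ | z ∈ ball ξ₁ ρ ∧ z.im < H} :=
      isOpen_ball.inter (isOpen_lt continuous_im continuous_const)
    have ha3 : AnalyticOnNhd ℂ a₃ {z : ℂ | z ∈ ball ξ₁ ρ ∧ z.im < H} := d3.analyticOnNhd hlow2
    have hm4 : ξ₂ ∈ {z : ℂ | z ∈ ball ξ₁ ρ ∧ z.im < H} := ⟨hbs hξ₂b, hξ₂i⟩
    rcases (ha3 ξ₂ hm4).eventually_eq_zero_or_eventually_ne_zero with h | h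
    · obtain ⟨z, hz1, hz2, hz3⟩ := ha₃
      exact hz3 (ha3.eqOn_zero_of_preconnected_of_eventuallyEq_zero hcv.isPreconnected hm4 h
        ⟨hz1, hz2⟩)
    · have hz0 : ∀ {N : ℂ → ℂ}, DifferentiableOn ℂ N D → (∀ᶠ z in 𝓝 ξ₂, N z * a₃ z = 0) →
          N ξ₂ = 0 := by
        intro N dN hN
        have h5 : ∀ᶠ z in 𝓝[≠] ξ₂, N z = 0 := by
          filter_upwards [h, nhdsWithin_le_nhds hN] with z e1 e2
          exact (mul_eq_zero.1 e2).resolve_right e1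
        have h6 : AnalyticAt ℂ N ξ₂ := dN.analyticAt (hDo.mem_nhds hξ₂D)
        exact (h6.frequently_zero_iff_eventually_zero.1 h5.frequently).self_of_nhds
      apply hcr
      exact ⟨hz ξ₂ hξ₂D, hz0 dN₁ (hev2.mono fun z h => h.1), hz0 dN₂ (hev2.mono fun z h => h.2)⟩
  obtain ⟨r'', hr'', hr''D⟩ := Metric.isOpen_iff.1 hDo b₀ hb₀D
  refine ⟨min r'' r', lt_min hr'' hr'0, (ball_subset_ball (min_le_right _ _)).trans hbs, N₁, N₂,
    N₃, dN₁.mono ?_, dN₂.mono ?_, dN₃.mono ?_, ?_, ?_⟩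
  · exact (ball_subset_ball (min_le_left _ _)).trans hr''D
  · exact (ball_subset_ball (min_le_left _ _)).trans hr''D
  · exact (ball_subset_ball (min_le_left _ _)).trans hr''D
  · by_contra hcon
    push Not at hcon
    apply hN₃ne
    have h6 : AnalyticOnNhd ℂ N₃ D := dN₃.analyticOnNhd hDo
    have h7 : ∀ᶠ z in 𝓝 b₀, N₃ z = 0 := by
      filter_upwards [isOpen_ball.mem_nhds (mem_ball_self (lt_min hr'' hr'0))] with z hz
        using hcon z hz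
    exact fun z hz => h6.eqOn_zero_of_preconnected_of_eventuallyEq_zero hDc.isPreconnected hb₀D h7 hz
  · intro z hz hzH
    exact hrel z (ball_subset_ball (min_le_right _ _) hz) hzH

end Vale.Agent.P097.H877.Bd
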