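import Vale.Agent.P097.H877.Bd.End3
import Vale.Agent.P097.H85.Mx

/-!
(A7), part 4: **(E1)**, the extension of the position near the edge point, and enlarging the maximal
domain of vertical continuation.
-/

open Complex Metric Filter Topology Set

namespace Vale.Agent.P097.H877.Bd

open Vale.Agent.P097.H85 Vale.Agent.P097.TA Vale.Agent.P097.H543

/-- enlarging the maximal domain of vertical continuation -/
theorem mx_add {b : ℝ} {f : ℂ → ℂ → ℂ} {B : Set (ℂ × ℂ)} (hB : Dn b B) (hf : JD f B)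
    {N : Set (ℂ × ℂ)} (hN : IsOpen N) {h : ℂ → ℂ → ℂ} (hh : JD h N) {s₀ : ℝ} (hs : b ≤ s₀)
    (hN1 : ∀ t w : ℂ, (t, w) ∈ N → s₀ < t.im)
    (hdown : ∀ (t w : ℂ) (σ : ℝ), (t, w) ∈ N → s₀ < σ → σ ≤ t.im → ((t.re : ℂ) + σ * I, w) ∈ N)
    (hM : ∀ t w : ℂ, (t, w) ∈ N → ∃ σ : ℝ, s₀ < σ ∧ σ ≤ t.im ∧
      ((t.re : ℂ) + σ * I, w) ∈ Mx b f B ∧
      ∀ᶠ z in 𝓝 ((t.re : ℂ) + σ * I), h z w = gx b f B z w) : N ⊆ Mx b f B := by
  classical
  have hE := isExt_Mx (b := b) (f := f) hB.op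
  have heq : ∀ t w : ℂ, (t, w) ∈ N → (t, w) ∈ Mx b f B → h t w = gx b f B t w := by
    intro t w h1 h2
    obtain ⟨σ, e1, e2, e3, e4⟩ := hM t w h1
    apply vert_eq hN hE.dn.op hh hE.jd e2 _ e4
    intro τ hτ1 hτ2
    exact ⟨hdown t w τ h1 (e1.trans_le hτ1) hτ2, hE.dn.down t w τ h2 (by linarith) hτ2⟩
  have hX : IsExt b f B (Mx b f B ∪ N)
      (fun t w => if (t, w) ∈ Mx b f B then gx b f B t w else h t w) := by
    refine ⟨⟨hE.dn.op.union hN, ?_, ?_⟩, ?_, ?_, ?_⟩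
    · rintro t w (h1 | h1)
      · exact hE.dn.low t w h1
      · exact hs.trans_lt (hN1 t w h1)
    · rintro t w τ (h1 | h1) hb hτ
      · exact Or.inl (hE.dn.down t w τ h1 hb hτ)
      · by_cases h2 : s₀ < τ
        · exact Or.inr (hdown t w τ h1 h2 hτ)
        · left
          obtain ⟨σ, e1, e2, e3, e4⟩ := hM t w h1
          have h3 := hE.dn.down _ w τ e3 hb (by
            simp only [add_im, ofReal_im, mul_im, ofReal_re, I_im, mul_one, I_re, mul_zero,
              add_zero, zero_add]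
            linarith)
          simpa using h3
    · rintro ⟨t, w⟩ h1
      apply DifferentiableAt.differentiableWithinAt
      rcases h1 with h1 | h1
      · refine (JD_at hE.jd hE.dn.op h1).congr_of_eventuallyEq ?_
        filter_upwards [hE.dn.op.mem_nhds h1] with q hq
        have hq' : (q.1, q.2) ∈ Mx b f B := hq
        simp only [hq', if_true]
      · refine (JD_at hh hN h1).congr_of_eventuallyEq ?_
        filter_upwards [hN.mem_nhds h1] with q hq
        by_cases h2 : (q.1, q.2) ∈ Mx b f B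
        · simp only [h2, if_true]
          exact (heq q.1 q.2 hq h2).symm
        · simp only [h2, if_false]
    · intro p hp hpB
      have h1 : p ∈ Mx b f B := base_sub hB hf hpB
      have h1' : (p.1, p.2) ∈ Mx b f B := h1
      simp only [h1', if_true]
      exact hE.eq p h1 hpB
    · rintro t w (h1 | h1)
      · exact hE.above t w h1
      · obtain ⟨σ, e1, e2, e3, e4⟩ := hM t w h1
        obtain ⟨τ, f1, f2, f3⟩ := hE.above _ w e3
        refine ⟨τ, f1, ?_, ?_⟩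
        · refine f2.trans ?_
          simp only [add_im, ofReal_im, mul_im, ofReal_re, I_im, mul_one, I_re, mul_zero,
            add_zero, zero_add]
          exact e2
        · simpa using f3
  exact fun p hp => hX.sub (Or.inr hp)

/-- lower bounds of the height of `F (ξ, w)` near the edge point, for `ξ` on or above the line -/
theorem edge_low {H R₀ ρ δ u₀ c c' σ c₁ g : ℝ} {ξ₁ b₀ : ℂ} (hb : b₀ ∈ ball ξ₁ ρ)
    (hbi : b₀.im = H) (hδ : 0 < δ) (hc₁ : 0 < c₁) (hg : 0 < g)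
    {F : ℂ × ℂ → ℂ} (dF : DifferentiableOn ℂ F (ball ξ₁ ρ ×ˢ ball (u₀ : ℂ) δ))
    (hedge : ∀ ξ ∈ ball ξ₁ ρ, ξ.im = H → (F (ξ, u₀)).im = R₀)
    (hdi : (deriv (fun z => F (z, (u₀ : ℂ))) b₀).im = 0)
    (hdr : 0 < (deriv (fun z => F (z, (u₀ : ℂ))) b₀).re)
    (hsl : deriv (fun w => F (b₀, w)) u₀ = σ + c' * I) :
    ∃ K > 0, ∃ r' > 0, ball b₀ r' ⊆ ball ξ₁ ρ ∧ ball (u₀ : ℂ) r' ⊆ ball (u₀ : ℂ) δ ∧
      ∀ ξ ∈ ball b₀ r', ∀ w ∈ ball (u₀ : ℂ) r', H ≤ ξ.im →
        R₀ - K * ‖w - u₀‖ ≤ (F (ξ, w)).im ∧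
        (c₁ * |w.re - u₀| < w.im →
          R₀ + c * (w.re - u₀) + (σ - |c' - c| / c₁ - g) * w.im < (F (ξ, w)).im) := by
  have hO : IsOpen (ball ξ₁ ρ ×ˢ ball (u₀ : ℂ) δ) := isOpen_ball.prod isOpen_ball
  have hm0 : (b₀, (u₀ : ℂ)) ∈ ball ξ₁ ρ ×ˢ ball (u₀ : ℂ) δ := ⟨hb, mem_ball_self hδ⟩
  have hFa : AnalyticAt ℂ F (b₀, (u₀ : ℂ)) :=
    Vale.Agent.P097.Hol.analyticOnNhd_of_differentiableOn hO dF _ hm0
  set D : ℂ := deriv (fun z => F (z, (u₀ : ℂ))) b₀ with hD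
  set ε : ℝ := min (g / (2 * (1 + 1 / c₁))) D.re with hε
  have hk0 : 0 < 1 + 1 / c₁ := by positivity
  have hε0 : 0 < ε := lt_min (by positivity) hdr
  have hεk : ε * (1 + 1 / c₁) ≤ g / 2 := by
    have h1 : ε ≤ g / (2 * (1 + 1 / c₁)) := min_le_left _ _
    have h2 := mul_le_mul_of_nonneg_right h1 hk0.le
    have h3 : g / (2 * (1 + 1 / c₁)) * (1 + 1 / c₁) = g / 2 := by field_simp
    linarith
  have hεD : ε ≤ D.re := min_le_right _ _
  obtain ⟨r₁, hr₁, hE1, hE2⟩ := str_est hFa hε0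
  obtain ⟨r₂, hr₂, hr₂s⟩ := Metric.isOpen_iff.1 isOpen_ball b₀ hb
  set L : ℂ := (σ : ℂ) + c' * I with hL
  refine ⟨‖L‖ + ε, by positivity, min (min r₁ r₂) δ, lt_min (lt_min hr₁ hr₂) hδ, ?_, ?_, ?_⟩
  · exact (ball_subset_ball ((min_le_left _ _).trans (min_le_right _ _))).trans hr₂s
  · exact ball_subset_ball (min_le_right _ _)
  intro ξ hξ w hw hξH
  have hξ1 : ξ ∈ ball b₀ r₁ :=
    ball_subset_ball ((min_le_left _ _).trans (min_le_left _ _)) hξ
  have hw1 : w ∈ ball (u₀ : ℂ) r₁ :=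
    ball_subset_ball ((min_le_left _ _).trans (min_le_left _ _)) hw
  set ξ' : ℂ := ⟨ξ.re, H⟩ with hξ'
  have hdist : dist ξ' b₀ ≤ dist ξ b₀ := by
    rw [dist_eq_norm, dist_eq_norm, Complex.norm_def, Complex.norm_def]
    apply Real.sqrt_le_sqrt
    rw [normSq_apply, normSq_apply]
    have e1 : (ξ' - b₀).re = (ξ - b₀).re := rfl
    have e2 : (ξ' - b₀).im * (ξ' - b₀).im ≤ (ξ - b₀).im * (ξ - b₀).im := by
      simp only [sub_im, hξ', hbi]
      nlinarith
    rw [e1]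
    linarith
  have hξ'1 : ξ' ∈ ball b₀ r₁ := by
    rw [mem_ball] at hξ1 ⊢; exact hdist.trans_lt hξ1
  have hξ'2 : ξ' ∈ ball ξ₁ ρ := by
    apply hr₂s
    have := ball_subset_ball ((min_le_left _ _).trans (min_le_right _ _)) hξ
    rw [mem_ball] at this ⊢; exact hdist.trans_lt this
  have hξ'R : (F (ξ', u₀)).im = R₀ := hedge ξ' hξ'2 rfl
  have hdd : ξ - ξ' = ((ξ.im - H : ℝ) : ℂ) * I := by
    apply Complex.ext <;> simp [hξ']
  have hdn : ‖ξ - ξ'‖ = ξ.im - H := by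
    rw [hdd, norm_mul, norm_real, norm_I, mul_one, Real.norm_eq_abs, abs_of_nonneg (by linarith)]
  have k2 := hE2 ξ hξ1 ξ' hξ'1
  have k2' : R₀ ≤ (F (ξ, u₀)).im := by
    have h1 := (Complex.abs_im_le_norm _).trans k2
    have h1 := (abs_le.1 h1).1
    rw [sub_im, sub_im, mul_im, hdd, ← hdd, hdn, hξ'R, hdi, hdd] at h1
    simp only [mul_im, ofReal_re, I_im, mul_one, ofReal_im, I_re, mul_zero, add_zero, mul_re,
      sub_self] at h1
    have h2 : 0 ≤ (D.re - ε) * (ξ.im - H) := mul_nonneg (by linarith) (by linarith)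
    linarith
  have k1 := hE1 ξ hξ1 w hw1
  rw [hsl] at k1
  have k1' := (abs_le.1 ((Complex.abs_im_le_norm _).trans k1)).1
  rw [sub_im, sub_im] at k1'
  constructor
  · have h2 := (abs_le.1 ((Complex.abs_im_le_norm (L * (w - u₀))).trans (norm_mul_le _ _))).1
    have h3 : (‖L‖ + ε) * ‖w - u₀‖ = ‖L‖ * ‖w - u₀‖ + ε * ‖w - u₀‖ := by ring
    linarith
  · intro hcone
    have hv0 : 0 < w.im := (by positivity : 0 ≤ c₁ * |w.re - u₀|).trans_lt hcone
    have hre : |w.re - u₀| ≤ w.im / c₁ := by rw [le_div_iff₀ hc₁]; linarith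
    have hnv : ‖w - u₀‖ ≤ (1 + 1 / c₁) * w.im := by
      have h := Complex.norm_le_abs_re_add_abs_im (w - u₀)
      simp only [sub_re, ofReal_re, sub_im, ofReal_im, sub_zero] at h
      rw [abs_of_pos hv0] at h
      have : (1 + 1 / c₁) * w.im = w.im + w.im / c₁ := by ring
      linarith
    have k4 : ε * ‖w - u₀‖ ≤ g / 2 * w.im := by
      have h1 := mul_le_mul_of_nonneg_left hnv hε0.le
      rw [← mul_assoc] at h1
      exact h1.trans (mul_le_mul_of_nonneg_right hεk hv0.le)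
    have k5 : -(|c' - c| / c₁ * w.im) ≤ (c' - c) * (w.re - u₀) := by
      have h1 : -(|c' - c| * |w.re - u₀|) ≤ (c' - c) * (w.re - u₀) := by
        rw [← abs_mul]; exact neg_abs_le _
      have h2 := mul_le_mul_of_nonneg_left hre (abs_nonneg (c' - c))
      have h3 : |c' - c| * (w.im / c₁) = |c' - c| / c₁ * w.im := by ring
      linarith
    have k6 : (L * (w - u₀)).im = c' * (w.re - u₀) + σ * w.im := by
      simp only [hL, mul_im, add_re, ofReal_re, mul_re, I_re, mul_zero, ofReal_im, I_im, mul_one,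
        sub_self, add_zero, sub_im, sub_zero, add_im, zero_add, sub_re]
      ring
    rw [k6] at k1'
    have hgw : 0 < g * w.im := by positivity
    nlinarith

end Vale.Agent.P097.H877.Bd
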