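import Vale.Agent.P097.H877.Bd.End4

/-!
(A7), part 5: **(E1)** — the theorem: if the leaf through the edge point has slope larger than `s`,
the next line is regular on the windows of slope `s`.
-/

open Complex Metric Filter Topology Set

namespace Vale.Agent.P097.H877.Bd

open Vale.Agent.P097.H85 Vale.Agent.P097.TA Vale.Agent.P097.H543

/-- the position extends across the edge point; it stays below the line `Im = H` for `t` below the
slope `s` -/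
theorem end_Theta {H r y₀ R₀ ρ δ u₀ c c' σ s c₁ : ℝ} {ξ₁ b₀ : ℂ} (h1 : ξ₁.im < H)
    (hb : b₀ ∈ ball ξ₁ ρ) (hbi : b₀.im = H) (hδ : 0 < δ) (hc₁ : 0 < c₁)
    {F : ℂ × ℂ → ℂ} (dF : DifferentiableOn ℂ F (ball ξ₁ ρ ×ˢ ball (u₀ : ℂ) δ))
    (hlow : ∀ ξ ∈ ball ξ₁ ρ, ξ.im < H → |(F (ξ, u₀)).re - y₀| < r ∧ R₀ - r < (F (ξ, u₀)).im ∧
      (F (ξ, u₀)).im < R₀)
    (hedge : ∀ ξ ∈ ball ξ₁ ρ, ξ.im = H → |(F (ξ, u₀)).re - y₀| < r ∧ (F (ξ, u₀)).im = R₀)
    (hdi : (deriv (fun z => F (z, (u₀ : ℂ))) b₀).im = 0)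
    (hdr : 0 < (deriv (fun z => F (z, (u₀ : ℂ))) b₀).re)
    (hsl : deriv (fun w => F (b₀, w)) u₀ = σ + c' * I)
    {W : Set (ℂ × ℂ)} (hW : IsOpen W) {θ : ℂ × ℂ → ℂ} (hθ : DifferentiableOn ℂ θ W)
    (hW0 : ∀ t : ℂ, |t.re - y₀| < r → R₀ - r < t.im → t.im < R₀ → (t, (u₀ : ℂ)) ∈ W)
    (hinv : ∀ᶠ z in 𝓝 (ξ₁, (u₀ : ℂ)), θ (F z, z.2) = z.1)
    (hs : s + |c' - c| / c₁ < σ) :
    ∃ η > 0, ∃ K > 0, ∃ Θ : ℂ × ℂ → ℂ,
      DifferentiableOn ℂ Θ {z : ℂ × ℂ | |z.1.re - (F (b₀, u₀)).re| < η ∧ |z.1.im - R₀| < η ∧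
        ‖z.2 - u₀‖ < η} ∧
      (∀ t w : ℂ, |t.re - (F (b₀, u₀)).re| < η → |t.im - R₀| < η → ‖w - u₀‖ < η →
        Θ (t, w) ∈ ball ξ₁ ρ ∧ F (Θ (t, w), w) = t ∧
        (t.im < R₀ - K * ‖w - u₀‖ → (Θ (t, w)).im < H) ∧
        (c₁ * |w.re - u₀| < w.im → t.im < R₀ + c * (w.re - u₀) + s * w.im →
          (Θ (t, w)).im < H)) ∧
      ∀ t : ℂ, |t.re - (F (b₀, u₀)).re| < η → |t.im - R₀| < η → t.im < R₀ →
        ∀ᶠ z in 𝓝 (t, (u₀ : ℂ)), Θ z = θ z := by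
  have hρ : 0 < ρ := dist_nonneg.trans_lt hb
  have hξ₁ : ξ₁ ∈ ball ξ₁ ρ := mem_ball_self hρ
  have hO : IsOpen (ball ξ₁ ρ ×ˢ ball (u₀ : ℂ) δ) := isOpen_ball.prod isOpen_ball
  have hm0 : (b₀, (u₀ : ℂ)) ∈ ball ξ₁ ρ ×ˢ ball (u₀ : ℂ) δ := ⟨hb, mem_ball_self hδ⟩
  set g : ℝ := σ - |c' - c| / c₁ - s with hg
  have hg0 : 0 < g := by rw [hg]; linarith
  have hsg : σ - |c' - c| / c₁ - g = s := by rw [hg]; ring
  obtain ⟨K, hK, r', hr', hr'a, hr'b, hE⟩ := edge_low (c := c) hb hbi hδ hc₁ hg0 dF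
    (fun ξ a b => (hedge ξ a b).2) hdi hdr hsl
  rw [hsg] at hE
  have hd0 : deriv (fun z => F (z, (u₀ : ℂ))) b₀ ≠ 0 := by
    intro h; rw [h] at hdr; simp at hdr
  obtain ⟨d, hd, δ', hδ', f, hf1, hf2, hf3⟩ := impl2 hO dF hm0 hd0
  set t₀ : ℂ := F (b₀, (u₀ : ℂ)) with ht₀
  have ht₀i : t₀.im = R₀ := (hedge b₀ hb hbi).2
  have hB : IsOpen (ball t₀ d ×ˢ ball (u₀ : ℂ) δ') := isOpen_ball.prod isOpen_ball
  have hfc : ContinuousAt f (t₀, (u₀ : ℂ)) :=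
    (hf1.differentiableAt (hB.mem_nhds ⟨mem_ball_self hd, mem_ball_self hδ'⟩)).continuousAt
  have hfn : ∀ᶠ z in 𝓝 (t₀, (u₀ : ℂ)), f z ∈ ball b₀ r' := by
    have := hfc.tendsto
    rw [hf2] at this
    exact this.eventually (isOpen_ball.mem_nhds (mem_ball_self hr'))
  obtain ⟨r₃, hr₃, hh₃⟩ := Metric.eventually_nhds_iff_ball.mp hfn
  set η : ℝ := min (min d r₃ / 2) (min (min δ' r₃) r') with hη
  have hη0 : 0 < η := by
    have := lt_min hd hr₃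
    exact lt_min (by positivity) (lt_min (lt_min hδ' hr₃) hr')
  have hη1 : 2 * η ≤ d := by
    have a1 : η ≤ min d r₃ / 2 := min_le_left _ _
    have a2 : min d r₃ ≤ d := min_le_left _ _
    linarith
  have hη2 : 2 * η ≤ r₃ := by
    have a1 : η ≤ min d r₃ / 2 := min_le_left _ _
    have a2 : min d r₃ ≤ r₃ := min_le_right _ _
    linarith
  have hη3 : η ≤ δ' := (min_le_right _ _).trans ((min_le_left _ _).trans (min_le_left _ _))
  have hη4 : η ≤ r₃ := (min_le_right _ _).trans ((min_le_left _ _).trans (min_le_right _ _))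
  have hη5 : η ≤ r' := (min_le_right _ _).trans (min_le_right _ _)
  have hbox : ∀ t w : ℂ, |t.re - t₀.re| < η → |t.im - R₀| < η → ‖w - u₀‖ < η →
      t ∈ ball t₀ d ∧ w ∈ ball (u₀ : ℂ) δ' ∧ f (t, w) ∈ ball b₀ r' ∧ w ∈ ball (u₀ : ℂ) r' := by
    intro t w a1 a2 a3
    have h2 : dist t t₀ < 2 * η := by
      rw [dist_eq_norm]
      have h := Complex.norm_le_abs_re_add_abs_im (t - t₀)
      rw [sub_re, sub_im, ht₀i] at h
      linarith
    have h3 : dist w (u₀ : ℂ) < η := by rw [dist_eq_norm]; exact a3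
    refine ⟨by rw [mem_ball]; linarith, by rw [mem_ball]; linarith, ?_, by rw [mem_ball]; linarith⟩
    apply hh₃
    rw [← ball_prod_same]
    exact ⟨by rw [mem_ball]; linarith, by rw [mem_ball]; linarith⟩
  have hmain : ∀ t w : ℂ, |t.re - t₀.re| < η → |t.im - R₀| < η → ‖w - u₀‖ < η →
        f (t, w) ∈ ball ξ₁ ρ ∧ F (f (t, w), w) = t ∧
        (t.im < R₀ - K * ‖w - u₀‖ → (f (t, w)).im < H) ∧
        (c₁ * |w.re - u₀| < w.im → t.im < R₀ + c * (w.re - u₀) + s * w.im →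
          (f (t, w)).im < H) := by
    intro t w a1 a2 a3
    obtain ⟨e1, e2, e3, e4⟩ := hbox t w a1 a2 a3
    obtain ⟨e5, e6⟩ := hf3 t e1 w e2
    refine ⟨hr'a e3, e6, ?_, ?_⟩
    · intro h
      by_contra hcon
      push Not at hcon
      have := (hE _ e3 w e4 hcon).1
      rw [e6] at this
      linarith
    · intro hc h
      by_contra hcon
      push Not at hcon
      have := (hE _ e3 w e4 hcon).2 hc
      rw [e6] at this
      linarith
  refine ⟨η, hη0, K, hK, f, ?_, hmain, ?_⟩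
  · apply hf1.mono
    rintro ⟨t, w⟩ ⟨a1, a2, a3⟩
    obtain ⟨e1, e2, -, -⟩ := hbox t w a1 a2 a3
    exact ⟨e1, e2⟩
  · intro t a1 a2 a3
    have hu : ‖(u₀ : ℂ) - u₀‖ < η := by simpa using hη0
    obtain ⟨e1, e2, e3, e4⟩ := hmain t u₀ a1 a2 hu
    obtain ⟨k1, k2, -, -⟩ := hbox t u₀ a1 a2 hu
    have e5 : (f (t, (u₀ : ℂ))).im < H := e3 (by simpa using a3)
    -- `θ (F z, z.2) = z.1` near `(f (t, u₀), u₀)`
    have hcv : Convex ℝ {z : ℂ | z ∈ ball ξ₁ ρ ∧ z.im < H} :=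
      (convex_ball ξ₁ ρ).inter (convex_halfSpace_im_lt H)
    have dFs : DifferentiableOn ℂ (fun z => (F z, z.2)) (ball ξ₁ ρ ×ˢ ball (u₀ : ℂ) δ) :=
      dF.prodMk (by fun_prop)
    have hOo : IsOpen ((ball ξ₁ ρ ×ˢ ball (u₀ : ℂ) δ) ∩ (fun z => (F z, z.2)) ⁻¹' W) :=
      dFs.continuousOn.isOpen_inter_preimage hO hW
    have dZ : DifferentiableOn ℂ (fun z : ℂ × ℂ => θ (F z, z.2) - z.1)
        ((ball ξ₁ ρ ×ˢ ball (u₀ : ℂ) δ) ∩ (fun z => (F z, z.2)) ⁻¹' W) :=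
      (DifferentiableOn.comp hθ (dFs.mono fun z hz => hz.1) fun z hz => hz.2).sub
        differentiableOn_fst
    have hZ := seg_zero hOo dZ (ξ₁ := ξ₁) (ξ₂ := f (t, (u₀ : ℂ))) (u₀ := (u₀ : ℂ)) (by
        intro ξ hξ
        have hm := hcv.segment_subset ⟨hξ₁, h1⟩ ⟨e1, e5⟩ hξ
        obtain ⟨b1, b2, b3⟩ := hlow ξ hm.1 hm.2
        exact ⟨⟨hm.1, mem_ball_self hδ⟩, hW0 _ b1 b2 b3⟩) (by
        filter_upwards [hinv] with z hz
        rw [hz, sub_self])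
    have hfa : ContinuousAt (fun z : ℂ × ℂ => (f z, z.2)) (t, (u₀ : ℂ)) :=
      ((hf1.differentiableAt (hB.mem_nhds ⟨k1, k2⟩)).continuousAt).prodMk continuousAt_snd
    have hev := hfa.tendsto.eventually hZ
    filter_upwards [hev, hB.mem_nhds (show (t, (u₀ : ℂ)) ∈ ball t₀ d ×ˢ ball (u₀ : ℂ) δ' from
      ⟨k1, k2⟩)] with z hz hzB
    obtain ⟨-, b2⟩ := hf3 z.1 hzB.1 z.2 hzB.2
    have b3 : ((z.1, z.2) : ℂ × ℂ) = z := rfl
    rw [b3] at b2
    have hz' : θ (F (f z, z.2), z.2) - f z = 0 := hz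
    rw [b2] at hz'
    exact (sub_eq_zero.1 hz').symm

/-- **(E1).**  `f` = one coordinate of the next line, `B` its base domain, `Φ` = the reflection. -/
theorem end_E1 {H r y₀ R₀ ρ δ u₀ c c' σ s c₁ δ₁ K₀ b : ℝ} {ξ₁ b₀ : ℂ} (h1 : ξ₁.im < H)
    (hb : b₀ ∈ ball ξ₁ ρ) (hbi : b₀.im = H) (hδ : 0 < δ) (hδ₁ : 0 < δ₁) (hc₁ : 0 < c₁)
    (hr : 0 < r)
    {F : ℂ × ℂ → ℂ} (dF : DifferentiableOn ℂ F (ball ξ₁ ρ ×ˢ ball (u₀ : ℂ) δ))
    (hlow : ∀ ξ ∈ ball ξ₁ ρ, ξ.im < H → |(F (ξ, u₀)).re - y₀| < r ∧ R₀ - r < (F (ξ, u₀)).im ∧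
      (F (ξ, u₀)).im < R₀)
    (hedge : ∀ ξ ∈ ball ξ₁ ρ, ξ.im = H → |(F (ξ, u₀)).re - y₀| < r ∧ (F (ξ, u₀)).im = R₀)
    (hdi : (deriv (fun z => F (z, (u₀ : ℂ))) b₀).im = 0)
    (hdr : 0 < (deriv (fun z => F (z, (u₀ : ℂ))) b₀).re)
    (hsl : deriv (fun w => F (b₀, w)) u₀ = σ + c' * I)
    {W : Set (ℂ × ℂ)} (hW : IsOpen W) {θ : ℂ × ℂ → ℂ} (hθ : DifferentiableOn ℂ θ W)
    (hW0 : ∀ t : ℂ, |t.re - y₀| < r → R₀ - r < t.im → t.im < R₀ → (t, (u₀ : ℂ)) ∈ W)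
    (hinv : ∀ᶠ z in 𝓝 (ξ₁, (u₀ : ℂ)), θ (F z, z.2) = z.1)
    (hs : s + |c' - c| / c₁ < σ)
    {Q : Set (ℂ × ℂ)}
    (hQc : ∀ t w : ℂ, |t.re - y₀| < r → R₀ - r < t.im →
      t.im < R₀ + c * (w.re - u₀) + s * w.im → c₁ * |w.re - u₀| < w.im → ‖w - u₀‖ < δ₁ →
      (t, w) ∈ Q)
    (hQ1 : ∀ t w : ℂ, |t.re - y₀| < r → R₀ - r < t.im → t.im < R₀ - K₀ * ‖w - u₀‖ →
      ‖w - u₀‖ < δ₁ → (t, w) ∈ Q)
    {f : ℂ → ℂ → ℂ} {B : Set (ℂ × ℂ)} (hB : Dn b B) (hf : JD f B) (hbR : b < R₀)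
    (hM1 : ∀ t w : ℂ, |t.re - y₀| < r → R₀ - r < t.im → t.im < R₀ - K₀ * ‖w - u₀‖ →
      ‖w - u₀‖ < δ₁ → (t, w) ∈ Mx b f B)
    {Φ : ℂ × (ℂ × ℂ) → ℂ}
    (hΦ : DifferentiableOn ℂ Φ {p | (p.1 ∈ ball ξ₁ ρ ∧ p.1.im < H) ∧ p.2 ∈ Q})
    (hrel : ∀ t : ℂ, |t.re - y₀| < r → R₀ - r < t.im → t.im < R₀ →
      ∀ᶠ z in 𝓝 (t, (u₀ : ℂ)), gx b f B z.1 z.2 = Φ (θ z, z)) :
    ∃ η > 0, ∀ t w : ℂ, |t.re - (F (b₀, u₀)).re| < η → ‖w - u₀‖ < η →
      c₁ * |w.re - u₀| < w.im → b < t.im → t.im < R₀ + c * (w.re - u₀) + s * w.im →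
      (t, w) ∈ Mx b f B := by
  obtain ⟨η, hη, K, hK, Θ, dΘ, hΘ, hΘe⟩ := end_Theta (c := c) h1 hb hbi hδ hc₁ dF hlow hedge hdi
    hdr hsl hW hθ hW0 hinv hs
  set t₀ : ℂ := F (b₀, (u₀ : ℂ)) with ht₀
  have ht₀r : |t₀.re - y₀| < r := (hedge b₀ hb hbi).1
  set K₁ : ℝ := max K K₀ with hK₁
  have hK₁0 : 0 < K₁ := hK.trans_le (le_max_left _ _)
  -- sizes
  set a : ℝ := min (min η (r - |t₀.re - y₀|)) (min r (R₀ - b)) with ha
  have ha0 : 0 < a := lt_min (lt_min hη (by linarith)) (lt_min hr (by linarith))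
  have ha1 : a ≤ η := (min_le_left _ _).trans (min_le_left _ _)
  have ha2 : a ≤ r - |t₀.re - y₀| := (min_le_left _ _).trans (min_le_right _ _)
  have ha3 : a ≤ r := (min_le_right _ _).trans (min_le_left _ _)
  have ha4 : a ≤ R₀ - b := (min_le_right _ _).trans (min_le_right _ _)
  set T : ℝ := |c| + |s| + K₁ + 1 with hT
  have hT0 : 0 < T := by positivity
  set e : ℝ := min (min η δ₁) (a / (2 * T)) with he
  have he0 : 0 < e := lt_min (lt_min hη hδ₁) (by positivity)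
  have he1 : e ≤ η := (min_le_left _ _).trans (min_le_left _ _)
  have he2 : e ≤ δ₁ := (min_le_left _ _).trans (min_le_right _ _)
  have he3 : T * e ≤ a / 2 := by
    have h1 : e ≤ a / (2 * T) := min_le_right _ _
    have h2 := mul_le_mul_of_nonneg_left h1 hT0.le
    have h3 : T * (a / (2 * T)) = a / 2 := by field_simp
    linarith
  have hsz : ∀ w : ℂ, ‖w - u₀‖ < e → K₁ * ‖w - u₀‖ < a / 2 ∧
      c * (w.re - u₀) + s * w.im < a := by
    intro w hw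
    have hre : |w.re - u₀| ≤ ‖w - u₀‖ := by
      have := Complex.abs_re_le_norm (w - u₀)
      simpa using this
    have him : |w.im| ≤ ‖w - u₀‖ := by
      have := Complex.abs_im_le_norm (w - u₀)
      simpa using this
    have n0 : 0 ≤ ‖w - u₀‖ := norm_nonneg _
    have c1 : c * (w.re - u₀) ≤ |c| * ‖w - u₀‖ := by
      refine (le_abs_self _).trans ?_
      rw [abs_mul]
      exact mul_le_mul_of_nonneg_left hre (abs_nonneg _)
    have c2 : s * w.im ≤ |s| * ‖w - u₀‖ := by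
      refine (le_abs_self _).trans ?_
      rw [abs_mul]
      exact mul_le_mul_of_nonneg_left him (abs_nonneg _)
    have c3 : T * ‖w - u₀‖ ≤ T * e := mul_le_mul_of_nonneg_left hw.le hT0.le
    have c4 : T * ‖w - u₀‖ = |c| * ‖w - u₀‖ + |s| * ‖w - u₀‖ + K₁ * ‖w - u₀‖ + ‖w - u₀‖ := by
      rw [hT]; ring
    have c5 : 0 ≤ |c| * ‖w - u₀‖ := by positivity
    have c6 : 0 ≤ |s| * ‖w - u₀‖ := by positivity
    have c7 : 0 ≤ K₁ * ‖w - u₀‖ := by positivity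
    constructor
    · by_cases hn : ‖w - u₀‖ = 0
      · rw [hn, mul_zero]; positivity
      · have : 0 < ‖w - u₀‖ := lt_of_le_of_ne n0 (Ne.symm hn)
        linarith
    · linarith
  have hre' : ∀ t : ℂ, |t.re - t₀.re| < a → |t.re - y₀| < r := by
    intro t ht
    have := abs_sub_le t.re t₀.re y₀
    linarith
  -- the two regions
  set P : Set (ℂ × ℂ) := {z | |z.1.re - t₀.re| < a ∧ R₀ - a < z.1.im ∧
    z.1.im < R₀ - K₁ * ‖z.2 - u₀‖ ∧ ‖z.2 - u₀‖ < e} with hP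
  set N : Set (ℂ × ℂ) := {z | |z.1.re - t₀.re| < a ∧ R₀ - a < z.1.im ∧
    z.1.im < R₀ + c * (z.2.re - u₀) + s * z.2.im ∧ ‖z.2 - u₀‖ < e ∧
    c₁ * |z.2.re - u₀| < z.2.im} with hN
  have o1 : IsOpen {z : ℂ × ℂ | |z.1.re - t₀.re| < a} :=
    isOpen_lt ((continuous_re.comp continuous_fst).sub continuous_const).abs continuous_const
  have o2 : IsOpen {z : ℂ × ℂ | R₀ - a < z.1.im} :=
    isOpen_lt continuous_const (continuous_im.comp continuous_fst)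
  have o3 : IsOpen {z : ℂ × ℂ | z.1.im < R₀ - K₁ * ‖z.2 - u₀‖} :=
    isOpen_lt (continuous_im.comp continuous_fst)
      (continuous_const.sub (continuous_const.mul (continuous_snd.sub continuous_const).norm))
  have o4 : IsOpen {z : ℂ × ℂ | ‖z.2 - u₀‖ < e} :=
    isOpen_lt (continuous_snd.sub continuous_const).norm continuous_const
  have o5 : IsOpen {z : ℂ × ℂ | z.1.im < R₀ + c * (z.2.re - u₀) + s * z.2.im} :=
    isOpen_lt (continuous_im.comp continuous_fst)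
      ((continuous_const.add (continuous_const.mul ((continuous_re.comp continuous_snd).sub
        continuous_const))).add (continuous_const.mul (continuous_im.comp continuous_snd)))
  have o6 : IsOpen {z : ℂ × ℂ | c₁ * |z.2.re - u₀| < z.2.im} :=
    isOpen_lt (continuous_const.mul ((continuous_re.comp continuous_snd).sub
        continuous_const).abs) (continuous_im.comp continuous_snd)
  have hPo : IsOpen P := o1.inter (o2.inter (o3.inter o4))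
  have hNo : IsOpen N := o1.inter (o2.inter (o5.inter (o4.inter o6)))
  have habs : ∀ t : ℂ, R₀ - a < t.im → t.im < R₀ + a → |t.im - R₀| < η := by
    intro t h2 h3
    rw [abs_lt]
    constructor <;> linarith
  have hPm : ∀ z ∈ P, (z.1, z.2) ∈ {p : ℂ × ℂ | |p.1.re - t₀.re| < η ∧ |p.1.im - R₀| < η ∧
      ‖p.2 - u₀‖ < η} ∧ (Θ z ∈ ball ξ₁ ρ ∧ (Θ z).im < H) ∧ z ∈ Q ∧ z ∈ Mx b f B := by
    rintro ⟨t, w⟩ ⟨a1, a2, a3, a4⟩
    simp only at a1 a2 a3 a4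
    have n0 : 0 ≤ K₁ * ‖w - u₀‖ := by positivity
    have a5 : t.im < R₀ + a := by linarith
    have a6 := habs t a2 a5
    have a7 : ‖w - u₀‖ < η := a4.trans_le he1
    have a8 : |t.re - t₀.re| < η := a1.trans_le ha1
    obtain ⟨f1, f2, f3, f4⟩ := hΘ t w a8 a6 a7
    have k1 : K * ‖w - u₀‖ ≤ K₁ * ‖w - u₀‖ :=
      mul_le_mul_of_nonneg_right (le_max_left _ _) (norm_nonneg _)
    have k2 : K₀ * ‖w - u₀‖ ≤ K₁ * ‖w - u₀‖ :=
      mul_le_mul_of_nonneg_right (le_max_right _ _) (norm_nonneg _)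
    refine ⟨⟨a8, a6, a7⟩, ⟨f1, f3 (by linarith)⟩, ?_, ?_⟩
    · exact hQ1 t w (hre' t a1) (by linarith) (by linarith) (a4.trans_le he2)
    · exact hM1 t w (hre' t a1) (by linarith) (by linarith) (a4.trans_le he2)
  have hNm : ∀ z ∈ N, (z.1, z.2) ∈ {p : ℂ × ℂ | |p.1.re - t₀.re| < η ∧ |p.1.im - R₀| < η ∧
      ‖p.2 - u₀‖ < η} ∧ (Θ z ∈ ball ξ₁ ρ ∧ (Θ z).im < H) ∧ z ∈ Q := by
    rintro ⟨t, w⟩ ⟨a1, a2, a3, a4, a5⟩
    simp only at a1 a2 a3 a4 a5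
    have a6 := habs t a2 (by linarith [(hsz w a4).2])
    have a7 : ‖w - u₀‖ < η := a4.trans_le he1
    have a8 : |t.re - t₀.re| < η := a1.trans_le ha1
    obtain ⟨f1, f2, f3, f4⟩ := hΘ t w a8 a6 a7
    refine ⟨⟨a8, a6, a7⟩, ⟨f1, f4 a5 a3⟩, ?_⟩
    exact hQc t w (hre' t a1) (by linarith) a3 a5 (a4.trans_le he2)
  -- the function
  have dh : ∀ {S : Set (ℂ × ℂ)}, (∀ z ∈ S, (z.1, z.2) ∈ {p : ℂ × ℂ | |p.1.re - t₀.re| < η ∧
      |p.1.im - R₀| < η ∧ ‖p.2 - u₀‖ < η} ∧ (Θ z ∈ ball ξ₁ ρ ∧ (Θ z).im < H) ∧ z ∈ Q) →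
      DifferentiableOn ℂ (fun z : ℂ × ℂ => Φ (Θ z, z)) S := by
    intro S hS
    have d1 : DifferentiableOn ℂ (fun z : ℂ × ℂ => (Θ z, z)) S :=
      (dΘ.mono fun z hz => (hS z hz).1).prodMk differentiableOn_id
    exact DifferentiableOn.comp hΦ d1 fun z hz => ⟨(hS z hz).2.1, (hS z hz).2.2⟩
  have dhP := dh (S := P) fun z hz => ⟨(hPm z hz).1, (hPm z hz).2.1, (hPm z hz).2.2.1⟩
  have dhN := dh (S := N) hNm
  have hEx := isExt_Mx (b := b) (f := f) hB.op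
  have dg : DifferentiableOn ℂ (fun z : ℂ × ℂ => gx b f B z.1 z.2) P :=
    DifferentiableOn.mono hEx.jd fun z hz => (hPm z hz).2.2.2
  -- convexity of `P`
  have hPc : Convex ℝ P := by
    have q1 : Convex ℝ {z : ℂ × ℂ | |z.1.re - t₀.re| < a} := by
      have : {z : ℂ × ℂ | |z.1.re - t₀.re| < a} =
          (fun z : ℂ × ℂ => z.1.re) ⁻¹' (ball t₀.re a) := by
        ext z; simp [Real.dist_eq]
      rw [this]
      exact (convex_ball t₀.re a).is_linear_preimage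
        ⟨fun x y => by simp, fun k x => by simp⟩
    have q2 : Convex ℝ {z : ℂ × ℂ | R₀ - a < z.1.im} := by
      have : {z : ℂ × ℂ | R₀ - a < z.1.im} = (fun z : ℂ × ℂ => z.1.im) ⁻¹' (Ioi (R₀ - a)) := rfl
      rw [this]
      exact (convex_Ioi _).is_linear_preimage ⟨fun x y => by simp, fun k x => by simp⟩
    have q4 : Convex ℝ {z : ℂ × ℂ | ‖z.2 - u₀‖ < e} := by
      have : {z : ℂ × ℂ | ‖z.2 - u₀‖ < e} = (fun z : ℂ × ℂ => z.2) ⁻¹' (ball (u₀ : ℂ) e) := by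
        ext z; simp [dist_eq_norm]
      rw [this]
      exact (convex_ball (u₀ : ℂ) e).is_linear_preimage
        ⟨fun x y => by simp, fun k x => by simp⟩
    have q3 : Convex ℝ {z : ℂ × ℂ | z.1.im < R₀ - K₁ * ‖z.2 - u₀‖} := by
      intro x hx y hy α β hα hβ hαβ
      have hx : x.1.im < R₀ - K₁ * ‖x.2 - u₀‖ := hx
      have hy : y.1.im < R₀ - K₁ * ‖y.2 - u₀‖ := hy
      show (α • x + β • y).1.im < R₀ - K₁ * ‖(α • x + β • y).2 - u₀‖
      have e1 : (α • x + β • y).1.im = α * x.1.im + β * y.1.im := by simp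
      have e2 : (α • x + β • y).2 - u₀ = (α : ℂ) * (x.2 - u₀) + (β : ℂ) * (y.2 - u₀) := by
        have h3 : (α : ℂ) + β = 1 := by exact_mod_cast hαβ
        simp only [Prod.snd_add, Prod.smul_snd, real_smul]
        linear_combination (u₀ : ℂ) * h3
      have e3 : ‖(α • x + β • y).2 - u₀‖ ≤ α * ‖x.2 - u₀‖ + β * ‖y.2 - u₀‖ := by
        rw [e2]
        refine (norm_add_le _ _).trans ?_
        rw [norm_mul, norm_mul, norm_real, norm_real, Real.norm_eq_abs, Real.norm_eq_abs,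
          abs_of_nonneg hα, abs_of_nonneg hβ]
      have e4 := mul_le_mul_of_nonneg_left e3 hK₁0.le
      rw [e1]
      rcases hα.eq_or_lt with h | h
      · have hβ1 : β = 1 := by linarith
        rw [← h, hβ1] at e4 ⊢
        simp only [zero_mul, zero_add, one_mul] at e4 ⊢
        linarith
      · have e5 := mul_lt_mul_of_pos_left hx h
        have e6 := mul_le_mul_of_nonneg_left hy.le hβ
        have e7 : α * R₀ + β * R₀ = R₀ := by rw [← add_mul, hαβ, one_mul]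
        have e8 : K₁ * (α * ‖x.2 - u₀‖ + β * ‖y.2 - u₀‖) =
          α * (K₁ * ‖x.2 - u₀‖) + β * (K₁ * ‖y.2 - u₀‖) := by ring
        have e9 : α * (R₀ - K₁ * ‖x.2 - u₀‖) = α * R₀ - α * (K₁ * ‖x.2 - u₀‖) := by ring
        have e10 : β * (R₀ - K₁ * ‖y.2 - u₀‖) = β * R₀ - β * (K₁ * ‖y.2 - u₀‖) := by ring
        linarith
    exact q1.inter (q2.inter (q3.inter q4))
  set t₂ : ℂ := (t₀.re : ℂ) + ((R₀ - a / 2 : ℝ) : ℂ) * I with ht₂
  have ht₂r : t₂.re = t₀.re := by simp [ht₂]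
  have ht₂i : t₂.im = R₀ - a / 2 := by simp [ht₂]
  have ht₂P : (t₂, (u₀ : ℂ)) ∈ P := by
    refine ⟨?_, ?_, ?_, ?_⟩
    · simp only [ht₂r, sub_self, abs_zero]; exact ha0
    · simp only [ht₂i]; linarith
    · simp only [ht₂i, sub_self, norm_zero, mul_zero, sub_zero]; linarith
    · simp only [sub_self, norm_zero]; exact he0
  have hPeq : EqOn (fun z : ℂ × ℂ => Φ (Θ z, z) - gx b f B z.1 z.2) 0 P := by
    have ha5 : AnalyticOnNhd ℂ (fun z : ℂ × ℂ => Φ (Θ z, z) - gx b f B z.1 z.2) P :=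
      Vale.Agent.P097.Hol.analyticOnNhd_of_differentiableOn hPo (dhP.sub dg)
    apply ha5.eqOn_zero_of_preconnected_of_eventuallyEq_zero hPc.isPreconnected ht₂P
    have g1 := hΘe t₂ (by rw [ht₂r]; simpa using hη) (by
      rw [ht₂i, show R₀ - a / 2 - R₀ = -(a / 2) by ring, abs_neg, abs_of_pos (by positivity)]
      linarith) (by rw [ht₂i]; linarith)
    have g2 := hrel t₂ (hre' t₂ (by rw [ht₂r]; simpa using ha0)) (by rw [ht₂i]; linarith)
      (by rw [ht₂i]; linarith)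
    filter_upwards [g1, g2] with z hz1 hz2
    simp only [Pi.zero_apply]
    rw [hz1, hz2, sub_self]
  have hNM : N ⊆ Mx b f B := by
    apply mx_add hB hf hNo (h := fun t w => Φ (Θ (t, w), (t, w))) dhN (s₀ := R₀ - a)
      (by linarith)
    · rintro t w ⟨-, a2, -⟩
      exact a2
    · rintro t w τ ⟨a1, a2, a3, a4, a5⟩ h2 h3
      refine ⟨?_, ?_, ?_, a4, a5⟩
      · simpa using a1
      · simpa using h2
      · simp only at a3
        simp only [add_im, ofReal_im, mul_im, ofReal_re, I_im, mul_one, I_re, mul_zero,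
          add_zero, zero_add]
        linarith
    · rintro t w ⟨a1, a2, a3, a4, a5⟩
      simp only at a1 a2 a3 a4 a5
      have hK2 := (hsz w a4).1
      refine ⟨min t.im (R₀ - a / 2), lt_min a2 (by linarith), min_le_left _ _, ?_, ?_⟩
      · apply (hPm _ _).2.2.2
        refine ⟨by simpa using a1, ?_, ?_, a4⟩
        · have : R₀ - a < min t.im (R₀ - a / 2) := lt_min a2 (by linarith)
          simpa using this
        · have h5 : min t.im (R₀ - a / 2) < R₀ - K₁ * ‖w - u₀‖ :=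
            (min_le_right _ _).trans_lt (by linarith)
          simpa using h5
      · have hmem : ((t.re : ℂ) + ((min t.im (R₀ - a / 2) : ℝ) : ℂ) * I, w) ∈ P := by
          refine ⟨by simpa using a1, ?_, ?_, a4⟩
          · have : R₀ - a < min t.im (R₀ - a / 2) := lt_min a2 (by linarith)
            simpa using this
          · have h5 : min t.im (R₀ - a / 2) < R₀ - K₁ * ‖w - u₀‖ :=
              (min_le_right _ _).trans_lt (by linarith)
            simpa using h5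
        have ho : IsOpen {z : ℂ | (z, w) ∈ P} := hPo.preimage (by fun_prop)
        filter_upwards [ho.mem_nhds hmem] with z hz
        have := hPeq hz
        simp only [Pi.zero_apply] at this
        exact sub_eq_zero.1 this
  refine ⟨min a e, lt_min ha0 he0, ?_⟩
  intro t w a1 a2 a3 a4 a5
  by_cases h5 : R₀ - a < t.im
  · exact hNM ⟨a1.trans_le (min_le_left _ _), h5, a5, a2.trans_le (min_le_right _ _), a3⟩
  · push Not at h5
    have hP2 : ((t.re : ℂ) + ((R₀ - a / 2 : ℝ) : ℂ) * I, w) ∈ P := by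
      have a6 := a2.trans_le (min_le_right a e)
      refine ⟨by simpa using a1.trans_le (min_le_left _ _), ?_, ?_, a6⟩
      · have : R₀ - a < R₀ - a / 2 := by linarith
        simpa using this
      · have h6 : R₀ - a / 2 < R₀ - K₁ * ‖w - u₀‖ := by linarith [(hsz w a6).1]
        simpa using h6
    have h7 := hEx.dn.down _ w t.im (hPm _ hP2).2.2.2 a4 (by
      simp only [add_im, ofReal_im, mul_im, ofReal_re, I_im, mul_one, I_re, mul_zero,
        add_zero, zero_add]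
      linarith)
    have h8 : ((((t.re : ℂ) + ((R₀ - a / 2 : ℝ) : ℂ) * I).re : ℂ) + t.im * I) = t := by
      apply Complex.ext <;> simp
    rwa [h8] at h7

end Vale.Agent.P097.H877.Bd
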