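import Vale.Agent.P097.H877.Bd.WallC

/-!
(A6), part 4: **the inverse of the position near a top wall is jointly holomorphic.**
`W` open in two variables, `θ` holomorphic on `W`; for `u` in a set `A` of reals of positive outer
measure the slice `θ(·, u)` lives on the window `|Re t - y₀| < r`, `R u - r < Im t < R u` with values
in `|Im| < H` and a.e. vertical boundary values on `Im = H`.  No regularity of `R`, `A` is needed.
-/

open Complex Metric Filter Topology Set MeasureTheory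

namespace Vale.Agent.P097.H877.Bd

/-- a set of positive outer measure has a point of density (outer measure), in particular both
sides of the point meet the set -/
theorem exists_two_sided {B Z : Set ℝ} (hB : volume B ≠ 0) (hZ : volume Z = 0) :
    ∃ u ∈ B, u ∉ Z ∧ ∀ ε > 0, 0 < volume (B ∩ Ioo u (u + ε)) ∧ 0 < volume (B ∩ Ioo (u - ε) u) := by
  have h1 := Besicovitch.ae_tendsto_measure_inter_div (volume : Measure ℝ) B
  set Bad : Set ℝ := {x | ¬ Tendsto (fun r => volume (B ∩ closedBall x r) / volume (closedBall x r))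
    (𝓝[>] 0) (𝓝 1)} with hBad
  have h2 : volume (Bad ∩ B) = 0 := by
    have h3 : volume.restrict B Bad = 0 := h1
    exact nonpos_iff_eq_zero.1 ((Measure.le_restrict_apply B Bad).trans h3.le)
  obtain ⟨u, hu, hub, huz⟩ : ∃ u ∈ B, u ∉ Bad ∧ u ∉ Z := by
    by_contra hcon
    push Not at hcon
    apply hB
    have h3 : B ⊆ (Bad ∩ B) ∪ Z := by
      intro x hx
      by_cases hxb : x ∈ Bad
      · exact Or.inl ⟨hxb, hx⟩
      · exact Or.inr (hcon x hx hxb)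
    exact measure_mono_null h3 (measure_union_null h2 hZ)
  have hT : Tendsto (fun r => volume (B ∩ closedBall u r) / volume (closedBall u r))
      (𝓝[>] 0) (𝓝 1) := by
    by_contra h
    exact hub h
  refine ⟨u, hu, huz, ?_⟩
  intro ε hε
  have hhalf : ∀ᶠ r in 𝓝[>] (0:ℝ), (1/2 : ENNReal) <
      volume (B ∩ closedBall u r) / volume (closedBall u r) :=
    hT.eventually (lt_mem_nhds (by
      rw [ENNReal.div_lt_iff (by simp) (by simp)]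
      norm_num))
  have hsm : ∀ᶠ r in 𝓝[>] (0:ℝ), 0 < r ∧ r < ε := by
    filter_upwards [self_mem_nhdsWithin, nhdsWithin_le_nhds (Iio_mem_nhds hε)] with r e1 e2
    exact ⟨e1, e2⟩
  obtain ⟨r, hr1, hr0, hrε⟩ := (hhalf.and hsm).exists
  rw [Real.volume_closedBall, ENNReal.lt_div_iff_mul_lt (Or.inl (by simp [hr0]))
    (Or.inl ENNReal.ofReal_ne_top)] at hr1
  have h2r : (1/2 : ENNReal) * ENNReal.ofReal (2 * r) = ENNReal.ofReal r := by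
    rw [ENNReal.ofReal_mul (by norm_num : (0:ℝ) ≤ 2), ← mul_assoc]
    norm_num
    rw [ENNReal.inv_mul_cancel (by norm_num) (by norm_num), one_mul]
  rw [h2r] at hr1
  constructor
  · by_contra hcon
    have h0 : volume (B ∩ Ioo u (u + ε)) = 0 := by
      simpa using hcon
    have h3 : B ∩ closedBall u r ⊆ Icc (u - r) u ∪ (B ∩ Ioo u (u + ε)) := by
      rintro x ⟨hx1, hx2⟩
      rw [Real.closedBall_eq_Icc] at hx2
      rcases le_or_gt x u with h | h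
      · exact Or.inl ⟨hx2.1, h⟩
      · exact Or.inr ⟨hx1, h, by linarith [hx2.2]⟩
    have h4 := (measure_mono h3).trans (measure_union_le (μ := volume) _ _)
    rw [h0, add_zero, Real.volume_Icc] at h4
    have h5 : u - (u - r) = r := by ring
    rw [h5] at h4
    exact absurd (hr1.trans_le h4) (lt_irrefl _)
  · by_contra hcon
    have h0 : volume (B ∩ Ioo (u - ε) u) = 0 := by
      simpa using hcon
    have h3 : B ∩ closedBall u r ⊆ Icc u (u + r) ∪ (B ∩ Ioo (u - ε) u) := by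
      rintro x ⟨hx1, hx2⟩
      rw [Real.closedBall_eq_Icc] at hx2
      rcases le_or_gt u x with h | h
      · exact Or.inl ⟨h, hx2.2⟩
      · exact Or.inr ⟨hx1, by linarith [hx2.1], h⟩
    have h4 := (measure_mono h3).trans (measure_union_le (μ := volume) _ _)
    rw [h0, add_zero, Real.volume_Icc] at h4
    have h5 : u + r - u = r := by ring
    rw [h5] at h4
    exact absurd (hr1.trans_le h4) (lt_irrefl _)

theorem wallInv {W : Set (ℂ × ℂ)} (hW : IsOpen W) {θ : ℂ × ℂ → ℂ} (hθ : DifferentiableOn ℂ θ W)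
    {H y₀ r : ℝ} (hH : 0 < H) (hr : 0 < r) {A : Set ℝ} (hA : volume A ≠ 0) {R : ℝ → ℝ}
    (hwin : ∀ u ∈ A, ∀ t : ℂ, |t.re - y₀| < r → R u - r < t.im → t.im < R u →
      (t, (u : ℂ)) ∈ W ∧ -H < (θ (t, u)).im ∧ (θ (t, u)).im < H)
    (hlim : ∀ u ∈ A, ∀ᵐ x : ℝ, |x - y₀| < r →
      Tendsto (fun η : ℝ => (θ (x + (R u - η : ℝ) * I, u)).im) (𝓝[>] 0) (𝓝 H)) :
    ∃ (A₀ : Set ℝ) (u₀ : ℝ) (ξ₁ : ℂ) (ρ δ : ℝ) (F : ℂ × ℂ → ℂ),
      A₀ ⊆ A ∧ u₀ ∈ A₀ ∧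
      (∀ ε > 0, 0 < volume (A₀ ∩ Ioo u₀ (u₀ + ε)) ∧ 0 < volume (A₀ ∩ Ioo (u₀ - ε) u₀)) ∧
      0 < ρ ∧ 0 < δ ∧ ξ₁.im < H ∧ H < ξ₁.im + ρ ∧
      DifferentiableOn ℂ F (ball ξ₁ ρ ×ˢ ball (u₀ : ℂ) δ) ∧
      (∃ d > 0, ∀ ξ ∈ ball ξ₁ d, ∀ w ∈ ball (u₀ : ℂ) δ,
        (F (ξ, w), w) ∈ W ∧ θ (F (ξ, w), w) = ξ) ∧
      ∀ u ∈ A₀, |u - u₀| < δ →
        (∀ ξ ∈ ball ξ₁ ρ, ξ.im < H → |(F (ξ, u)).re - y₀| < r ∧ R u - r < (F (ξ, u)).im ∧
          (F (ξ, u)).im < R u ∧ θ (F (ξ, u), u) = ξ) ∧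
        (∀ ξ ∈ ball ξ₁ ρ, ξ.im = H → |(F (ξ, u)).re - y₀| < r ∧ (F (ξ, u)).im = R u ∧
          (deriv (fun z => F (z, u)) ξ).im = 0 ∧ 0 < (deriv (fun z => F (z, u)) ξ).re) := by
  -- slices
  have hslW : ∀ u ∈ A, DifferentiableOn ℂ (fun t => θ (t, u))
      {t | |t.re - y₀| < r ∧ R u - r < t.im ∧ t.im < R u} := by
    intro u hu t ht
    have h1 : DifferentiableAt ℂ θ (t, u) :=
      hθ.differentiableAt (hW.mem_nhds (hwin u hu t ht.1 ht.2.1 ht.2.2).1)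
    have h2 : DifferentiableAt ℂ (fun t : ℂ => (t, (u : ℂ))) t :=
      differentiableAt_id.prodMk (differentiableAt_const _)
    exact (DifferentiableAt.comp t (f := fun t : ℂ => (t, (u : ℂ))) h1 h2).differentiableWithinAt
  have hex : ∀ u ∈ A, ∃ (p : ℕ × ℕ × ℕ × ℚ × ℚ × ℚ) (g : ℂ → ℂ),
      SL (fun t => θ (t, u)) y₀ r (R u) H p.1 (TopologicalSpace.denseSeq ℂ p.2.1)
        (TopologicalSpace.denseSeq ℂ p.2.2.1) p.2.2.2.1 p.2.2.2.2.1 p.2.2.2.2.2 g := by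
    intro u hu
    obtain ⟨N, i, j, ρ, ρ₁, r₁, g, hg⟩ := slice_inv (y₀ := y₀) (h := R u) hH hr (hslW u hu)
      (fun t h1 h2 h3 => (hwin u hu t h1 h2 h3).2.1)
      (fun t h1 h2 h3 => (hwin u hu t h1 h2 h3).2.2) (hlim u hu)
    exact ⟨(N, i, j, ρ, ρ₁, r₁), g, hg⟩
  -- countable cover
  set Ak : (ℕ × ℕ × ℕ × ℚ × ℚ × ℚ) → Set ℝ := fun p => {u | u ∈ A ∧ ∃ g : ℂ → ℂ,
      SL (fun t => θ (t, u)) y₀ r (R u) H p.1 (TopologicalSpace.denseSeq ℂ p.2.1)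
        (TopologicalSpace.denseSeq ℂ p.2.2.1) p.2.2.2.1 p.2.2.2.2.1 p.2.2.2.2.2 g} with hAk
  obtain ⟨p, hp⟩ : ∃ p, volume (Ak p) ≠ 0 := by
    by_contra hcon
    push Not at hcon
    apply hA
    have h1 : A ⊆ ⋃ p, Ak p := by
      intro u hu
      obtain ⟨p, g, hg⟩ := hex u hu
      exact mem_iUnion.2 ⟨p, hu, g, hg⟩
    exact measure_mono_null h1 (measure_iUnion_null hcon)
  obtain ⟨N, i, j, ρ, ρ₁, r₁⟩ := p
  set ξ₁ := TopologicalSpace.denseSeq ℂ i with hξ₁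
  set t₁ := TopologicalSpace.denseSeq ℂ j with ht₁
  set B₀ : Set ℝ := Ak (N, i, j, ρ, ρ₁, r₁) with hB₀
  have hB₀A : B₀ ⊆ A := fun u hu => hu.1
  have hch : ∀ u, u ∈ B₀ → ∃ g : ℂ → ℂ,
      SL (fun t => θ (t, u)) y₀ r (R u) H N ξ₁ t₁ ρ ρ₁ r₁ g := fun u hu => hu.2
  choose! g hg using hch
  -- a good centre
  obtain ⟨u₁, hu₁, hu₁n⟩ := exists_mem_forall_mem_nhdsWithin_pos_measure (μ := volume) hp
  have S₁ := hg u₁ hu₁
  have hρ1 : (ρ : ℝ) < ρ₁ := S₁.ρ1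
  have hρ0 : (0 : ℝ) < ρ := S₁.ρ0
  have hρ₁0 : (0 : ℝ) < ρ₁ := hρ0.trans hρ1
  have hr₁0 : (0 : ℝ) < r₁ := S₁.r1
  have hξ₁m : ξ₁ ∈ ball ξ₁ (ρ₁ : ℝ) := mem_ball_self hρ₁0
  set τ := g u₁ ξ₁ with hτ
  obtain ⟨b1, b2, b3, b4⟩ := S₁.below ξ₁ hξ₁m S₁.lo
  have hτW : (τ, (u₁ : ℂ)) ∈ W := (hwin u₁ (hB₀A hu₁) τ b1 b2 b3).1
  have hWopen : IsOpen {t : ℂ | |t.re - y₀| < r ∧ R u₁ - r < t.im ∧ t.im < R u₁} := by
    have a1 : IsOpen {t : ℂ | |t.re - y₀| < r} := isOpen_lt (by fun_prop) continuous_const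
    have a2 : IsOpen {t : ℂ | R u₁ - r < t.im} := isOpen_lt continuous_const continuous_im
    have a3 : IsOpen {t : ℂ | t.im < R u₁} := isOpen_lt continuous_im continuous_const
    exact a1.inter (a2.inter a3)
  have hθd0 : deriv (fun t => θ (t, (u₁ : ℂ))) τ ≠ 0 := by
    intro h0
    have e1 : HasDerivAt (fun t => θ (t, (u₁ : ℂ))) 0 τ := by
      rw [← h0]
      exact ((hslW u₁ (hB₀A hu₁)).differentiableAt (hWopen.mem_nhds ⟨b1, b2, b3⟩)).hasDerivAt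
    have e2 : HasDerivAt (g u₁) (deriv (g u₁) ξ₁) ξ₁ :=
      (S₁.d.differentiableAt (isOpen_ball.mem_nhds hξ₁m)).hasDerivAt
    have e3 : HasDerivAt (fun ξ => θ (g u₁ ξ, (u₁ : ℂ))) (0 * deriv (g u₁) ξ₁) ξ₁ :=
      HasDerivAt.comp ξ₁ (h₂ := fun t => θ (t, (u₁ : ℂ))) e1 e2
    have e4 : HasDerivAt (fun ξ => θ (g u₁ ξ, (u₁ : ℂ))) 1 ξ₁ := by
      refine (hasDerivAt_id ξ₁).congr_of_eventuallyEq ?_
      have hlo : ∀ᶠ ξ : ℂ in 𝓝 ξ₁, ξ.im < H :=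
        (continuous_im.tendsto ξ₁).eventually (gt_mem_nhds S₁.lo)
      filter_upwards [hlo, isOpen_ball.mem_nhds hξ₁m] with ξ h1 h2
      exact (S₁.below ξ h2 h1).2.2.2
    have := e3.unique e4
    simp at this
  obtain ⟨d, hd, δ, hδ, f, hf1, hf2, hf3⟩ := impl2 hW hθ hτW hθd0
  have hθτ : θ (τ, (u₁ : ℂ)) = ξ₁ := b4
  rw [hθτ] at hf1 hf2 hf3
  -- shrink: `f` stays near `t₁`
  have hfc : ContinuousAt f (ξ₁, (u₁ : ℂ)) := (hf1.differentiableAt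
    ((isOpen_ball.prod isOpen_ball).mem_nhds ⟨mem_ball_self hd, mem_ball_self hδ⟩)).continuousAt
  have hfn : ∀ᶠ q in 𝓝 (ξ₁, (u₁ : ℂ)), dist (f q) t₁ < r₁ := by
    have h1 : Tendsto (fun q => dist (f q) t₁) (𝓝 (ξ₁, (u₁ : ℂ))) (𝓝 (dist τ t₁)) := by
      have := hfc.tendsto
      rw [hf2] at this
      exact this.dist tendsto_const_nhds
    exact h1.eventually (gt_mem_nhds S₁.near)
  obtain ⟨ε, hε, hεf⟩ := Metric.eventually_nhds_iff_ball.mp hfn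
  set d' : ℝ := min d ε with hd'
  set δ' : ℝ := min δ ε with hδ'
  have hd'0 : 0 < d' := lt_min hd hε
  have hδ'0 : 0 < δ' := lt_min hδ hε
  have hf1' : DifferentiableOn ℂ f (ball ξ₁ d' ×ˢ ball (u₁ : ℂ) δ') :=
    hf1.mono (prod_mono (ball_subset_ball (min_le_left _ _)) (ball_subset_ball (min_le_left _ _)))
  have hf3' : ∀ ξ ∈ ball ξ₁ d', ∀ w ∈ ball (u₁ : ℂ) δ',
      (f (ξ, w), w) ∈ W ∧ θ (f (ξ, w), w) = ξ ∧ dist (f (ξ, w)) t₁ < r₁ := by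
    intro ξ hξ w hw
    obtain ⟨a1, a2⟩ := hf3 ξ (ball_subset_ball (min_le_left _ _) hξ) w
      (ball_subset_ball (min_le_left _ _) hw)
    refine ⟨a1, a2, hεf (ξ, w) ?_⟩
    rw [← ball_prod_same]
    exact ⟨ball_subset_ball (min_le_right _ _) hξ, ball_subset_ball (min_le_right _ _) hw⟩
  set B : Set ℝ := {u | u ∈ B₀ ∧ |u - u₁| < δ'} with hB
  have hBpos : volume B ≠ 0 := by
    have h1 : B ∈ 𝓝[B₀] u₁ := by
      have h2 : {u : ℝ | |u - u₁| < δ'} ∈ 𝓝 u₁ := by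
        have : IsOpen {u : ℝ | |u - u₁| < δ'} := isOpen_lt (by fun_prop) continuous_const
        exact this.mem_nhds (by simpa using hδ'0)
      have h3 := inter_mem_nhdsWithin B₀ h2
      exact h3
    exact (hu₁n B h1).ne'
  have hmemδ : ∀ u : ℝ, |u - u₁| < δ' → (u : ℂ) ∈ ball (u₁ : ℂ) δ' := by
    intro u hu
    rw [mem_ball, dist_eq_norm, ← Complex.ofReal_sub, Complex.norm_real, Real.norm_eq_abs]
    exact hu
  have hgf : ∀ u ∈ B, DifferentiableOn ℂ (g u) (ball ξ₁ (ρ₁ : ℝ)) ∧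
      (∀ ξ ∈ ball ξ₁ (ρ₁ : ℝ), ‖g u ξ‖ ≤ N) ∧ ∀ᶠ ξ in 𝓝 ξ₁, g u ξ = f (ξ, u) := by
    intro u hu
    have S := hg u hu.1
    refine ⟨S.d, S.N, ?_⟩
    have hlo : ∀ᶠ ξ : ℂ in 𝓝 ξ₁, ξ.im < H :=
      (continuous_im.tendsto ξ₁).eventually (gt_mem_nhds S.lo)
    have hcg : ∀ᶠ ξ in 𝓝 ξ₁, dist (g u ξ) t₁ < r₁ := by
      have h1 : ContinuousAt (g u) ξ₁ :=
        (S.d.differentiableAt (isOpen_ball.mem_nhds hξ₁m)).continuousAt
      exact (h1.tendsto.dist tendsto_const_nhds).eventually (gt_mem_nhds S.near)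
    filter_upwards [hlo, hcg, isOpen_ball.mem_nhds hξ₁m,
      isOpen_ball.mem_nhds (mem_ball_self hd'0)] with ξ h1 h2 h3 h4
    obtain ⟨-, -, -, c4⟩ := S.below ξ h3 h1
    obtain ⟨-, e2, e3⟩ := hf3' ξ h4 u (hmemδ u hu.2)
    apply S.inj
    · rw [mem_ball]; linarith
    · rw [mem_ball]; linarith
    · simp only
      rw [c4, e2]
  have hout := hart_out (u₁ := u₁) (δ := δ') hd'0 hf1' (B := B) (fun u hu => hu.2) hgf hρ0 hρ1
  -- choose the label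
  obtain ⟨u₀, hu₀B, hu₀Z, hu₀s⟩ := exists_two_sided hBpos hout
  have hu₀' : ∃ δ'' > 0, (∀ w ∈ ball (u₀ : ℂ) δ'', w ∈ ball (u₁ : ℂ) δ') ∧
      ∃ F : ℂ × ℂ → ℂ, DifferentiableOn ℂ F (ball ξ₁ (ρ : ℝ) ×ˢ ball (u₀ : ℂ) δ'') ∧
      (∀ ξ w, ξ ∈ ball ξ₁ (min d' (ρ : ℝ)) → w ∈ ball (u₀ : ℂ) δ'' → F (ξ, w) = f (ξ, w)) ∧
      ∀ u ∈ B, |u - u₀| < δ'' → ∀ ξ ∈ ball ξ₁ (ρ : ℝ), F (ξ, u) = g u ξ := by
    by_contra hcon
    exact hu₀Z fun h => hcon (h hu₀B)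
  obtain ⟨δ'', hδ''0, hδ''s, F, hF1, hF2, hF3⟩ := hu₀'
  refine ⟨B, u₀, ξ₁, ρ, δ'', F, fun u hu => hB₀A hu.1, hu₀B, hu₀s, hρ0, hδ''0, S₁.lo, S₁.hi, hF1,
    ⟨min d' (ρ : ℝ), lt_min hd'0 hρ0, ?_⟩, ?_⟩
  · intro ξ hξ w hw
    rw [hF2 ξ w hξ hw]
    obtain ⟨a1, a2, -⟩ := hf3' ξ (ball_subset_ball (min_le_left _ _) hξ) w (hδ''s w hw)
    exact ⟨a1, a2⟩
  · intro u hu huδ
    have S := hg u hu.1
    have hF3' := hF3 u hu huδ
    have hder : ∀ ξ ∈ ball ξ₁ (ρ : ℝ), deriv (fun z => F (z, (u : ℂ))) ξ = deriv (g u) ξ := by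
      intro ξ hξ
      apply Filter.EventuallyEq.deriv_eq
      filter_upwards [isOpen_ball.mem_nhds hξ] with z hz
      exact hF3' z hz
    constructor
    · intro ξ hξ hlt
      rw [hF3' ξ hξ]
      exact S.below ξ (ball_subset_ball hρ1.le hξ) hlt
    · intro ξ hξ heq
      rw [hder ξ hξ, hF3' ξ hξ]
      exact S.edge ξ (ball_subset_ball hρ1.le hξ) heq

end Vale.Agent.P097.H877.Bd
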