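import Vale.Agent.P097.H877.Bd.End5
import Vale.Agent.P097.H877.Bd.WallD
import Vale.Agent.P097.H85.PL

/-!
(A6) + (A7): **one type for a set of labels of positive outer measure is impossible**, top version.
-/

open Complex Metric Filter Topology Set MeasureTheory

namespace Vale.Agent.P097.H877.Bd

open Vale.Agent.P097.H85 Vale.Agent.P097.TA Vale.Agent.P097.H543

/-- slope of the leaf through the edge point, from the two sided accumulation -/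
theorem slope_close {H ρ δ u₀ c ε : ℝ} {ξ₁ b₀ : ℂ} (hb : b₀ ∈ ball ξ₁ ρ) (hbi : b₀.im = H)
    (hδ : 0 < δ) {F : ℂ × ℂ → ℂ} (dF : DifferentiableOn ℂ F (ball ξ₁ ρ ×ˢ ball (u₀ : ℂ) δ))
    {R : ℝ → ℝ} {A₀ : Set ℝ}
    (hA₀ : ∀ ε > 0, 0 < volume (A₀ ∩ Ioo u₀ (u₀ + ε)) ∧ 0 < volume (A₀ ∩ Ioo (u₀ - ε) u₀))
    (hedge : ∀ u ∈ A₀, |u - u₀| < δ → ∀ ξ ∈ ball ξ₁ ρ, ξ.im = H → (F (ξ, u)).im = R u)
    (hu₀ : (F (b₀, u₀)).im = R u₀)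
    (hRc : ∃ d > 0, ∀ u' : ℝ, |u' - u₀| < d → R u₀ + c * (u' - u₀) - ε * |u' - u₀| ≤ R u') :
    |(deriv (fun w => F (b₀, w)) u₀).im - c| ≤ ε := by
  have hO : IsOpen (ball ξ₁ ρ ×ˢ ball (u₀ : ℂ) δ) := isOpen_ball.prod isOpen_ball
  have hm0 : (b₀, (u₀ : ℂ)) ∈ ball ξ₁ ρ ×ˢ ball (u₀ : ℂ) δ := ⟨hb, mem_ball_self hδ⟩
  have hFa : AnalyticAt ℂ F (b₀, (u₀ : ℂ)) :=
    Vale.Agent.P097.Hol.analyticOnNhd_of_differentiableOn hO dF _ hm0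
  set D : ℂ := deriv (fun w => F (b₀, w)) u₀ with hD
  obtain ⟨d, hd, hRd⟩ := hRc
  apply le_of_forall_pos_le_add
  intro ε' hε'
  obtain ⟨r₁, hr₁, hE1, -⟩ := str_est hFa hε'
  rw [← hD] at hE1
  set m : ℝ := min (min r₁ d) δ with hm
  have hm0' : 0 < m := lt_min (lt_min hr₁ hd) hδ
  have key : ∀ u ∈ A₀, |u - u₀| < m → (c - D.im) * (u - u₀) ≤ (ε + ε') * |u - u₀| := by
    intro u hu hum
    have a1 : |u - u₀| < r₁ := hum.trans_le ((min_le_left _ _).trans (min_le_left _ _))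
    have a2 : |u - u₀| < d := hum.trans_le ((min_le_left _ _).trans (min_le_right _ _))
    have a3 : |u - u₀| < δ := hum.trans_le (min_le_right _ _)
    have h1 := hE1 b₀ (mem_ball_self hr₁) (u : ℂ) (by
      rw [mem_ball, dist_eq_norm, ← ofReal_sub, norm_real, Real.norm_eq_abs]; exact a1)
    have h2 := (abs_le.1 ((Complex.abs_im_le_norm _).trans h1)).2
    rw [← ofReal_sub, norm_real, Real.norm_eq_abs, sub_im, sub_im, hu₀,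
      hedge u hu a3 b₀ hb hbi, mul_im, ofReal_im, ofReal_re, mul_zero, zero_add] at h2
    have h3 := hRd u a2
    nlinarith
  obtain ⟨p1, p2⟩ := hA₀ m hm0'
  obtain ⟨v, hv1, hv2⟩ := nonempty_of_measure_ne_zero p1.ne'
  obtain ⟨v', hv1', hv2'⟩ := nonempty_of_measure_ne_zero p2.ne'
  have k1 := key v hv1 (by rw [abs_of_pos (by linarith [hv2.1])]; linarith [hv2.2])
  have k2 := key v' hv1' (by rw [abs_of_neg (by linarith [hv2'.2])]; linarith [hv2'.1])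
  rw [abs_of_pos (by linarith [hv2.1] : 0 < v - u₀)] at k1
  rw [abs_of_neg (by linarith [hv2'.2] : v' - u₀ < 0)] at k2
  have k3 : c - D.im ≤ ε + ε' := le_of_mul_le_mul_right k1 (by linarith [hv2.1])
  have k4 : -(c - D.im) ≤ ε + ε' := by
    apply le_of_mul_le_mul_right _ (by linarith [hv2'.2] : 0 < -(v' - u₀))
    linarith
  rw [abs_le]
  constructor <;> linarith

/-- **(A6) + (A7), top version.** -/
theorem wall_end {H y₀ r ε c₁ s₁ s₂ b : ℝ} {k : ℂ} (hH : 0 < H) (hr : 0 < r) (hc₁ : 0 < c₁)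
    (hss : s₂ + 2 * ε / c₁ < s₁) (hk : k ≠ 0)
    {F q : ℂ → ℂ} (dF : DifferentiableOn ℂ F {z : ℂ | |z.im| < H})
    (dq : DifferentiableOn ℂ q {z : ℂ | |z.im| < H})
    (wr : ∀ z : ℂ, |z.im| < H → deriv (deriv q) z * deriv F z - deriv q z * deriv (deriv F) z +
      q z * deriv F z ^ 3 = k)
    {A : Set ℝ} (hA : volume A ≠ 0) {R c : ℝ → ℝ}
    (hRc : ∀ u ∈ A, ∃ d > 0, ∀ u' : ℝ, |u' - u| < d →
      R u + c u * (u' - u) - ε * |u' - u| ≤ R u')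
    (hbR : ∀ u ∈ A, b < R u)
    {W : Set (ℂ × ℂ)} (hW : IsOpen W) {θ : ℂ × ℂ → ℂ} (hθ : DifferentiableOn ℂ θ W)
    (hwin : ∀ u ∈ A, ∀ t : ℂ, |t.re - y₀| < r → R u - r < t.im → t.im < R u →
      (t, (u : ℂ)) ∈ W ∧ -H < (θ (t, u)).im ∧ (θ (t, u)).im < H)
    (hlim : ∀ u ∈ A, ∀ᵐ x : ℝ, |x - y₀| < r →
      Tendsto (fun η : ℝ => (θ (x + (R u - η : ℝ) * I, u)).im) (𝓝[>] 0) (𝓝 H))
    {Q : Set (ℂ × ℂ)} (hQ : IsOpen Q) {al pp : ℂ × ℂ → ℂ} (hal : DifferentiableOn ℂ al Q)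
    (hpp : DifferentiableOn ℂ pp Q) (hWQ : W ⊆ Q)
    (hinc : ∀ z ∈ W, deriv F (θ z) * (q (θ z) * cos (al z - F (θ z)) - pp z) +
      deriv q (θ z) * sin (al z - F (θ z)) = 0)
    (hQc : ∀ u ∈ A, ∃ δ₁ > 0, ∀ t w : ℂ, |t.re - y₀| < r → R u - r < t.im →
      t.im < R u + c u * (w.re - u) + s₁ * w.im → c₁ * |w.re - u| < w.im → ‖w - u‖ < δ₁ →
      (t, w) ∈ Q)
    (hQ1 : ∀ u ∈ A, ∃ K₀ : ℝ, ∃ δ₁ > 0, ∀ t w : ℂ, |t.re - y₀| < r → R u - r < t.im →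
      t.im < R u - K₀ * ‖w - u‖ → ‖w - u‖ < δ₁ → (t, w) ∈ Q)
    (hJ : ∀ t w : ℂ, (t, w) ∈ Q → 0 < w.im →
      deriv (fun x => al (x, w)) t * deriv (fun z => pp (t, z)) w -
      deriv (fun z => al (t, z)) w * deriv (fun x => pp (x, w)) t ≠ 0)
    {f₁ f₂ : ℂ → ℂ → ℂ} {B : Set (ℂ × ℂ)} (hB : Dn b B) (hf₁ : JD f₁ B) (hf₂ : JD f₂ B)
    (hM1 : ∀ u ∈ A, ∃ K₀ : ℝ, ∃ δ₁ > 0, ∀ t w : ℂ, |t.re - y₀| < r → R u - r < t.im →
      t.im < R u - K₀ * ‖w - u‖ → ‖w - u‖ < δ₁ → (t, w) ∈ Mx b f₁ B ∧ (t, w) ∈ Mx b f₂ B)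
    (hrel : ∀ z ∈ W, gx b f₁ B z.1 z.2 = 2 * F (θ z) - al z ∧
      gx b f₂ B z.1 z.2 = 2 * q (θ z) * cos (F (θ z) - al z) - pp z)
    (hnot : ∀ u ∈ A, ∀ x : ℝ, |x - y₀| < r → ∀ η > 0, ∃ t w : ℂ, |t.re - x| < η ∧ ‖w - u‖ < η ∧
      c₁ * |w.re - u| < w.im ∧ b < t.im ∧ t.im < R u + c u * (w.re - u) + s₂ * w.im ∧
      ¬ ((t, w) ∈ Mx b f₁ B ∧ (t, w) ∈ Mx b f₂ B)) :
    ∃ (a ε' : ℝ) (Z' q' : ℂ → ℂ), 0 < ε' ∧
      DifferentiableOn ℂ Z' (ball ((a : ℂ) + H * I) ε') ∧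
      DifferentiableOn ℂ q' (ball ((a : ℂ) + H * I) ε') ∧
      ∀ z ∈ ball ((a : ℂ) + H * I) ε', z.im < H → Z' z = exp (I * F z) ∧ q' z = q z := by
  obtain ⟨A₀, u₀, ξ₁, ρ, δ, G, hA₀, hu₀, hA₀2, hρ, hδ, hξ₁, hξ₁', dG, ⟨d, hd, hGinv⟩, hGA⟩ :=
    wallInv hW hθ hH hr hA hwin hlim
  have hu₀A := hA₀ hu₀
  have h00 : |u₀ - u₀| < δ := by simpa using hδ
  obtain ⟨hlow, hedge⟩ := hGA u₀ hu₀ h00
  set b₀ : ℂ := (ξ₁.re : ℂ) + H * I with hb₀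
  have hb₀i : b₀.im = H := by simp [hb₀]
  have hb₀b : b₀ ∈ ball ξ₁ ρ := by
    rw [mem_ball, dist_eq_norm]
    have : b₀ - ξ₁ = ((H - ξ₁.im : ℝ) : ℂ) * I := by
      apply Complex.ext <;> simp [hb₀]
    rw [this, norm_mul, norm_real, norm_I, mul_one, Real.norm_eq_abs, abs_of_pos (by linarith)]
    linarith
  obtain ⟨ed1, ed2, ed3, ed4⟩ := hedge b₀ hb₀b hb₀i
  have hbd : deriv (fun w => G (b₀, w)) u₀ = (((deriv (fun w => G (b₀, w)) u₀).re : ℝ) : ℂ) +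
      (((deriv (fun w => G (b₀, w)) u₀).im : ℝ) : ℂ) * I := (re_add_im _).symm
  have hsc := slope_close (c := c u₀) (ε := ε) hb₀b hb₀i hδ dG hA₀2
    (fun u hu huδ ξ hξ hξi => (((hGA u hu huδ).2 ξ hξ hξi).2.1)) ed2 (hRc u₀ hu₀A)
  set σ : ℝ := (deriv (fun w => G (b₀, w)) u₀).re with hσ
  set c' : ℝ := (deriv (fun w => G (b₀, w)) u₀).im with hc'
  have hscc : |c' - c u₀| / c₁ ≤ ε / c₁ := div_le_div_of_nonneg_right hsc hc₁.le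
  have hε2 : 2 * ε / c₁ = ε / c₁ + ε / c₁ := by ring
  have hlow3 : ∀ ξ ∈ ball ξ₁ ρ, ξ.im < H → |(G (ξ, u₀)).re - y₀| < r ∧
      R u₀ - r < (G (ξ, u₀)).im ∧ (G (ξ, u₀)).im < R u₀ := fun ξ a1 a2 =>
    ⟨(hlow ξ a1 a2).1, (hlow ξ a1 a2).2.1, (hlow ξ a1 a2).2.2.1⟩
  have hedge2 : ∀ ξ ∈ ball ξ₁ ρ, ξ.im = H → |(G (ξ, u₀)).re - y₀| < r ∧
      (G (ξ, u₀)).im = R u₀ := fun ξ a1 a2 => ⟨(hedge ξ a1 a2).1, (hedge ξ a1 a2).2.1⟩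
  -- the strip
  have hstr : ∀ ξ ∈ ball ξ₁ ρ, ξ.im < H → |ξ.im| < H := by
    intro ξ h1 h2
    obtain ⟨a1, a2, a3, a4⟩ := hlow ξ h1 h2
    have := (hwin u₀ hu₀A _ a1 a2 a3).2.1
    rw [a4] at this
    rw [abs_lt]
    exact ⟨this, h2⟩
  have hSo : IsOpen {z : ℂ | |z.im| < H} := isOpen_lt (by fun_prop) continuous_const
  have hsub : {z : ℂ | z ∈ ball ξ₁ ρ ∧ z.im < H} ⊆ {z : ℂ | |z.im| < H} :=
    fun z hz => hstr z hz.1 hz.2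
  have dF' : DifferentiableOn ℂ (deriv F) {z : ℂ | |z.im| < H} := dF.deriv hSo
  have dq' : DifferentiableOn ℂ (deriv q) {z : ℂ | |z.im| < H} := dq.deriv hSo
  have hQ0 : ∀ t : ℂ, |t.re - y₀| < r → R u₀ - r < t.im → t.im < R u₀ → (t, (u₀ : ℂ)) ∈ Q :=
    fun t a1 a2 a3 => hWQ (hwin u₀ hu₀A t a1 a2 a3).1
  have hinvE : ∀ᶠ z in 𝓝 (ξ₁, (u₀ : ℂ)), (G z, z.2) ∈ W ∧ θ (G z, z.2) = z.1 := by
    have ho : IsOpen (ball ξ₁ d ×ˢ ball (u₀ : ℂ) δ) := isOpen_ball.prod isOpen_ball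
    filter_upwards [ho.mem_nhds (show (ξ₁, (u₀ : ℂ)) ∈ ball ξ₁ d ×ˢ ball (u₀ : ℂ) δ from
      ⟨mem_ball_self hd, mem_ball_self hδ⟩)] with z hz
    exact hGinv z.1 hz.1 z.2 hz.2
  obtain ⟨δ₁, hδ₁, hQc0⟩ := hQc u₀ hu₀A
  obtain ⟨K₀, δ₂, hδ₂, hQ10⟩ := hQ1 u₀ hu₀A
  obtain ⟨K₃, δ₃, hδ₃, hM10⟩ := hM1 u₀ hu₀A
  by_cases hcase : σ + ε / c₁ < s₁
  · -- (E2)
    have hs : σ + |c' - c u₀| / c₁ < s₁ := by linarith
    obtain ⟨r', hr', hr's, N₁, N₂, N₃, dN₁, dN₂, dN₃, hN₃, hN⟩ := end_E2 (c := c u₀) hξ₁ hb₀b hb₀i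
      hδ hδ₁ hc₁ hr dG hlow3 hedge2 hbd hQ hal hpp hQ0 hQc0 hs hJ
      (a₁ := fun x => q x * deriv F x * cos (F x) - deriv q x * sin (F x))
      (a₂ := fun x => q x * deriv F x * sin (F x) + deriv q x * cos (F x)) (a₃ := deriv F)
      ((((dq.mul dF').mul dF.ccos).sub (dq'.mul dF.csin)).mono hsub)
      ((((dq.mul dF').mul dF.csin).add (dq'.mul dF.ccos)).mono hsub) (dF'.mono hsub)
      (by
        by_contra hcon
        push Not at hcon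
        have h0 := hcon ξ₁ (mem_ball_self hρ) hξ₁
        have ho : IsOpen {z : ℂ | z ∈ ball ξ₁ ρ ∧ z.im < H} :=
          isOpen_ball.inter (isOpen_lt continuous_im continuous_const)
        have h1 : deriv (deriv F) ξ₁ = 0 := by
          have : deriv F =ᶠ[𝓝 ξ₁] fun _ => 0 := by
            filter_upwards [ho.mem_nhds ⟨mem_ball_self hρ, hξ₁⟩] with z hz
            exact hcon z hz.1 hz.2
          rw [this.deriv_eq]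
          simp
        have h2 := wr ξ₁ (hstr ξ₁ (mem_ball_self hρ) hξ₁)
        rw [h0, h1] at h2
        apply hk
        rw [← h2]
        ring)
      (by
        filter_upwards [hinvE] with z hz
        have h1 := hinc _ hz.1
        rw [hz.2] at h1
        rw [Complex.cos_sub, Complex.sin_sub] at h1
        linear_combination h1)
    obtain ⟨a, ε', Z', q', e1, -, e2, e3, e4⟩ := top_of_cross hk hb₀i
      (dF.mono fun z (hz : z ∈ ball b₀ r' ∧ z.im < H) => hstr z (hr's hz.1) hz.2)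
      (dq.mono fun z (hz : z ∈ ball b₀ r' ∧ z.im < H) => hstr z (hr's hz.1) hz.2)
      (fun z h1 h2 => wr z (hstr z (hr's h1) h2)) dN₁ dN₂ dN₃ hN₃
      (fun z h1 h2 => (hN z h1 h2).1) (fun z h1 h2 => (hN z h1 h2).2)
    exact ⟨a, ε', Z', q', e1, e2, e3, e4⟩
  · -- (E1)
    exfalso
    push Not at hcase
    have hs : s₂ + |c' - c u₀| / c₁ < σ := by linarith
    have hc0 : 0 ≤ |c' - c u₀| / c₁ := by positivity
    have hss2 : s₂ ≤ s₁ := by linarith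
    set δ₄ : ℝ := min δ₁ (min δ₂ δ₃) with hδ₄
    have hδ₄0 : 0 < δ₄ := lt_min hδ₁ (lt_min hδ₂ hδ₃)
    have d41 : δ₄ ≤ δ₁ := min_le_left _ _
    have d42 : δ₄ ≤ δ₂ := (min_le_right _ _).trans (min_le_left _ _)
    have d43 : δ₄ ≤ δ₃ := (min_le_right _ _).trans (min_le_right _ _)
    have hQc1 : ∀ t w : ℂ, |t.re - y₀| < r → R u₀ - r < t.im →
        t.im < R u₀ + c u₀ * (w.re - u₀) + s₂ * w.im → c₁ * |w.re - u₀| < w.im →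
        ‖w - u₀‖ < δ₄ → (t, w) ∈ Q := by
      intro t w a1 a2 a3 a4 a5
      have h0 : 0 < w.im := (by positivity : 0 ≤ c₁ * |w.re - u₀|).trans_lt a4
      have := mul_le_mul_of_nonneg_right hss2 h0.le
      exact hQc0 t w a1 a2 (by linarith) a4 (a5.trans_le d41)
    have hQ11 : ∀ t w : ℂ, |t.re - y₀| < r → R u₀ - r < t.im →
        t.im < R u₀ - max K₀ K₃ * ‖w - u₀‖ → ‖w - u₀‖ < δ₄ → (t, w) ∈ Q := by
      intro t w a1 a2 a3 a4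
      have := mul_le_mul_of_nonneg_right (le_max_left K₀ K₃) (norm_nonneg (w - u₀))
      exact hQ10 t w a1 a2 (by linarith) (a4.trans_le d42)
    have hM11 : ∀ t w : ℂ, |t.re - y₀| < r → R u₀ - r < t.im →
        t.im < R u₀ - max K₀ K₃ * ‖w - u₀‖ → ‖w - u₀‖ < δ₄ →
        (t, w) ∈ Mx b f₁ B ∧ (t, w) ∈ Mx b f₂ B := by
      intro t w a1 a2 a3 a4
      have := mul_le_mul_of_nonneg_right (le_max_right K₀ K₃) (norm_nonneg (w - u₀))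
      exact hM10 t w a1 a2 (by linarith) (a4.trans_le d43)
    have hW0 : ∀ t : ℂ, |t.re - y₀| < r → R u₀ - r < t.im → t.im < R u₀ → (t, (u₀ : ℂ)) ∈ W :=
      fun t a1 a2 a3 => (hwin u₀ hu₀A t a1 a2 a3).1
    have hinv1 : ∀ᶠ z in 𝓝 (ξ₁, (u₀ : ℂ)), θ (G z, z.2) = z.1 := hinvE.mono fun z hz => hz.2
    have dFs : DifferentiableOn ℂ (fun p : ℂ × (ℂ × ℂ) => F p.1)
        {p | (p.1 ∈ ball ξ₁ ρ ∧ p.1.im < H) ∧ p.2 ∈ Q} :=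
      DifferentiableOn.comp dF differentiableOn_fst fun p hp => hstr p.1 hp.1.1 hp.1.2
    have dqs : DifferentiableOn ℂ (fun p : ℂ × (ℂ × ℂ) => q p.1)
        {p | (p.1 ∈ ball ξ₁ ρ ∧ p.1.im < H) ∧ p.2 ∈ Q} :=
      DifferentiableOn.comp dq differentiableOn_fst fun p hp => hstr p.1 hp.1.1 hp.1.2
    have das : DifferentiableOn ℂ (fun p : ℂ × (ℂ × ℂ) => al p.2)
        {p | (p.1 ∈ ball ξ₁ ρ ∧ p.1.im < H) ∧ p.2 ∈ Q} :=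
      DifferentiableOn.comp hal differentiableOn_snd fun p hp => hp.2
    have dps : DifferentiableOn ℂ (fun p : ℂ × (ℂ × ℂ) => pp p.2)
        {p | (p.1 ∈ ball ξ₁ ρ ∧ p.1.im < H) ∧ p.2 ∈ Q} :=
      DifferentiableOn.comp hpp differentiableOn_snd fun p hp => hp.2
    have hrelW : ∀ t : ℂ, |t.re - y₀| < r → R u₀ - r < t.im → t.im < R u₀ →
        ∀ᶠ z in 𝓝 (t, (u₀ : ℂ)), z ∈ W := fun t a1 a2 a3 => hW.mem_nhds (hW0 t a1 a2 a3)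
    obtain ⟨η₁, hη₁, hE1⟩ := end_E1 (c := c u₀) (K₀ := max K₀ K₃) hξ₁ hb₀b hb₀i hδ hδ₄0 hc₁ hr dG
      hlow3 hedge2 ed3 ed4 hbd hW hθ hW0 hinv1 hs hQc1 hQ11 hB hf₁ (hbR u₀ hu₀A)
      (fun t w a1 a2 a3 a4 => (hM11 t w a1 a2 a3 a4).1)
      (Φ := fun p => 2 * F p.1 - al p.2) ((dFs.const_mul 2).sub das)
      (fun t a1 a2 a3 => (hrelW t a1 a2 a3).mono fun z hz => (hrel z hz).1)
    obtain ⟨η₂, hη₂, hE2⟩ := end_E1 (c := c u₀) (K₀ := max K₀ K₃) hξ₁ hb₀b hb₀i hδ hδ₄0 hc₁ hr dG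
      hlow3 hedge2 ed3 ed4 hbd hW hθ hW0 hinv1 hs hQc1 hQ11 hB hf₂ (hbR u₀ hu₀A)
      (fun t w a1 a2 a3 a4 => (hM11 t w a1 a2 a3 a4).2)
      (Φ := fun p => 2 * q p.1 * cos (F p.1 - al p.2) - pp p.2)
      (((dqs.const_mul 2).mul (dFs.sub das).ccos).sub dps)
      (fun t a1 a2 a3 => (hrelW t a1 a2 a3).mono fun z hz => (hrel z hz).2)
    obtain ⟨t, w, n1, n2, n3, n4, n5, n6⟩ := hnot u₀ hu₀A _ ed1 (min η₁ η₂) (lt_min hη₁ hη₂)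
    exact n6 ⟨hE1 t w (n1.trans_le (min_le_left _ _)) (n2.trans_le (min_le_left _ _)) n3 n4 n5,
      hE2 t w (n1.trans_le (min_le_right _ _)) (n2.trans_le (min_le_right _ _)) n3 n4 n5⟩

end Vale.Agent.P097.H877.Bd
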