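import Vale.Agent.P097.H877.Bd.Saw

/-!
Local Fatou theorem (Privalov, Calderón): a holomorphic function which is bounded in a cone at
every point of `E` has non-tangential limits at almost every point of `E`.

Proof without harmonic measure: the primitive is Lipschitz, hence its boundary values are
differentiable almost everywhere; at such a (density) point one compares the primitive with its
linear part in a half disc (two constants theorem with an explicit quadratic barrier).
-/

open Complex Metric Filter Topology Set MeasureTheory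

namespace Vale.Agent.P097.H877.Bd

/-- two constants theorem on a half disc -/
theorem two_const {c : ℂ} {R C s : ℝ} (hR : 0 < R) (hC : 0 ≤ C) (hs : 0 ≤ s) {g : ℂ → ℂ}
    (hd : ∀ z : ℂ, ‖z - c‖ ≤ R → c.im ≤ z.im → DifferentiableAt ℂ g z)
    (hb : ∀ z : ℂ, ‖z - c‖ ≤ R → c.im ≤ z.im → ‖g z‖ ≤ C)
    (h0 : ∀ z : ℂ, ‖z - c‖ ≤ R → z.im = c.im → ‖g z‖ ≤ C * Real.exp (-s)) :
    ∀ z : ℂ, ‖z - c‖ ≤ R / 4 → c.im ≤ z.im → ‖g z‖ ≤ C * Real.exp (-(7 / 16 * s)) := by
  intro z hz hzi
  rcases hzi.eq_or_lt with hzi | hzi
  · refine (h0 z (hz.trans (by linarith)) hzi.symm).trans ?_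
    gcongr
    nlinarith
  set U : Set ℂ := {z | ‖z - c‖ < R ∧ c.im < z.im} with hU
  have hUb : Bornology.IsBounded U := by
    refine (isBounded_ball (x := c) (r := R)).subset fun w hw => ?_
    rw [mem_ball, dist_eq_norm]
    exact hw.1
  have hUcl : closure U ⊆ {z | ‖z - c‖ ≤ R ∧ c.im ≤ z.im} := by
    refine closure_minimal (fun w hw => ⟨hw.1.le, hw.2.le⟩) ?_
    have e1 : IsClosed {z : ℂ | ‖z - c‖ ≤ R} := isClosed_le (by fun_prop) continuous_const
    have e2 : IsClosed {z : ℂ | c.im ≤ z.im} := isClosed_le continuous_const (by fun_prop)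
    exact e1.inter e2
  have hUo : IsOpen U := by
    have e1 : IsOpen {z : ℂ | ‖z - c‖ < R} := isOpen_lt (by fun_prop) continuous_const
    have e2 : IsOpen {z : ℂ | c.im < z.im} := isOpen_lt continuous_const (by fun_prop)
    exact e1.inter e2
  set q : ℂ → ℂ := fun w => ((w - c) / R) ^ 2 - 2 * I * ((w - c) / R) with hq
  have hqre : ∀ w : ℂ, (q w).re = ((w.re - c.re) ^ 2 - (w.im - c.im) ^ 2) / R ^ 2 +
      2 * (w.im - c.im) / R := by
    intro w
    have e1 : (w - c) / (R : ℂ) = ((w.re - c.re) / R : ℝ) + ((w.im - c.im) / R : ℝ) * I := by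
      apply Complex.ext
      · simp [Complex.div_ofReal_re]
      · simp [Complex.div_ofReal_im]
    simp only [hq, e1]
    simp only [pow_two, Complex.sub_re, Complex.mul_re, Complex.add_re, Complex.ofReal_re,
      Complex.ofReal_im, Complex.I_re, Complex.I_im, Complex.add_im, Complex.mul_im,
      Complex.re_ofNat, Complex.im_ofNat]
    field_simp
    ring
  set G : ℂ → ℂ := fun w => g w * Complex.exp (s * (1 - q w)) with hG
  have hnorm : ∀ w, ‖G w‖ = ‖g w‖ * Real.exp (s * (1 - (q w).re)) := by
    intro w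
    rw [hG]
    simp only [norm_mul, Complex.norm_exp]
    congr 2
    simp
  have hGd : DiffContOnCl ℂ G U := by
    have h1 : ∀ w ∈ closure U, DifferentiableAt ℂ G w := by
      intro w hw
      have := hUcl hw
      refine (hd w this.1 this.2).mul ?_
      rw [hq]
      fun_prop
    exact ⟨fun w hw => (h1 w (subset_closure hw)).differentiableWithinAt,
      fun w hw => (h1 w hw).continuousAt.continuousWithinAt⟩
  have hfr : ∀ w ∈ frontier U, ‖G w‖ ≤ C := by
    intro w hw
    rw [hUo.frontier_eq] at hw
    obtain ⟨hw1, hw2⟩ := hUcl hw.1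
    rw [hnorm]
    have hcase : ‖w - c‖ = R ∨ w.im = c.im := by
      by_contra hcon
      push Not at hcon
      exact hw.2 ⟨lt_of_le_of_ne hw1 hcon.1, lt_of_le_of_ne hw2 (Ne.symm hcon.2)⟩
    rcases hcase with hcase | hcase
    · have h1 : 1 ≤ (q w).re := by
        rw [hqre]
        have h2 : (w.re - c.re) ^ 2 + (w.im - c.im) ^ 2 = R ^ 2 := by
          rw [← hcase, ← Complex.normSq_eq_norm_sq, Complex.normSq_apply]
          simp only [Complex.sub_re, Complex.sub_im]
          ring
        have h3 : w.im - c.im ≤ R := by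
          have := Complex.abs_im_le_norm (w - c)
          rw [hcase] at this
          simpa using (le_abs_self _).trans this
        have h4 : ((w.re - c.re) ^ 2 - (w.im - c.im) ^ 2) / R ^ 2 + 2 * (w.im - c.im) / R - 1
            = 2 * (w.im - c.im) * (R - (w.im - c.im)) / R ^ 2 := by
          have h5 : (w.re - c.re) ^ 2 = R ^ 2 - (w.im - c.im) ^ 2 := by linarith
          rw [h5]
          field_simp
          ring
        have h6 : 0 ≤ 2 * (w.im - c.im) * (R - (w.im - c.im)) / R ^ 2 := by
          have := sub_nonneg.mpr hw2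
          have := sub_nonneg.mpr h3
          positivity
        linarith
      have h7 : Real.exp (s * (1 - (q w).re)) ≤ 1 := by
        rw [Real.exp_le_one_iff]
        exact mul_nonpos_of_nonneg_of_nonpos hs (by linarith)
      calc ‖g w‖ * Real.exp (s * (1 - (q w).re)) ≤ C * 1 :=
            mul_le_mul (hb w hw1 hw2) h7 (Real.exp_pos _).le hC
        _ = C := mul_one C
    · have h1 : 0 ≤ (q w).re := by
        rw [hqre, hcase]
        simp only [sub_self]
        have : 0 ≤ ((w.re - c.re) ^ 2 - 0 ^ 2) / R ^ 2 := by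
          have := sq_nonneg (w.re - c.re)
          apply div_nonneg
          · linarith
          · positivity
        simpa using this
      have h7 : Real.exp (s * (1 - (q w).re)) ≤ Real.exp s := by
        apply Real.exp_le_exp.mpr
        nlinarith
      calc ‖g w‖ * Real.exp (s * (1 - (q w).re)) ≤ (C * Real.exp (-s)) * Real.exp s :=
            mul_le_mul (h0 w hw1 hcase) h7 (Real.exp_pos _).le (by positivity)
        _ = C := by rw [mul_assoc, ← Real.exp_add]; simp
  have hzU : z ∈ U := ⟨hz.trans_lt (by linarith), hzi⟩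
  have h1 := Complex.norm_le_of_forall_mem_frontier_norm_le hUb hGd hfr (subset_closure hzU)
  rw [hnorm] at h1
  have h2 : (q z).re ≤ 9 / 16 := by
    rw [hqre]
    have h3 : |z.re - c.re| ≤ R / 4 := by
      have := Complex.abs_re_le_norm (z - c)
      simpa using this.trans hz
    have h4 : z.im - c.im ≤ R / 4 := by
      have := Complex.abs_im_le_norm (z - c)
      have := (le_abs_self _).trans (this.trans hz)
      simpa using this
    have h5 : (z.re - c.re) ^ 2 ≤ (R / 4) ^ 2 := sq_le_sq' (by linarith [(abs_le.mp h3).1])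
      (abs_le.mp h3).2
    have h6 : ((z.re - c.re) ^ 2 - (z.im - c.im) ^ 2) / R ^ 2 ≤ 1 / 16 := by
      rw [div_le_iff₀ (by positivity)]
      nlinarith [sq_nonneg (z.im - c.im)]
    have h7 : 2 * (z.im - c.im) / R ≤ 1 / 2 := by
      rw [div_le_iff₀ hR]
      linarith
    linarith
  have h3 : Real.exp (7 / 16 * s) ≤ Real.exp (s * (1 - (q z).re)) := by
    apply Real.exp_le_exp.mpr
    nlinarith
  have h4 : ‖g z‖ * Real.exp (7 / 16 * s) ≤ C :=
    (mul_le_mul_of_nonneg_left h3 (norm_nonneg _)).trans h1
  rw [Real.exp_neg, ← div_eq_mul_inv, le_div_iff₀ (Real.exp_pos _)]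
  exact h4

end Vale.Agent.P097.H877.Bd
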