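import Vale.Agent.P097.H877.Bd.Fat

/-!
Local Fatou theorem, second part.
-/

open Complex Metric Filter Topology Set MeasureTheory

namespace Vale.Agent.P097.H877.Bd

theorem tendsto_div_add_two (h : ℝ) : Tendsto (fun n : ℕ => h / ((n : ℝ) + 2)) atTop (𝓝 0) := by
  have h1 : Tendsto (fun n : ℕ => (n : ℝ) + 2) atTop atTop :=
    tendsto_atTop_add_const_right _ _ tendsto_natCast_atTop_atTop
  exact h1.const_div_atTop h

/-- boundary values of a function that is Lipschitz on every cone -/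
theorem exists_bdry {k h M : ℝ} (hk : 0 < k) (hh : 0 < h) (hM : 0 ≤ M) {K : Set ℝ} {F : ℂ → ℂ}
    (hF : ∀ x ∈ K, ∀ z ∈ cone k h x, ∀ w ∈ cone k h x, ‖F z - F w‖ ≤ M * ‖z - w‖) :
    ∃ b : ℝ → ℂ, ∀ x ∈ K, ∀ z ∈ cone k h x, ‖F z - b x‖ ≤ M * ‖z - x‖ := by
  have key : ∀ x ∈ K, ∃ b : ℂ, ∀ z ∈ cone k h x, ‖F z - b‖ ≤ M * ‖z - x‖ := by
    intro x hx
    set u : ℕ → ℂ := fun n => (x : ℂ) + ((h / ((n : ℝ) + 2) : ℝ) : ℂ) * I with hu
    have hu0 : ∀ n, u n ∈ cone k h x := by
      intro n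
      have h2 : 0 < h / ((n : ℝ) + 2) := by positivity
      refine ⟨?_, ?_⟩
      · simp only [hu, Complex.add_re, Complex.ofReal_re, Complex.mul_re, Complex.I_re, mul_zero,
          Complex.ofReal_im, Complex.I_im, mul_one, sub_self, add_zero, abs_zero,
          Complex.add_im, Complex.mul_im, zero_add]
        positivity
      · simp only [hu, Complex.add_im, Complex.ofReal_im, Complex.mul_im, Complex.ofReal_re,
          Complex.I_im, mul_one, Complex.I_re, mul_zero, add_zero, zero_add]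
        rw [div_lt_iff₀ (by positivity)]
        have : (0 : ℝ) ≤ n := Nat.cast_nonneg n
        nlinarith
    have hut : Tendsto u atTop (𝓝 (x : ℂ)) := by
      have h3 : Tendsto (fun n : ℕ => ((h / ((n : ℝ) + 2) : ℝ) : ℂ) * I) atTop
          (𝓝 (((0 : ℝ) : ℂ) * I)) :=
        ((Complex.continuous_ofReal.tendsto 0).comp (tendsto_div_add_two h)).mul_const I
      simpa [hu] using h3.const_add (x : ℂ)
    have hc : CauchySeq fun n => F (u n) := by
      refine cauchySeq_of_le_tendsto_0 (fun N : ℕ => M * (h / ((N : ℝ) + 2))) ?_ ?_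
      · intro n m N hn hm
        rw [dist_eq_norm]
        refine (hF x hx _ (hu0 n) _ (hu0 m)).trans (mul_le_mul_of_nonneg_left ?_ hM)
        have h4 : u n - u m = ((h / ((n : ℝ) + 2) - h / ((m : ℝ) + 2) : ℝ) : ℂ) * I := by
          simp only [hu]; push_cast; ring
        rw [h4, norm_mul, Complex.norm_I, mul_one, Complex.norm_real, Real.norm_eq_abs, abs_le]
        have h5 : ∀ j : ℕ, N ≤ j → 0 < h / ((j : ℝ) + 2) ∧ h / ((j : ℝ) + 2) ≤ h / ((N : ℝ) + 2) := by
          intro j hj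
          have : (N : ℝ) ≤ j := Nat.cast_le.mpr hj
          exact ⟨by positivity, by gcongr⟩
        have := h5 n hn
        have := h5 m hm
        constructor <;> linarith
      · simpa using (tendsto_div_add_two h).const_mul M
    obtain ⟨b, hb⟩ := cauchySeq_tendsto_of_complete hc
    refine ⟨b, fun z hz => ?_⟩
    have h6 : Tendsto (fun n => ‖F z - F (u n)‖) atTop (𝓝 ‖F z - b‖) :=
      (tendsto_const_nhds.sub hb).norm
    have h7 : Tendsto (fun n => M * ‖z - u n‖) atTop (𝓝 (M * ‖z - x‖)) :=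
      ((tendsto_const_nhds.sub hut).norm).const_mul M
    exact le_of_tendsto_of_tendsto' h6 h7 fun n => hF x hx _ hz _ (hu0 n)
  choose! b hb using key
  exact ⟨b, hb⟩

/-- the boundary values are Lipschitz on a short base -/
theorem bdry_lipschitz {k h M : ℝ} (hk : 0 < k) (hM : 0 ≤ M) {K : Set ℝ} {F : ℂ → ℂ}
    {b : ℝ → ℂ} (hb : ∀ x ∈ K, ∀ z ∈ cone k h x, ‖F z - b x‖ ≤ M * ‖z - x‖)
    {x y : ℝ} (hx : x ∈ K) (hy : y ∈ K) (hxy : |x - y| < k * h) :
    ‖b x - b y‖ ≤ M * (1 + 3 / (2 * k)) * |x - y| := by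
  rcases eq_or_ne x y with rfl | hne
  · simp
  have hd : 0 < |x - y| := abs_pos.mpr (sub_ne_zero.mpr hne)
  set z : ℂ := (((x + y) / 2 : ℝ) : ℂ) + ((3 / 4 * |x - y| / k : ℝ) : ℂ) * I with hz
  have hre : z.re = (x + y) / 2 := by simp [hz]
  have him : z.im = 3 / 4 * |x - y| / k := by simp [hz]
  have hkm : k * z.im = 3 / 4 * |x - y| := by rw [him]; field_simp
  have him2 : z.im < h := by
    rw [him, div_lt_iff₀ hk]; nlinarith
  have h1 : z ∈ cone k h x := by
    refine ⟨?_, him2⟩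
    rw [hkm, hre]
    have : (x + y) / 2 - x = -((x - y) / 2) := by ring
    rw [this, abs_neg, abs_div, abs_two]
    linarith
  have h2 : z ∈ cone k h y := by
    refine ⟨?_, him2⟩
    rw [hkm, hre]
    have : (x + y) / 2 - y = (x - y) / 2 := by ring
    rw [this, abs_div, abs_two]
    linarith
  have h3 : ∀ t : ℝ, |z.re - t| = |x - y| / 2 → ‖z - t‖ ≤ |x - y| / 2 + 3 / 4 * |x - y| / k := by
    intro t ht
    have h4 := Complex.norm_le_abs_re_add_abs_im (z - t)
    simp only [Complex.sub_re, Complex.ofReal_re, Complex.sub_im, Complex.ofReal_im, sub_zero] at h4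
    rw [ht, him, abs_of_nonneg (by positivity : (0:ℝ) ≤ 3 / 4 * |x - y| / k)] at h4
    exact h4
  have h5 : ‖z - x‖ ≤ |x - y| / 2 + 3 / 4 * |x - y| / k := by
    refine h3 x ?_
    rw [hre]
    have : (x + y) / 2 - x = -((x - y) / 2) := by ring
    rw [this, abs_neg, abs_div, abs_two]
  have h6 : ‖z - y‖ ≤ |x - y| / 2 + 3 / 4 * |x - y| / k := by
    refine h3 y ?_
    rw [hre]
    have : (x + y) / 2 - y = (x - y) / 2 := by ring
    rw [this, abs_div, abs_two]
  have h7 : ‖b x - b y‖ ≤ ‖F z - b x‖ + ‖F z - b y‖ := by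
    have : b x - b y = (F z - b y) - (F z - b x) := by ring
    rw [this]
    exact (norm_sub_le _ _).trans (by rw [add_comm])
  have h8 := hb x hx z h1
  have h9 := hb y hy z h2
  have h10 : M * ‖z - x‖ ≤ M * (|x - y| / 2 + 3 / 4 * |x - y| / k) :=
    mul_le_mul_of_nonneg_left h5 hM
  have h11 : M * ‖z - y‖ ≤ M * (|x - y| / 2 + 3 / 4 * |x - y| / k) :=
    mul_le_mul_of_nonneg_left h6 hM
  have h12 : M * (1 + 3 / (2 * k)) * |x - y| = 2 * (M * (|x - y| / 2 + 3 / 4 * |x - y| / k)) := by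
    field_simp
    ring
  rw [h12]
  linarith

end Vale.Agent.P097.H877.Bd
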