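import Vale.Agent.P097.H877.Bd.Pois

/-!
Two constants theorem at one scale, and the Hartogs type lemma for the coefficients of a power
series: `‖c n‖ ≤ M ^ n` on a disc and `‖c n u‖ ≤ m ^ n` eventually for `u` in a set of real points
with the density point `u₀` imply `‖c n‖ ≤ m' ^ n` uniformly near `u₀`, for all `m' > m`.
-/

open Complex Metric Filter Topology Set MeasureTheory

namespace Vale.Agent.P097.H877.Bd

/-- two constants theorem on a half disc, with the Poisson barrier of a compact set -/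
theorem half_barrier {u₀ s C L β : ℝ} (hC : 0 ≤ C) (hL : 0 ≤ L) (hβ : 0 ≤ β)
    {K : Set ℝ} (hK : IsCompact K) {g : ℂ → ℂ}
    (hd : ∀ z : ℂ, ‖z - u₀‖ ≤ s → 0 ≤ z.im → DifferentiableAt ℂ g z)
    (hb : ∀ z : ℂ, ‖z - u₀‖ ≤ s → 0 ≤ z.im → ‖g z‖ ≤ C)
    (hKb : ∀ x ∈ K, ‖g x‖ ≤ C * Real.exp (-L))
    (hβv : ∀ z : ℂ, ‖z - u₀‖ = s → 0 < z.im → (cau K z).im ≤ Real.pi * β) :
    ∀ z : ℂ, ‖z - u₀‖ < s → 0 < z.im →
      ‖g z‖ ≤ C * Real.exp (-(L * ((cau K z).im / Real.pi - β))) := by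
  have hpi := Real.pi_pos
  have hKf : volume K ≠ ⊤ := hK.measure_lt_top.ne
  set U : Set ℂ := {z | ‖z - u₀‖ < s ∧ 0 < z.im} with hU
  have hUb : Bornology.IsBounded U := by
    refine (isBounded_ball (x := (u₀ : ℂ)) (r := s)).subset fun w hw => ?_
    rw [mem_ball, dist_eq_norm]
    exact hw.1
  have hUcl : closure U ⊆ {z | ‖z - u₀‖ ≤ s ∧ 0 ≤ z.im} := by
    refine closure_minimal (fun w hw => ⟨hw.1.le, hw.2.le⟩) ?_
    have e1 : IsClosed {z : ℂ | ‖z - u₀‖ ≤ s} := isClosed_le (by fun_prop) continuous_const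
    have e2 : IsClosed {z : ℂ | 0 ≤ z.im} := isClosed_le continuous_const (by fun_prop)
    exact e1.inter e2
  have hUo : IsOpen U := by
    have e1 : IsOpen {z : ℂ | ‖z - u₀‖ < s} := isOpen_lt (by fun_prop) continuous_const
    have e2 : IsOpen {z : ℂ | 0 < z.im} := isOpen_lt continuous_const (by fun_prop)
    exact e1.inter e2
  set G : ℂ → ℂ := fun z => g z * Complex.exp (L * ((-I * cau K z) / Real.pi - β)) with hG
  have hGn : ∀ z, ‖G z‖ = ‖g z‖ * Real.exp (L * ((cau K z).im / Real.pi - β)) := by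
    intro z
    simp only [hG, norm_mul, Complex.norm_exp]
    congr 2
    rw [Complex.re_ofReal_mul, Complex.sub_re, Complex.div_ofReal_re, Complex.ofReal_re]
    congr 3
    simp
  have hGd : ∀ z : ℂ, ‖z - u₀‖ ≤ s → 0 < z.im → DifferentiableAt ℂ G z := by
    intro z h1 h2
    refine (hd z h1 h2.le).mul ?_
    have h3 := differentiableAt_cau hKf h2
    exact ((((h3.const_mul (-I)).div_const _).sub_const _).const_mul _).cexp
  have hmain : ∀ z ∈ U, ‖G z‖ ≤ C := by
    refine norm_le_of_frontier hUb hUo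
      (fun z hz => (hGd z hz.1.le hz.2).differentiableWithinAt) ?_
    intro ζ hζ δ hδ
    rw [hUo.frontier_eq] at hζ
    obtain ⟨hζ1, hζ2⟩ := hUcl hζ.1
    rcases hζ2.eq_or_lt with him | him
    · -- a real point
      by_cases hxK : ζ.re ∈ K
      · have e1 : ζ = (ζ.re : ℂ) := Complex.ext (by simp) (by simpa using him.symm)
        have h1 : ‖g ζ‖ ≤ C * Real.exp (-L) := by
          rw [e1]; exact hKb _ hxK
        have h2 : ∀ᶠ z in 𝓝 ζ, ‖g z‖ < C * Real.exp (-L) + δ * Real.exp (-L) := by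
          refine (hd ζ hζ1 him.le).continuousAt.norm.eventually (gt_mem_nhds ?_)
          have := mul_pos hδ (Real.exp_pos (-L))
          linarith
        filter_upwards [mem_nhdsWithin_of_mem_nhds h2, self_mem_nhdsWithin] with z hz1 hz2
        rw [hGn]
        have h3 : (cau K z).im / Real.pi - β ≤ 1 := by
          have h4 : (cau K z).im ≤ Real.pi := by
            rw [cau_im hKf hz2.2]
            exact setIntegral_pk_le hz2.2
          have h5 : (cau K z).im / Real.pi ≤ 1 := by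
            rw [div_le_one hpi]; exact h4
          linarith
        have h4 : Real.exp (L * ((cau K z).im / Real.pi - β)) ≤ Real.exp L := by
          apply Real.exp_le_exp.mpr
          nlinarith
        calc ‖g z‖ * Real.exp (L * ((cau K z).im / Real.pi - β))
            ≤ (C * Real.exp (-L) + δ * Real.exp (-L)) * Real.exp L :=
              mul_le_mul hz1.le h4 (Real.exp_pos _).le (by positivity)
          _ = (C + δ) * (Real.exp (-L) * Real.exp L) := by ring
          _ = C + δ := by rw [← Real.exp_add]; simp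
      · -- a real point off `K`
        obtain ⟨d, hd0, hdK⟩ : ∃ d > 0, ∀ t ∈ K, d ≤ |ζ.re - t| := by
          obtain ⟨d, hd0, hdb⟩ := Metric.isOpen_iff.1 hK.isClosed.isOpen_compl ζ.re hxK
          refine ⟨d, hd0, fun t ht => ?_⟩
          by_contra hcon
          push Not at hcon
          exact hdb (by rw [mem_ball, dist_comm, Real.dist_eq]; exact hcon) ht
        -- choice of `k`
        obtain ⟨k, hk0, hk⟩ : ∃ k : ℝ, 0 < k ∧
            Real.exp (L * ((Real.pi - 2 * Real.arctan k) / Real.pi)) < 1 + δ / (C + 1) := by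
          have h1 : Tendsto (fun k => Real.exp (L * ((Real.pi - 2 * Real.arctan k) / Real.pi)))
              atTop (𝓝 (Real.exp (L * ((Real.pi - 2 * (Real.pi / 2)) / Real.pi)))) := by
            have h2 := (tendsto_nhds_of_tendsto_nhdsWithin Real.tendsto_arctan_atTop)
            exact (Real.continuous_exp.tendsto _).comp
              ((((h2.const_mul 2).const_sub Real.pi).div_const Real.pi).const_mul L)
          have h3 : Real.exp (L * ((Real.pi - 2 * (Real.pi / 2)) / Real.pi)) < 1 + δ / (C + 1) := by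
            have h4 : Real.pi - 2 * (Real.pi / 2) = 0 := by ring
            rw [h4, zero_div, mul_zero, Real.exp_zero]
            have : 0 < δ / (C + 1) := by positivity
            linarith
          obtain ⟨k, hk1, hk2⟩ := ((h1.eventually (gt_mem_nhds h3)).and
            (eventually_gt_atTop 0)).exists
          exact ⟨k, hk2, hk1⟩
        have h1 : ∀ᶠ z : ℂ in 𝓝 ζ, |z.re - ζ.re| < d / 2 :=
          (isOpen_lt (by fun_prop : Continuous fun z : ℂ => |z.re - ζ.re|)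
            continuous_const).mem_nhds (by simpa using hd0)
        have h2 : ∀ᶠ z : ℂ in 𝓝 ζ, z.im < d / (2 * k) :=
          (isOpen_lt (by fun_prop : Continuous fun z : ℂ => z.im)
            continuous_const).mem_nhds (by
              show ζ.im < d / (2 * k)
              rw [← him]; positivity)
        filter_upwards [mem_nhdsWithin_of_mem_nhds h1, mem_nhdsWithin_of_mem_nhds h2,
          self_mem_nhdsWithin] with z hz1 hz2 hz3
        rw [hGn]
        have h3 : (cau K z).im ≤ Real.pi - 2 * Real.arctan k := by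
          refine cau_le_of_far hKf hz3.2 hk0 fun t ht => ?_
          have h4 := hdK t ht
          have h5 := abs_sub_le ζ.re z.re t
          rw [abs_sub_comm ζ.re z.re] at h5
          have h6 : k * z.im ≤ d / 2 := by
            rw [lt_div_iff₀ (by positivity)] at hz2
            linarith
          linarith
        have h4 : Real.exp (L * ((cau K z).im / Real.pi - β)) ≤ 1 + δ / (C + 1) := by
          refine le_trans (Real.exp_le_exp.mpr ?_) hk.le
          have h5 : (cau K z).im / Real.pi ≤ (Real.pi - 2 * Real.arctan k) / Real.pi := by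
            gcongr
          exact mul_le_mul_of_nonneg_left (by linarith) hL
        calc ‖g z‖ * Real.exp (L * ((cau K z).im / Real.pi - β))
            ≤ C * (1 + δ / (C + 1)) :=
              mul_le_mul (hb z hz3.1.le hz3.2.le) h4 (Real.exp_pos _).le hC
          _ = C + δ * (C / (C + 1)) := by ring
          _ ≤ C + δ * 1 := by
              gcongr
              rw [div_le_one (by positivity)]
              linarith
          _ = C + δ := by ring
    · -- a point of the arc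
      have hζs : ‖ζ - u₀‖ = s := by
        by_contra hne
        exact hζ.2 ⟨lt_of_le_of_ne hζ1 hne, him⟩
      have hle : ‖G ζ‖ ≤ C := by
        rw [hGn]
        have h7 : Real.exp (L * ((cau K ζ).im / Real.pi - β)) ≤ 1 := by
          rw [Real.exp_le_one_iff]
          have h8 : (cau K ζ).im / Real.pi ≤ β := by
            rw [div_le_iff₀ hpi, mul_comm]
            exact hβv ζ hζs him
          exact mul_nonpos_of_nonneg_of_nonpos hL (by linarith)
        calc _ ≤ C * 1 := mul_le_mul (hb ζ hζ1 him.le) h7 (Real.exp_pos _).le hC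
          _ = C := mul_one C
      have h8 : ∀ᶠ z in 𝓝 ζ, ‖G z‖ < C + δ :=
        (hGd ζ hζ1 him).continuousAt.norm.eventually (gt_mem_nhds (by linarith))
      exact mem_nhdsWithin_of_mem_nhds (h8.mono fun z hz => hz.le)
  intro z hz1 hz2
  have h1 := hmain z ⟨hz1, hz2⟩
  rw [hGn] at h1
  calc ‖g z‖ = ‖g z‖ * Real.exp (L * ((cau K z).im / Real.pi - β)) *
        Real.exp (-(L * ((cau K z).im / Real.pi - β))) := by
        rw [mul_assoc, ← Real.exp_add]; simp
    _ ≤ _ := mul_le_mul_of_nonneg_right h1 (Real.exp_pos _).le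

/-- lower bound of the Poisson integral at one scale -/
theorem cau_ge_scale {K : Set ℝ} (hKm : MeasurableSet K) (hK : volume K ≠ ⊤) {x₀ s₁ m R : ℝ}
    (hR : 0 < R) {z : ℂ} (hz : 0 < z.im) (hzs : |z.re - x₀| + R * z.im ≤ s₁) (hm : 0 ≤ m)
    (hvol : volume (closedBall x₀ s₁ \ K) ≤ ENNReal.ofReal m) :
    2 * Real.arctan R - m / z.im ≤ (cau K z).im := by
  rw [cau_im hK hz]
  set J := Ioo (z.re - R * z.im) (z.re + R * z.im) with hJ
  have h3 : ∫ t in J, pk z t = 2 * Real.arctan R := integral_Ioo_pk hz hR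
  have h4 : ∫ t in J, pk z t = (∫ t in J ∩ K, pk z t) + ∫ t in J \ K, pk z t :=
    (integral_inter_add_sdiff hKm (integrable_pk hz).integrableOn).symm
  have h5 : ∫ t in J ∩ K, pk z t ≤ ∫ t in K, pk z t :=
    setIntegral_mono_set (integrable_pk hz).integrableOn
      (Eventually.of_forall fun t => (pk_pos hz t).le)
      (Eventually.of_forall fun t ht => ht.2)
  have hJsub : J \ K ⊆ closedBall x₀ s₁ \ K := by
    intro t ht
    refine ⟨?_, ht.2⟩
    rw [mem_closedBall, Real.dist_eq]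
    have h7 : |t - z.re| ≤ R * z.im := by
      rw [abs_le]; constructor <;> linarith [ht.1.1, ht.1.2]
    have := abs_sub_le t z.re x₀
    linarith
  have hfin : volume (J \ K) ≤ ENNReal.ofReal m := (measure_mono hJsub).trans hvol
  have hfin2 : volume (J \ K) ≠ ⊤ := (hfin.trans_lt ENNReal.ofReal_lt_top).ne
  have h6 : ∫ t in J \ K, pk z t ≤ (volume (J \ K)).toReal / z.im := by
    rw [← cau_im hfin2 hz]
    exact cau_le_of_high hfin2 hz
  have h7 : (volume (J \ K)).toReal ≤ m := by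
    have := ENNReal.toReal_mono ENNReal.ofReal_ne_top hfin
    rwa [ENNReal.toReal_ofReal hm] at this
  have h8 : (volume (J \ K)).toReal / z.im ≤ m / z.im := by gcongr
  linarith

/-- upper bound of the Poisson integral on a large circle -/
theorem cau_le_arc {K : Set ℝ} (hKc : IsCompact K) {x₀ s₁ s : ℝ} (hs1 : 0 ≤ s₁)
    (hs : 2 * s₁ ≤ s) (hs0 : 0 < s) (hKs : K ⊆ closedBall x₀ s₁) {z : ℂ} (hz : 0 < z.im)
    (hzs : ‖z - x₀‖ = s) : (cau K z).im ≤ 8 * s₁ / s := by
  have hK : volume K ≠ ⊤ := hKc.measure_lt_top.ne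
  rw [cau_im hK hz]
  have hpk : ∀ t ∈ K, pk z t ≤ 4 / s := by
    intro t ht
    have h1 := hKs ht
    rw [mem_closedBall, Real.dist_eq] at h1
    have h2 : s / 2 ≤ ‖(t : ℂ) - z‖ := by
      have h3 : ‖z - x₀‖ ≤ ‖(t : ℂ) - z‖ + ‖(t : ℂ) - x₀‖ := by
        have := norm_sub_le ((t : ℂ) - x₀) ((t : ℂ) - z)
        have e : (t : ℂ) - x₀ - ((t : ℂ) - z) = z - x₀ := by ring
        rw [e] at this
        linarith
      have h4 : ‖(t : ℂ) - x₀‖ = |t - x₀| := by
        rw [← Complex.ofReal_sub, Complex.norm_real, Real.norm_eq_abs]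
      rw [h4, hzs] at h3
      linarith
    have h5 : (t - z.re) ^ 2 + z.im ^ 2 = ‖(t : ℂ) - z‖ ^ 2 := by
      rw [Complex.sq_norm, Complex.normSq_apply]
      simp
      ring
    have h6 : z.im ≤ s := by
      have h7 := Complex.abs_im_le_norm (z - x₀)
      rw [hzs] at h7
      simp only [Complex.sub_im, Complex.ofReal_im, sub_zero] at h7
      exact (le_abs_self _).trans h7
    have h8 : 0 < ‖(t : ℂ) - z‖ := lt_of_lt_of_le (by positivity) h2
    rw [pk, h5, div_le_div_iff₀ (pow_pos h8 2) hs0]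
    nlinarith
  have hfin : IsFiniteMeasure (volume.restrict K) := ⟨by simpa using hK.lt_top⟩
  have h1 : ∫ t in K, pk z t ≤ ∫ t in K, (4 / s) := by
    refine setIntegral_mono_on (integrable_pk hz).integrableOn (integrable_const _)
      hKc.measurableSet hpk
  refine h1.trans ?_
  rw [setIntegral_const, smul_eq_mul]
  have h2 : (volume K).toReal ≤ 2 * s₁ := by
    have h3 : volume K ≤ ENNReal.ofReal (2 * s₁) := by
      rw [← Real.volume_closedBall (a := x₀)]
      exact measure_mono hKs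
    have := ENNReal.toReal_mono ENNReal.ofReal_ne_top h3
    rwa [ENNReal.toReal_ofReal (by positivity)] at this
  calc (volume K).toReal * (4 / s) ≤ (2 * s₁) * (4 / s) := by gcongr
    _ = 8 * s₁ / s := by ring

/-- filling a thin rectangle -/
theorem rect_fill {u₀ σ κ C b : ℝ} (hσ : 0 < σ) (hb : 0 < b)
    (hbC : b ≤ C) {g : ℂ → ℂ}
    (hd : ∀ z : ℂ, |z.re - u₀| ≤ σ → |z.im| ≤ κ * σ → DifferentiableAt ℂ g z)
    (hC : ∀ z : ℂ, |z.re - u₀| ≤ σ → |z.im| ≤ κ * σ → ‖g z‖ ≤ C)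
    (hbd : ∀ z : ℂ, |z.re - u₀| ≤ σ → |z.im| = κ * σ → ‖g z‖ ≤ b) :
    ∀ z : ℂ, |z.re - u₀| ≤ κ * σ → |z.im| ≤ κ * σ → |z.re - u₀| < σ →
      ‖g z‖ ≤ b * Real.exp (2 * κ ^ 2 * Real.log (C / b)) := by
  have hC0 : 0 < C := hb.trans_le hbC
  set L : ℝ := Real.log (C / b) with hL
  have hL0 : 0 ≤ L := Real.log_nonneg (by rw [one_le_div hb]; exact hbC)
  have hLe : Real.exp (-L) = b / C := by
    rw [hL, Real.exp_neg, Real.exp_log (by positivity)]
    field_simp
  set U : Set ℂ := {z | |z.re - u₀| < σ ∧ |z.im| < κ * σ} with hU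
  have hUb : Bornology.IsBounded U := by
    refine (isBounded_closedBall (x := (u₀ : ℂ)) (r := σ + κ * σ)).subset fun w hw => ?_
    rw [mem_closedBall, dist_eq_norm]
    refine (Complex.norm_le_abs_re_add_abs_im _).trans ?_
    simp only [Complex.sub_re, Complex.ofReal_re, Complex.sub_im, Complex.ofReal_im, sub_zero]
    linarith [hw.1, hw.2]
  have hUcl : closure U ⊆ {z | |z.re - u₀| ≤ σ ∧ |z.im| ≤ κ * σ} := by
    refine closure_minimal (fun w hw => ⟨hw.1.le, hw.2.le⟩) ?_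
    have e1 : IsClosed {z : ℂ | |z.re - u₀| ≤ σ} := isClosed_le (by fun_prop) continuous_const
    have e2 : IsClosed {z : ℂ | |z.im| ≤ κ * σ} := isClosed_le (by fun_prop) continuous_const
    exact e1.inter e2
  have hUo : IsOpen U := by
    have e1 : IsOpen {z : ℂ | |z.re - u₀| < σ} := isOpen_lt (by fun_prop) continuous_const
    have e2 : IsOpen {z : ℂ | |z.im| < κ * σ} := isOpen_lt (by fun_prop) continuous_const
    exact e1.inter e2
  set G : ℂ → ℂ := fun z => g z * Complex.exp (-(L * (((z - u₀) / σ) ^ 2 + κ ^ 2))) with hG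
  have hGn : ∀ z, ‖G z‖ = ‖g z‖ * Real.exp (-(L * (((z.re - u₀) ^ 2 - z.im ^ 2) / σ ^ 2 + κ ^ 2))) := by
    intro z
    simp only [hG, norm_mul, Complex.norm_exp]
    congr 2
    have e1 : (z - u₀) / (σ : ℂ) = ((z.re - u₀) / σ : ℝ) + (z.im / σ : ℝ) * I := by
      apply Complex.ext
      · simp [Complex.div_ofReal_re]
      · simp [Complex.div_ofReal_im]
    rw [e1, Complex.neg_re, Complex.re_ofReal_mul, Complex.add_re]
    congr 3
    · simp only [pow_two, Complex.mul_re, Complex.add_re, Complex.ofReal_re, Complex.ofReal_im,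
        Complex.I_re, Complex.I_im, Complex.add_im, Complex.mul_im]
      field_simp
      ring
    · rw [← Complex.ofReal_pow, Complex.ofReal_re]
  have hGd : ∀ z : ℂ, |z.re - u₀| ≤ σ → |z.im| ≤ κ * σ → DifferentiableAt ℂ G z := by
    intro z h1 h2
    refine (hd z h1 h2).mul ?_
    exact (by fun_prop : DifferentiableAt ℂ
      (fun z : ℂ => Complex.exp (-(L * (((z - u₀) / σ) ^ 2 + κ ^ 2)))) z)
  have hmain : ∀ z ∈ U, ‖G z‖ ≤ b := by
    have hdc : DiffContOnCl ℂ G U := by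
      refine ⟨fun z hz => (hGd z hz.1.le hz.2.le).differentiableWithinAt, fun z hz => ?_⟩
      obtain ⟨h1, h2⟩ := hUcl hz
      exact (hGd z h1 h2).continuousAt.continuousWithinAt
    intro z hz
    refine Complex.norm_le_of_forall_mem_frontier_norm_le hUb hdc ?_ (subset_closure hz)
    intro ζ hζ
    rw [hUo.frontier_eq] at hζ
    obtain ⟨h1, h2⟩ := hUcl hζ.1
    rw [hGn]
    by_cases h3 : |ζ.im| = κ * σ
    · have h4 : Real.exp (-(L * (((ζ.re - u₀) ^ 2 - ζ.im ^ 2) / σ ^ 2 + κ ^ 2))) ≤ 1 := by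
        rw [Real.exp_le_one_iff, neg_nonpos]
        refine mul_nonneg hL0 ?_
        have h5 : ζ.im ^ 2 = κ ^ 2 * σ ^ 2 := by
          rw [← sq_abs, h3]; ring
        rw [h5]
        have h6 : ((ζ.re - u₀) ^ 2 - κ ^ 2 * σ ^ 2) / σ ^ 2 + κ ^ 2 = (ζ.re - u₀) ^ 2 / σ ^ 2 := by
          field_simp
          ring
        rw [h6]
        positivity
      calc _ ≤ b * 1 := mul_le_mul (hbd ζ h1 h3) h4 (Real.exp_pos _).le hb.le
        _ = b := mul_one b
    · have h4 : |ζ.re - u₀| = σ := by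
        by_contra hne
        exact hζ.2 ⟨lt_of_le_of_ne h1 hne, lt_of_le_of_ne h2 h3⟩
      have h5 : Real.exp (-(L * (((ζ.re - u₀) ^ 2 - ζ.im ^ 2) / σ ^ 2 + κ ^ 2))) ≤
          Real.exp (-L) := by
        apply Real.exp_le_exp.mpr
        rw [neg_le_neg_iff]
        have h6 : (ζ.re - u₀) ^ 2 = σ ^ 2 := by rw [← sq_abs, h4]
        have h7 : ζ.im ^ 2 ≤ κ ^ 2 * σ ^ 2 := by
          rw [← sq_abs ζ.im]
          have := pow_le_pow_left₀ (abs_nonneg ζ.im) h2 2
          nlinarith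
        have h8 : (1 : ℝ) ≤ ((ζ.re - u₀) ^ 2 - ζ.im ^ 2) / σ ^ 2 + κ ^ 2 := by
          have h9 : 1 - κ ^ 2 ≤ ((ζ.re - u₀) ^ 2 - ζ.im ^ 2) / σ ^ 2 := by
            rw [le_div_iff₀ (by positivity), h6]
            nlinarith
          linarith
        nlinarith
      calc _ ≤ C * Real.exp (-L) := mul_le_mul (hC ζ h1 h2) h5 (Real.exp_pos _).le hC0.le
        _ = b := by rw [hLe]; field_simp
  -- the closed rectangle
  have hmain' : ∀ z : ℂ, |z.re - u₀| < σ → |z.im| ≤ κ * σ → ‖G z‖ ≤ b := by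
    intro z h1 h2
    rcases h2.eq_or_lt with h3 | h3
    · rw [hGn]
      have h4 : Real.exp (-(L * (((z.re - u₀) ^ 2 - z.im ^ 2) / σ ^ 2 + κ ^ 2))) ≤ 1 := by
        rw [Real.exp_le_one_iff, neg_nonpos]
        refine mul_nonneg hL0 ?_
        have h5 : z.im ^ 2 = κ ^ 2 * σ ^ 2 := by
          rw [← sq_abs, h3]; ring
        rw [h5]
        have h6 : ((z.re - u₀) ^ 2 - κ ^ 2 * σ ^ 2) / σ ^ 2 + κ ^ 2 = (z.re - u₀) ^ 2 / σ ^ 2 := by
          field_simp
          ring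
        rw [h6]
        positivity
      calc _ ≤ b * 1 := mul_le_mul (hbd z h1.le h3) h4 (Real.exp_pos _).le hb.le
        _ = b := mul_one b
    · exact hmain z ⟨h1, h3⟩
  intro z h1 h2 h3
  have h4 := hmain' z h3 h2
  rw [hGn] at h4
  have h5 : L * (((z.re - u₀) ^ 2 - z.im ^ 2) / σ ^ 2 + κ ^ 2) ≤ 2 * κ ^ 2 * L := by
    have h6 : (z.re - u₀) ^ 2 ≤ κ ^ 2 * σ ^ 2 := by
      rw [← sq_abs (z.re - u₀)]
      have := pow_le_pow_left₀ (abs_nonneg (z.re - u₀)) h1 2
      nlinarith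
    have h7 : ((z.re - u₀) ^ 2 - z.im ^ 2) / σ ^ 2 ≤ κ ^ 2 := by
      rw [div_le_iff₀ (by positivity)]
      nlinarith [sq_nonneg z.im]
    nlinarith
  calc ‖g z‖ = ‖g z‖ * Real.exp (-(L * (((z.re - u₀) ^ 2 - z.im ^ 2) / σ ^ 2 + κ ^ 2))) *
        Real.exp (L * (((z.re - u₀) ^ 2 - z.im ^ 2) / σ ^ 2 + κ ^ 2)) := by
        rw [mul_assoc, ← Real.exp_add]; simp
    _ ≤ b * Real.exp (2 * κ ^ 2 * L) :=
        mul_le_mul h4 (Real.exp_le_exp.mpr h5) (Real.exp_pos _).le hb.le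

/-- both steps in the upper half plane: the bound on the upper side of the rectangle -/
theorem side_bound {u₀ s s₁ σ κ R η ℓ C m₁ : ℝ} (hs : 0 < s) (hs1 : 0 < s₁) (hss : 2 * s₁ ≤ s)
    (hκ : 0 < κ) (hκ1 : κ ≤ 1) (hσ : 0 < σ) (hR : 0 < R) (hσR : (1 + R) * σ ≤ s₁) (hC : 0 ≤ C)
    (hℓ : 0 ≤ ℓ) (hm₁ : 0 ≤ m₁)
    (hRη : Real.pi * (1 - η / 8) ≤ 2 * Real.arctan R) (hmη : m₁ / (κ * σ) ≤ Real.pi * (η / 8))
    (hsη : 8 * s₁ / s ≤ Real.pi * (η / 4)) (hη : 0 ≤ η)
    {K : Set ℝ} (hK : IsCompact K) (hKs : K ⊆ closedBall u₀ s₁)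
    (hvol : volume (closedBall u₀ s₁ \ K) ≤ ENNReal.ofReal m₁) {g : ℂ → ℂ}
    (hd : ∀ z : ℂ, ‖z - u₀‖ ≤ s → 0 ≤ z.im → DifferentiableAt ℂ g z)
    (hb : ∀ z : ℂ, ‖z - u₀‖ ≤ s → 0 ≤ z.im → ‖g z‖ ≤ C)
    (hKb : ∀ x ∈ K, ‖g x‖ ≤ C * Real.exp (-ℓ)) :
    ∀ z : ℂ, |z.re - u₀| ≤ σ → z.im = κ * σ →
      ‖g z‖ ≤ C * Real.exp (-(ℓ * (1 - η / 2))) := by
  have hpi := Real.pi_pos
  have hKf : volume K ≠ ⊤ := hK.measure_lt_top.ne
  have h1 := half_barrier (s := s) (β := η / 4) hC hℓ (by positivity) hK hd hb hKb (by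
    intro z hz1 hz2
    refine (cau_le_arc hK hs1.le hss hs hKs hz2 hz1).trans hsη)
  intro z hz1 hz2
  have hzi : 0 < z.im := by rw [hz2]; positivity
  have hzn : ‖z - u₀‖ < s := by
    refine lt_of_le_of_lt (Complex.norm_le_abs_re_add_abs_im _) ?_
    simp only [Complex.sub_re, Complex.ofReal_re, Complex.sub_im, Complex.ofReal_im, sub_zero]
    rw [abs_of_pos hzi, hz2]
    have h2 : κ * σ ≤ σ := by nlinarith
    have h3 : σ < s₁ := by nlinarith
    linarith
  refine (h1 z hzn hzi).trans ?_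
  refine mul_le_mul_of_nonneg_left (Real.exp_le_exp.mpr ?_) hC
  rw [neg_le_neg_iff]
  refine mul_le_mul_of_nonneg_left ?_ hℓ
  have h2 := cau_ge_scale hK.measurableSet hKf hR hzi (s₁ := s₁) (m := m₁) (by
    rw [hz2]
    have : R * (κ * σ) ≤ R * σ := by nlinarith [mul_pos hR hσ]
    linarith) hm₁ hvol
  rw [hz2] at h2
  have h3 : Real.pi * (1 - η / 4) ≤ (cau K z).im := by linarith
  have h4 : 1 - η / 4 ≤ (cau K z).im / Real.pi := by
    rw [le_div_iff₀ hpi, mul_comm]; exact h3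
  linarith

/-- the closed sets exhausting `A` -/
theorem exists_big {u₀ δ s₁ ε : ℝ} (hs1 : 0 < s₁) (hs1δ : s₁ < δ) (hε : 0 < ε)
    {c : ℕ → ℂ → ℂ} (hc : ∀ n, ContinuousOn (c n) (ball (u₀ : ℂ) δ)) {m : ℝ} {A : Set ℝ}
    (hA : volume (closedBall u₀ s₁ \ A) ≤ ENNReal.ofReal (ε * s₁))
    (hAm : ∀ u ∈ A, |u - u₀| < δ → ∀ᶠ n in atTop, ‖c n u‖ ≤ m ^ n) :
    ∃ N : ℕ, IsCompact {x : ℝ | x ∈ closedBall u₀ s₁ ∧ ∀ n, N ≤ n → ‖c n x‖ ≤ m ^ n} ∧
      volume (closedBall u₀ s₁ \ {x : ℝ | x ∈ closedBall u₀ s₁ ∧ ∀ n, N ≤ n → ‖c n x‖ ≤ m ^ n}) ≤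
        ENNReal.ofReal (2 * ε * s₁) := by
  set K : ℕ → Set ℝ := fun N => {x : ℝ | x ∈ closedBall u₀ s₁ ∧ ∀ n, N ≤ n → ‖c n x‖ ≤ m ^ n}
    with hK
  have hmem : ∀ x ∈ closedBall u₀ s₁, (x : ℂ) ∈ ball (u₀ : ℂ) δ := by
    intro x hx
    rw [mem_closedBall, Real.dist_eq] at hx
    rw [mem_ball, dist_eq_norm, ← Complex.ofReal_sub, Complex.norm_real, Real.norm_eq_abs]
    linarith
  have hcR : ∀ n, ContinuousOn (fun x : ℝ => ‖c n x‖) (closedBall u₀ s₁) := fun n =>
    ((hc n).comp Complex.continuous_ofReal.continuousOn hmem).norm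
  have hKc : ∀ N, IsClosed (K N) := by
    intro N
    have e2 : K N = ⋂ n, {x : ℝ | x ∈ closedBall u₀ s₁ ∧ (N ≤ n → ‖c n x‖ ≤ m ^ n)} := by
      ext x
      rw [mem_iInter]
      constructor
      · rintro ⟨h1, h2⟩ n
        exact ⟨h1, fun hn => h2 n hn⟩
      · intro h
        exact ⟨(h 0).1, fun n hn => (h n).2 hn⟩
    rw [e2]
    refine isClosed_iInter fun n => ?_
    by_cases hn : N ≤ n
    · have h1 := (hcR n).preimage_isClosed_of_isClosed isClosed_closedBall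
        (isClosed_Iic (a := m ^ n))
      have e3 : {x : ℝ | x ∈ closedBall u₀ s₁ ∧ (N ≤ n → ‖c n x‖ ≤ m ^ n)} =
          closedBall u₀ s₁ ∩ (fun x : ℝ => ‖c n x‖) ⁻¹' Iic (m ^ n) := by
        ext x
        exact ⟨fun h => ⟨h.1, h.2 hn⟩, fun h => ⟨h.1, fun _ => h.2⟩⟩
      rw [e3]
      exact h1
    · have e3 : {x : ℝ | x ∈ closedBall u₀ s₁ ∧ (N ≤ n → ‖c n x‖ ≤ m ^ n)} =
          closedBall u₀ s₁ := by
        ext x
        exact ⟨fun h => h.1, fun h => ⟨h, fun h2 => absurd h2 hn⟩⟩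
      rw [e3]
      exact isClosed_closedBall
  have hKcomp : ∀ N, IsCompact (K N) := fun N =>
    (isCompact_closedBall u₀ s₁).of_isClosed_subset (hKc N) fun x hx => hx.1
  have hanti : Antitone fun N => closedBall u₀ s₁ \ K N := by
    intro N N' hNN x hx
    refine ⟨hx.1, fun h => hx.2 ⟨h.1, fun n hn => h.2 n (hNN.trans hn)⟩⟩
  have hlim := tendsto_measure_iInter_atTop (μ := volume)
    (s := fun N => closedBall u₀ s₁ \ K N)
    (fun N => (measurableSet_closedBall.diff (hKc N).measurableSet).nullMeasurableSet) hanti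
    ⟨0, ((measure_mono sdiff_subset).trans_lt measure_closedBall_lt_top).ne⟩
  have hsub : (⋂ N, closedBall u₀ s₁ \ K N) ⊆ closedBall u₀ s₁ \ A := by
    intro x hx
    rw [mem_iInter] at hx
    refine ⟨(hx 0).1, fun hxA => ?_⟩
    have h1 := (hx 0).1
    rw [mem_closedBall, Real.dist_eq] at h1
    obtain ⟨N, hN⟩ := eventually_atTop.mp (hAm x hxA (by linarith))
    exact (hx N).2 ⟨(hx 0).1, fun n hn => hN n hn⟩
  have hlt : volume (⋂ N, closedBall u₀ s₁ \ K N) < ENNReal.ofReal (2 * ε * s₁) := by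
    refine ((measure_mono hsub).trans hA).trans_lt ?_
    rw [ENNReal.ofReal_lt_ofReal_iff (by positivity)]
    nlinarith [mul_pos hε hs1]
  obtain ⟨N, hN⟩ := (hlim.eventually (gt_mem_nhds hlt)).exists
  exact ⟨N, hKcomp N, le_of_lt hN⟩

theorem hexp_aux {X η : ℝ} (hX : 0 ≤ X) (h0 : 0 ≤ η) (h1 : η ≤ 1) :
    -(X * (1 - η / 2)) + 2 * (η / 2) ^ 2 * (X * (1 - η / 2)) ≤ -X + X * η := by
  have h2 : 0 ≤ η * (1 - η * (1 - η / 2)) := mul_nonneg h0 (by nlinarith)
  have h3 := mul_nonneg hX h2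
  linarith

theorem exists_s₁ {r₀ s η : ℝ} (hr₀ : 0 < r₀) (hs0 : 0 < s) (hη0 : 0 < η) :
    ∃ s₁ : ℝ, 0 < s₁ ∧ s₁ < r₀ ∧ 2 * s₁ ≤ s ∧ 8 * s₁ / s ≤ Real.pi * (η / 4) := by
  have hpi := Real.pi_pos
  refine ⟨min (r₀ / 2) (min (s / 2) (s * (Real.pi * (η / 4)) / 8)), ?_, ?_, ?_, ?_⟩
  · exact lt_min (by positivity) (lt_min (by positivity) (by positivity))
  · exact (min_le_left _ _).trans_lt (by linarith)
  · have := (min_le_right (r₀ / 2) (min (s / 2) (s * (Real.pi * (η / 4)) / 8))).trans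
      (min_le_left _ _)
    linarith
  · rw [div_le_iff₀ hs0]
    have := (min_le_right (r₀ / 2) (min (s / 2) (s * (Real.pi * (η / 4)) / 8))).trans
      (min_le_right _ _)
    linarith

theorem exists_R {η : ℝ} (hη0 : 0 < η) :
    ∃ R : ℝ, 0 < R ∧ Real.pi * (1 - η / 8) < 2 * Real.arctan R := by
  have hpi := Real.pi_pos
  have h1 : Tendsto (fun R => 2 * Real.arctan R) atTop (𝓝 (2 * (Real.pi / 2))) :=
    (tendsto_nhds_of_tendsto_nhdsWithin Real.tendsto_arctan_atTop).const_mul 2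
  have h2 : Real.pi * (1 - η / 8) < 2 * (Real.pi / 2) := by nlinarith
  obtain ⟨R, hR1, hR2⟩ := ((h1.eventually (lt_mem_nhds h2)).and (eventually_gt_atTop 0)).exists
  exact ⟨R, hR2, hR1⟩

/-- **Hartogs type lemma** for coefficients -/
theorem hart_coeff {u₀ : ℝ} {δ : ℝ} (hδ : 0 < δ) {c : ℕ → ℂ → ℂ}
    (hc : ∀ n, DifferentiableOn ℂ (c n) (ball (u₀ : ℂ) δ)) {M m : ℝ} (hm : 0 < m)
    (hM : ∀ᶠ n in atTop, ∀ w ∈ ball (u₀ : ℂ) δ, ‖c n w‖ ≤ M ^ n) {A : Set ℝ} (hA : Dens A u₀)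
    (hAm : ∀ u ∈ A, |u - u₀| < δ → ∀ᶠ n in atTop, ‖c n u‖ ≤ m ^ n) {m' : ℝ} (hm' : m < m') :
    ∃ δ' > 0, ∀ᶠ n in atTop, ∀ w ∈ ball (u₀ : ℂ) δ', ‖c n w‖ ≤ m' ^ n := by
  have hpi := Real.pi_pos
  -- enlarge `M`
  set M₁ : ℝ := max |M| m' with hM₁
  have hM₁m' : m' ≤ M₁ := le_max_right _ _
  have hM₁0 : 0 < M₁ := lt_of_lt_of_le (hm.trans hm') hM₁m'
  have hmM₁ : m < M₁ := hm'.trans_le hM₁m'
  have hMM₁ : ∀ n : ℕ, M ^ n ≤ M₁ ^ n := by
    intro n
    refine (le_abs_self _).trans ?_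
    rw [abs_pow]
    exact pow_le_pow_left₀ (abs_nonneg _) (le_max_left _ _) n
  set ℓ : ℝ := Real.log (M₁ / m) with hℓ
  have hℓ0 : 0 < ℓ := Real.log_pos (by rw [one_lt_div hm]; exact hmM₁)
  have hℓe : Real.exp ℓ = M₁ / m := Real.exp_log (by positivity)
  have hlm : 0 < Real.log (m' / m) := Real.log_pos (by rw [one_lt_div hm]; exact hm')
  set η : ℝ := min 1 (Real.log (m' / m) / ℓ) with hη
  have hη0 : 0 < η := lt_min one_pos (by positivity)
  have hη1 : η ≤ 1 := min_le_left _ _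
  have hηm : m * Real.exp (ℓ * η) ≤ m' := by
    have h1 : ℓ * η ≤ Real.log (m' / m) := by
      calc ℓ * η ≤ ℓ * (Real.log (m' / m) / ℓ) := by
            exact mul_le_mul_of_nonneg_left (min_le_right _ _) hℓ0.le
        _ = Real.log (m' / m) := by field_simp
    calc m * Real.exp (ℓ * η) ≤ m * Real.exp (Real.log (m' / m)) :=
          mul_le_mul_of_nonneg_left (Real.exp_le_exp.mpr h1) hm.le
      _ = m' := by
          rw [Real.exp_log (by have := hm.trans hm'; positivity)]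
          field_simp
  -- parameters
  obtain ⟨R, hR0, hR⟩ := exists_R hη0
  set κ : ℝ := η / 2 with hκ
  have hκ0 : 0 < κ := by positivity
  have hκ1 : κ ≤ 1 := by rw [hκ]; linarith
  set ε : ℝ := κ * (Real.pi * (η / 8)) / (2 * (1 + R)) with hε
  have hε0 : 0 < ε := by positivity
  obtain ⟨r₀, hr₀, hr⟩ := hA ε hε0
  set s : ℝ := δ / 2 with hs
  have hs0 : 0 < s := by positivity
  obtain ⟨s₁, hs₁0, hs₁r, hs₁s, hs₁η⟩ := exists_s₁ hr₀ hs0 hη0
  set σ : ℝ := s₁ / (1 + R) with hσ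
  have hσ0 : 0 < σ := by positivity
  have hσR : (1 + R) * σ ≤ s₁ := by rw [hσ]; field_simp; exact le_rfl
  obtain ⟨N, hKc, hKv⟩ := exists_big (u₀ := u₀) (δ := δ) hs₁0 (by linarith) hε0
    (fun n => (hc n).continuousOn) (hr s₁ hs₁0 hs₁r) hAm
  set K : Set ℝ := {x : ℝ | x ∈ closedBall u₀ s₁ ∧ ∀ n, N ≤ n → ‖c n x‖ ≤ m ^ n} with hK
  have hmη : 2 * ε * s₁ / (κ * σ) ≤ Real.pi * (η / 8) := by
    rw [hσ, hε]
    refine le_of_eq ?_
    field_simp
  have hMe : ∀ n : ℕ, M₁ ^ n * Real.exp (-(n * ℓ)) = m ^ n := by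
    intro n
    rw [Real.exp_neg, Real.exp_nat_mul, hℓe, div_pow]
    field_simp
  refine ⟨κ * σ, by positivity, ?_⟩
  filter_upwards [hM, eventually_ge_atTop N] with n hn1 hn2 w hw
  -- the bound on both sides of the rectangle
  have hbound : ∀ z : ℂ, ‖z - u₀‖ ≤ s → ‖c n z‖ ≤ M₁ ^ n := fun z hz =>
    (hn1 z (by rw [mem_ball, dist_eq_norm]; linarith)).trans (hMM₁ n)
  have hdiff : ∀ z : ℂ, ‖z - u₀‖ ≤ s → DifferentiableAt ℂ (c n) z := fun z hz =>
    (hc n).differentiableAt (isOpen_ball.mem_nhds (by rw [mem_ball, dist_eq_norm]; linarith))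
  have hup : ∀ z : ℂ, |z.re - u₀| ≤ σ → z.im = κ * σ →
      ‖c n z‖ ≤ M₁ ^ n * Real.exp (-(n * ℓ * (1 - η / 2))) := by
    refine side_bound (K := K) (R := R) (m₁ := 2 * ε * s₁) hs0 hs₁0 hs₁s hκ0 hκ1 hσ0 hR0 hσR
      (by positivity) (by positivity) (by positivity) hR.le hmη hs₁η hη0.le hKc
      (fun x hx => hx.1) hKv (fun z hz _ => hdiff z hz) (fun z hz _ => hbound z hz) ?_
    intro x hx
    rw [hMe]
    exact hx.2 n hn2
  have hconjn : ∀ z : ℂ, ‖(starRingEnd ℂ) z - u₀‖ = ‖z - u₀‖ := by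
    intro z
    rw [← RCLike.norm_conj (z - u₀), map_sub, Complex.conj_ofReal]
  have hlow : ∀ z : ℂ, |z.re - u₀| ≤ σ → z.im = κ * σ →
      ‖((starRingEnd ℂ) ∘ c n ∘ (starRingEnd ℂ)) z‖ ≤
        M₁ ^ n * Real.exp (-(n * ℓ * (1 - η / 2))) := by
    refine side_bound (K := K) (R := R) (m₁ := 2 * ε * s₁) hs0 hs₁0 hs₁s hκ0 hκ1 hσ0 hR0 hσR
      (by positivity) (by positivity) (by positivity) hR.le hmη hs₁η hη0.le hKc
      (fun x hx => hx.1) hKv (fun z hz _ => ?_) (fun z hz _ => ?_) ?_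
    · exact differentiableAt_conj_conj_iff.mpr (hdiff _ (by rw [hconjn]; exact hz))
    · rw [Function.comp_apply, Function.comp_apply, RCLike.norm_conj]
      exact hbound _ (by rw [hconjn]; exact hz)
    · intro x hx
      rw [hMe, Function.comp_apply, Function.comp_apply, RCLike.norm_conj, Complex.conj_ofReal]
      exact hx.2 n hn2
  set b : ℝ := M₁ ^ n * Real.exp (-(n * ℓ * (1 - η / 2))) with hb
  have hb0 : 0 < b := by positivity
  have hbC : b ≤ M₁ ^ n := by
    rw [hb]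
    have h1 : Real.exp (-(n * ℓ * (1 - η / 2))) ≤ 1 := by
      rw [Real.exp_le_one_iff, neg_nonpos]
      exact mul_nonneg (by positivity) (by linarith)
    calc _ ≤ M₁ ^ n * 1 := mul_le_mul_of_nonneg_left h1 (by positivity)
      _ = M₁ ^ n := mul_one _
  have hnorm : ∀ z : ℂ, |z.re - u₀| ≤ σ → |z.im| ≤ κ * σ → ‖z - u₀‖ ≤ s := by
    intro z h1 h2
    refine (Complex.norm_le_abs_re_add_abs_im _).trans ?_
    simp only [Complex.sub_re, Complex.ofReal_re, Complex.sub_im, Complex.ofReal_im, sub_zero]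
    have h3 : κ * σ ≤ σ := by nlinarith
    have h4 : σ < s₁ := by nlinarith [mul_pos hR0 hσ0]
    linarith
  have hfill := rect_fill (κ := κ) hσ0 hb0 hbC
    (fun z h1 h2 => hdiff z (hnorm z h1 h2)) (fun z h1 h2 => hbound z (hnorm z h1 h2)) (by
      intro z h1 h2
      rcases abs_choice z.im with h3 | h3
      · exact hup z h1 (by rw [← h3, h2])
      · have h4 := hlow ((starRingEnd ℂ) z) (by simpa using h1) (by
          rw [Complex.conj_im, ← h3, h2])
        rwa [Function.comp_apply, Function.comp_apply, RCLike.norm_conj, Complex.conj_conj] at h4)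
  rw [mem_ball, dist_eq_norm] at hw
  have hw1 : |w.re - u₀| ≤ κ * σ := by
    have := Complex.abs_re_le_norm (w - u₀)
    simp only [Complex.sub_re, Complex.ofReal_re] at this
    linarith
  have hw2 : |w.im| ≤ κ * σ := by
    have := Complex.abs_im_le_norm (w - u₀)
    simp only [Complex.sub_im, Complex.ofReal_im, sub_zero] at this
    linarith
  have hw3 : |w.re - u₀| < σ := by
    have h1 : κ ≤ 1 / 2 := by rw [hκ]; linarith
    nlinarith
  refine (hfill w hw1 hw2 hw3).trans ?_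
  have hlog : Real.log (M₁ ^ n / b) = n * ℓ * (1 - η / 2) := by
    rw [hb, div_mul_cancel_left₀ (by positivity), Real.log_inv, Real.log_exp, neg_neg]
  rw [hlog, hb, mul_assoc, ← Real.exp_add]
  have hexp : -(n * ℓ * (1 - η / 2)) + 2 * κ ^ 2 * (n * ℓ * (1 - η / 2)) ≤
      -(n * ℓ) + n * (ℓ * η) := by
    have h1 : 0 ≤ (n : ℝ) * ℓ := by positivity
    have h2 := hexp_aux h1 hη0.le hη1
    rw [hκ]
    calc _ ≤ _ := h2
      _ = _ := by ring
  calc M₁ ^ n * Real.exp (-(n * ℓ * (1 - η / 2)) + 2 * κ ^ 2 * (n * ℓ * (1 - η / 2)))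
      ≤ M₁ ^ n * Real.exp (-(n * ℓ) + n * (ℓ * η)) :=
        mul_le_mul_of_nonneg_left (Real.exp_le_exp.mpr hexp) (by positivity)
    _ = (M₁ ^ n * Real.exp (-(n * ℓ))) * Real.exp (n * (ℓ * η)) := by
        rw [Real.exp_add, mul_assoc]
    _ = (m * Real.exp (ℓ * η)) ^ n := by rw [hMe, Real.exp_nat_mul, mul_pow]
    _ ≤ m' ^ n := pow_le_pow_left₀ (by positivity) hηm n

end Vale.Agent.P097.H877.Bd
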