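import Vale.Agent.P097.H877.Bd.Saw

/-!
Cauchy/Poisson integral of the indicator of a bounded set, with the estimates needed for the
Lusin-Privalov theorem.
-/

open Complex Metric Filter Topology Set MeasureTheory

namespace Vale.Agent.P097.H877.Bd

/-- Cauchy integral of the indicator of `K` -/
noncomputable def cau (K : Set ℝ) (z : ℂ) : ℂ := ∫ t in K, ((t : ℂ) - z)⁻¹

/-- Poisson kernel (times `π`) -/
noncomputable def pk (z : ℂ) (t : ℝ) : ℝ := z.im / ((t - z.re) ^ 2 + z.im ^ 2)

theorem pk_pos {z : ℂ} (hz : 0 < z.im) (t : ℝ) : 0 < pk z t := by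
  unfold pk; positivity

theorem pk_le {z : ℂ} (hz : 0 < z.im) (t : ℝ) : pk z t ≤ 1 / z.im := by
  unfold pk
  rw [div_le_div_iff₀ (by positivity) hz]
  nlinarith [sq_nonneg (t - z.re)]

theorem continuous_pk {z : ℂ} (hz : 0 < z.im) : Continuous (pk z) := by
  unfold pk
  refine continuous_const.div (by fun_prop) fun t => ?_
  positivity

theorem hasDerivAt_pk {z : ℂ} (hz : 0 < z.im) (t : ℝ) :
    HasDerivAt (fun t => Real.arctan ((t - z.re) / z.im)) (pk z t) t := by
  have h1 : HasDerivAt (fun t : ℝ => (t - z.re) / z.im) (1 / z.im) t :=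
    ((hasDerivAt_id t).sub_const z.re).div_const z.im
  refine h1.arctan.congr_deriv ?_
  unfold pk
  field_simp
  ring

theorem integral_pk {z : ℂ} (hz : 0 < z.im) (a b : ℝ) :
    ∫ t in a..b, pk z t = Real.arctan ((b - z.re) / z.im) - Real.arctan ((a - z.re) / z.im) :=
  intervalIntegral.integral_eq_sub_of_hasDerivAt (fun t _ => hasDerivAt_pk hz t)
    ((continuous_pk hz).intervalIntegrable _ _)

theorem integrable_pk {z : ℂ} (hz : 0 < z.im) : Integrable (pk z) := by
  have h1 : Integrable fun t : ℝ => (1 + ((t - z.re) / z.im) ^ 2)⁻¹ :=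
    ((integrable_inv_one_add_sq.comp_div hz.ne').comp_sub_right z.re)
  have h2 := h1.const_mul (1 / z.im)
  refine h2.congr (Eventually.of_forall fun t => ?_)
  unfold pk
  field_simp
  ring

theorem integral_pk_univ {z : ℂ} (hz : 0 < z.im) : ∫ t, pk z t = Real.pi := by
  have h1 : Tendsto (fun t : ℝ => (t - z.re) / z.im) atTop atTop :=
    (tendsto_atTop_add_const_right _ (-z.re) tendsto_id).atTop_div_const hz
  have h2 : Tendsto (fun t : ℝ => (t - z.re) / z.im) atBot atBot :=
    (tendsto_atBot_add_const_right _ (-z.re) tendsto_id).atBot_div_const hz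
  have h3 : Tendsto (fun t => Real.arctan ((t - z.re) / z.im)) atTop (𝓝 (Real.pi / 2)) :=
    (tendsto_nhds_of_tendsto_nhdsWithin Real.tendsto_arctan_atTop).comp h1
  have h4 : Tendsto (fun t => Real.arctan ((t - z.re) / z.im)) atBot (𝓝 (-(Real.pi / 2))) :=
    (tendsto_nhds_of_tendsto_nhdsWithin Real.tendsto_arctan_atBot).comp h2
  rw [integral_of_hasDerivAt_of_tendsto (fun t => hasDerivAt_pk hz t) (integrable_pk hz) h4 h3]
  ring

theorem norm_sub_ge {z : ℂ} (t : ℝ) : |z.im| ≤ ‖(t : ℂ) - z‖ := by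
  have := Complex.abs_im_le_norm ((t : ℂ) - z)
  simpa using this

theorem sub_ne {z : ℂ} (hz : 0 < z.im) (t : ℝ) : (t : ℂ) - z ≠ 0 := by
  intro h
  have := norm_sub_ge (z := z) t
  rw [h, norm_zero, abs_of_pos hz] at this
  linarith

theorem integrableOn_cau {K : Set ℝ} (hK : volume K ≠ ⊤) {z : ℂ} (hz : 0 < z.im) :
    IntegrableOn (fun t : ℝ => ((t : ℂ) - z)⁻¹) K := by
  have hc : Continuous fun t : ℝ => ((t : ℂ) - z)⁻¹ :=
    (by fun_prop : Continuous fun t : ℝ => (t : ℂ) - z).inv₀ (sub_ne hz)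
  refine Measure.integrableOn_of_bounded (M := 1 / z.im) hK hc.aestronglyMeasurable ?_
  refine Eventually.of_forall fun t => ?_
  rw [norm_inv, one_div]
  refine inv_anti₀ hz ?_
  simpa [abs_of_pos hz] using norm_sub_ge (z := z) t

theorem cau_im {K : Set ℝ} (hK : volume K ≠ ⊤) {z : ℂ} (hz : 0 < z.im) :
    (cau K z).im = ∫ t in K, pk z t := by
  unfold cau
  have h1 : (∫ t in K, ((t : ℂ) - z)⁻¹).im = ∫ t in K, (((t : ℂ) - z)⁻¹).im :=
    (integral_im (integrableOn_cau hK hz)).symm
  rw [h1]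
  refine integral_congr_ae (Eventually.of_forall fun t => ?_)
  simp only [Complex.inv_im, Complex.sub_im, Complex.ofReal_im, Complex.normSq_apply,
    Complex.sub_re, Complex.ofReal_re, pk]
  congr 1 <;> ring

theorem differentiableAt_cau {K : Set ℝ} (hK : volume K ≠ ⊤) {z : ℂ} (hz : 0 < z.im) :
    DifferentiableAt ℂ (cau K) z := by
  have hcont : ∀ w : ℂ, 0 < w.im → Continuous fun t : ℝ => ((t : ℂ) - w)⁻¹ := fun w hw =>
    (by fun_prop : Continuous fun t : ℝ => (t : ℂ) - w).inv₀ (sub_ne hw)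
  have him : ∀ w ∈ ball z (z.im / 2), z.im / 2 < w.im := by
    intro w hw
    rw [mem_ball, dist_eq_norm] at hw
    have := (abs_lt.mp ((Complex.abs_im_le_norm (w - z)).trans_lt hw)).1
    simp only [Complex.sub_im] at this
    linarith
  have key := hasDerivAt_integral_of_dominated_loc_of_deriv_le (μ := volume.restrict K)
    (F := fun (w : ℂ) (t : ℝ) => ((t : ℂ) - w)⁻¹)
    (F' := fun (w : ℂ) (t : ℝ) => (((t : ℂ) - w) ^ 2)⁻¹)
    (x₀ := z) (s := ball z (z.im / 2)) (bound := fun _ => ((z.im / 2) ^ 2)⁻¹)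
    (ball_mem_nhds z (by positivity)) ?_ ?_ ?_ ?_ ?_ ?_
  · exact key.2.differentiableAt
  · filter_upwards [ball_mem_nhds z (show 0 < z.im / 2 by positivity)] with w hw
    exact (hcont w (by linarith [him w hw])).aestronglyMeasurable
  · exact integrableOn_cau hK hz
  · have : Continuous fun t : ℝ => (((t : ℂ) - z) ^ 2)⁻¹ :=
      (by fun_prop : Continuous fun t : ℝ => ((t : ℂ) - z) ^ 2).inv₀
        (fun t => pow_ne_zero 2 (sub_ne hz t))
    exact this.aestronglyMeasurable
  · refine Eventually.of_forall fun t w hw => ?_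
    rw [norm_inv, norm_pow]
    have h1 := him w hw
    refine inv_anti₀ (by positivity) ?_
    have h2 := norm_sub_ge (z := w) t
    rw [abs_of_pos (by linarith)] at h2
    gcongr
    linarith
  · have : IsFiniteMeasure (volume.restrict K) := ⟨by simpa using hK.lt_top⟩
    exact integrable_const _
  · refine Eventually.of_forall fun t w hw => ?_
    have h1 := him w hw
    have h2 : (t : ℂ) - w ≠ 0 := sub_ne (by linarith) t
    have h3 : HasDerivAt (fun w : ℂ => (t : ℂ) - w) (-1) w := by
      simpa using (hasDerivAt_id w).const_sub (t : ℂ)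
    have h4 := h3.inv h2
    refine h4.congr_deriv ?_
    rw [neg_neg, one_div]

theorem setIntegral_pk_le {K : Set ℝ} {z : ℂ} (hz : 0 < z.im) :
    ∫ t in K, pk z t ≤ Real.pi := by
  rw [← integral_pk_univ hz]
  exact setIntegral_le_integral (integrable_pk hz)
    (Eventually.of_forall fun t => (pk_pos hz t).le)

theorem integral_Ioo_pk {z : ℂ} (hz : 0 < z.im) {R : ℝ} (hR : 0 < R) :
    ∫ t in Ioo (z.re - R * z.im) (z.re + R * z.im), pk z t = 2 * Real.arctan R := by
  have h0 : z.re - R * z.im ≤ z.re + R * z.im := by nlinarith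
  rw [← integral_Ioc_eq_integral_Ioo, ← intervalIntegral.integral_of_le h0, integral_pk hz]
  have h1 : (z.re + R * z.im - z.re) / z.im = R := by field_simp; ring
  have h2 : (z.re - R * z.im - z.re) / z.im = -R := by field_simp; ring
  rw [h1, h2, Real.arctan_neg]
  ring

/-- far from `K` -/
theorem cau_le_of_far {K : Set ℝ} (hK : volume K ≠ ⊤) {z : ℂ}
    (hz : 0 < z.im) {k : ℝ} (hk : 0 < k) (hfar : ∀ t ∈ K, k * z.im ≤ |z.re - t|) :
    (cau K z).im ≤ Real.pi - 2 * Real.arctan k := by
  rw [cau_im hK hz]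
  have hdis : Disjoint K (Ioo (z.re - k * z.im) (z.re + k * z.im)) := by
    rw [Set.disjoint_left]
    intro t ht hI
    have h1 := hfar t ht
    have h2 : |z.re - t| < k * z.im := by
      rw [abs_lt]; constructor <;> linarith [hI.1, hI.2]
    linarith
  have h1 := setIntegral_union hdis measurableSet_Ioo (integrable_pk hz).integrableOn
    (integrable_pk hz).integrableOn
  have h2 := setIntegral_pk_le (K := K ∪ Ioo (z.re - k * z.im) (z.re + k * z.im)) hz
  rw [h1, integral_Ioo_pk hz hk] at h2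
  linarith

/-- high above `K` -/
theorem cau_le_of_high {K : Set ℝ} (hK : volume K ≠ ⊤) {z : ℂ}
    (hz : 0 < z.im) : (cau K z).im ≤ (volume K).toReal / z.im := by
  rw [cau_im hK hz]
  have h1 : ∫ t in K, pk z t ≤ ∫ t in K, (1 / z.im) := by
    refine integral_mono_ae (integrable_pk hz).integrableOn ?_ ?_
    · have : IsFiniteMeasure (volume.restrict K) := ⟨by simpa using hK.lt_top⟩
      exact integrable_const _
    · exact Eventually.of_forall fun t => pk_le hz t
  refine h1.trans (le_of_eq ?_)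
  rw [setIntegral_const, smul_eq_mul, Measure.real]
  ring

/-- near a density point the Poisson integral is close to `π` -/
theorem Dens.cau_ge {K : Set ℝ} (hKm : MeasurableSet K) (hK : volume K ≠ ⊤) {x₀ : ℝ}
    (hD : Dens K x₀) {k : ℝ} (hk : 0 < k) {c : ℝ} (hc : c < Real.pi) :
    ∃ h' > 0, ∀ z ∈ cone k h' x₀, c < (cau K z).im := by
  obtain ⟨R, hR0, hR⟩ : ∃ R : ℝ, 0 < R ∧ (c + Real.pi) / 2 < 2 * Real.arctan R := by
    have h1 : Tendsto (fun R => 2 * Real.arctan R) atTop (𝓝 (2 * (Real.pi / 2))) :=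
      (tendsto_nhds_of_tendsto_nhdsWithin Real.tendsto_arctan_atTop).const_mul 2
    have h2 : (c + Real.pi) / 2 < 2 * (Real.pi / 2) := by linarith
    obtain ⟨R, hR1, hR2⟩ := ((h1.eventually (lt_mem_nhds h2)).and (eventually_gt_atTop 0)).exists
    exact ⟨R, hR2, hR1⟩
  obtain ⟨r₀, hr₀, hr⟩ := hD ((Real.pi - c) / (4 * (R + k))) (div_pos (by linarith) (by positivity))
  refine ⟨r₀ / (R + k), by positivity, fun z hz => ?_⟩
  have hY := cone_im_pos hk hz
  have h1 : (R + k) * z.im < r₀ := by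
    have := hz.2
    rw [lt_div_iff₀ (by positivity)] at this
    linarith
  have h2 := hr ((R + k) * z.im) (by positivity) h1
  rw [cau_im hK hY]
  set J := Ioo (z.re - R * z.im) (z.re + R * z.im) with hJ
  have h3 : ∫ t in J, pk z t = 2 * Real.arctan R := integral_Ioo_pk hY hR0
  have h4 : ∫ t in J, pk z t = (∫ t in J ∩ K, pk z t) + ∫ t in J \ K, pk z t :=
    (integral_inter_add_sdiff hKm (integrable_pk hY).integrableOn).symm
  have h5 : ∫ t in J ∩ K, pk z t ≤ ∫ t in K, pk z t :=
    setIntegral_mono_set (integrable_pk hY).integrableOn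
      (Eventually.of_forall fun t => (pk_pos hY t).le)
      (Eventually.of_forall fun t ht => ht.2)
  have hJsub : J \ K ⊆ closedBall x₀ ((R + k) * z.im) \ K := by
    intro t ht
    refine ⟨?_, ht.2⟩
    rw [mem_closedBall, Real.dist_eq]
    have h6 := hz.1
    have h7 : |t - z.re| ≤ R * z.im := by
      rw [abs_le]; constructor <;> linarith [ht.1.1, ht.1.2]
    have := abs_sub_le t z.re x₀
    linarith
  have hfin : volume (J \ K) ≤ ENNReal.ofReal ((Real.pi - c) / (4 * (R + k)) * ((R + k) * z.im)) :=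
    (measure_mono hJsub).trans h2
  have hfin2 : volume (J \ K) ≠ ⊤ := (hfin.trans_lt ENNReal.ofReal_lt_top).ne
  have h6 : ∫ t in J \ K, pk z t ≤ (volume (J \ K)).toReal / z.im := by
    rw [← cau_im hfin2 hY]
    exact cau_le_of_high hfin2 hY
  have h7 : (volume (J \ K)).toReal ≤ (Real.pi - c) / 4 * z.im := by
    have h8 : (Real.pi - c) / (4 * (R + k)) * ((R + k) * z.im) = (Real.pi - c) / 4 * z.im := by
      field_simp
    rw [h8] at hfin
    exact ENNReal.toReal_le_of_le_ofReal (by nlinarith) hfin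
  have h9 : (volume (J \ K)).toReal / z.im ≤ (Real.pi - c) / 4 := by
    rw [div_le_iff₀ hY]; exact h7
  linarith

end Vale.Agent.P097.H877.Bd
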