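import Vale.Agent.P097.H877.Bd.Cone

/-!
Sawtooth domains and primitives.
-/

open Complex Metric Filter Topology Set

namespace Vale.Agent.P097.H877.Bd

/-- holomorphic functions have primitives on star shaped open sets
(proof of `H202.prim_convex`, helper202) -/
theorem prim_star {U : Set ℂ} (hU : IsOpen U) {c : ℂ} (hc : StarConvex ℝ c U) {f : ℂ → ℂ}
    (hf : DifferentiableOn ℂ f U) : ∃ g : ℂ → ℂ, ∀ z ∈ U, HasDerivAt g (f z) z := by
  have hmem : ∀ z ∈ U, ∀ t : ℝ, t ∈ Icc (0 : ℝ) 1 → c + (t : ℂ) * (z - c) ∈ U := by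
    intro z hz t ht
    have h1 := hc.add_smul_sub_mem hz ht.1 ht.2
    rwa [Complex.real_smul] at h1
  have hda : ∀ z ∈ U, HasDerivAt f (deriv f z) z := fun z hz =>
    (hf.differentiableAt (hU.mem_nhds hz)).hasDerivAt
  have hdc : ContinuousOn (deriv f) U := (hf.deriv hU).continuousOn
  refine ⟨fun z => ∫ t in (0 : ℝ)..1, (z - c) * f (c + (t : ℂ) * (z - c)), fun z₀ hz₀ => ?_⟩
  obtain ⟨ε, hε, hball⟩ := Metric.isOpen_iff.1 hU z₀ hz₀
  have hcb : closedBall z₀ (ε / 2) ⊆ U := (closedBall_subset_ball (by linarith)).trans hball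
  set φ : ℂ × ℝ → ℂ := fun p => c + (p.2 : ℂ) * (p.1 - c) with hφ
  have hφc : Continuous φ := by rw [hφ]; fun_prop
  set K : Set ℂ := φ '' (closedBall z₀ (ε / 2) ×ˢ Icc (0 : ℝ) 1) with hK
  have hKc : IsCompact K :=
    ((isCompact_closedBall _ _).prod isCompact_Icc).image hφc
  have hKU : K ⊆ U := by
    rintro _ ⟨⟨z, t⟩, ⟨hz, ht⟩, rfl⟩
    exact hmem z (hcb hz) t ht
  obtain ⟨M₁, hM₁⟩ := hKc.exists_bound_of_continuousOn (hf.continuousOn.mono hKU)
  obtain ⟨M₂, hM₂⟩ := hKc.exists_bound_of_continuousOn (hdc.mono hKU)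
  have huI : Set.uIoc (0 : ℝ) 1 = Ioc 0 1 := Set.uIoc_of_le zero_le_one
  have hcont : ∀ z ∈ U, ContinuousOn (fun t : ℝ => f (c + (t : ℂ) * (z - c))) (Icc 0 1) := by
    intro z hz
    exact hf.continuousOn.comp (by fun_prop) (fun t ht => hmem z hz t ht)
  have hcont' : ∀ z ∈ U, ContinuousOn (fun t : ℝ => deriv f (c + (t : ℂ) * (z - c))) (Icc 0 1) := by
    intro z hz
    exact hdc.comp (by fun_prop) (fun t ht => hmem z hz t ht)
  have key := intervalIntegral.hasDerivAt_integral_of_dominated_loc_of_deriv_le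
    (μ := MeasureTheory.volume) (a := (0 : ℝ)) (b := 1)
    (F := fun (z : ℂ) (t : ℝ) => (z - c) * f (c + (t : ℂ) * (z - c)))
    (F' := fun (z : ℂ) (t : ℝ) => f (c + (t : ℂ) * (z - c)) +
      (z - c) * (deriv f (c + (t : ℂ) * (z - c)) * (t : ℂ)))
    (x₀ := z₀) (s := closedBall z₀ (ε / 2)) (bound := fun _ => M₁ + (‖z₀ - c‖ + ε / 2) * M₂)
    (closedBall_mem_nhds _ (by linarith)) ?_ ?_ ?_ ?_ ?_ ?_
  · have h2 := key.2
    have h3 : ∫ t in (0 : ℝ)..1, (f (c + (t : ℂ) * (z₀ - c)) +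
        (z₀ - c) * (deriv f (c + (t : ℂ) * (z₀ - c)) * (t : ℂ))) = f z₀ := by
      have h4 : ∀ t ∈ uIcc (0 : ℝ) 1, HasDerivAt (fun t : ℝ => (t : ℂ) * f (c + (t : ℂ) * (z₀ - c)))
          (f (c + (t : ℂ) * (z₀ - c)) + (z₀ - c) * (deriv f (c + (t : ℂ) * (z₀ - c)) * (t : ℂ))) t := by
        intro t ht
        rw [uIcc_of_le zero_le_one] at ht
        have e1 : HasDerivAt (fun t : ℝ => (t : ℂ)) 1 t := Complex.ofRealCLM.hasDerivAt
        have e2 : HasDerivAt (fun t : ℝ => c + (t : ℂ) * (z₀ - c)) (z₀ - c) t := by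
          have := (e1.mul_const (z₀ - c)).const_add c
          simpa using this
        have e3 := (hda _ (hmem z₀ hz₀ t ht)).scomp t e2
        have e4 := e1.mul e3
        refine e4.congr_deriv ?_
        simp only [Function.comp, smul_eq_mul, one_mul]
        ring
      rw [intervalIntegral.integral_eq_sub_of_hasDerivAt h4]
      · simp
      · refine ContinuousOn.intervalIntegrable ?_
        rw [uIcc_of_le zero_le_one]
        exact (hcont z₀ hz₀).add (continuousOn_const.mul ((hcont' z₀ hz₀).mul (by fun_prop)))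
    rw [h3] at h2
    exact h2
  · filter_upwards [closedBall_mem_nhds z₀ (show 0 < ε / 2 by linarith)] with z hz
    rw [huI]
    exact ((continuousOn_const.mul (hcont z (hcb hz))).mono Ioc_subset_Icc_self).aestronglyMeasurable
      measurableSet_Ioc
  · refine ContinuousOn.intervalIntegrable ?_
    rw [uIcc_of_le zero_le_one]
    exact continuousOn_const.mul (hcont z₀ hz₀)
  · rw [huI]
    refine ContinuousOn.aestronglyMeasurable (ContinuousOn.mono ?_ Ioc_subset_Icc_self)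
      measurableSet_Ioc
    exact (hcont z₀ hz₀).add (continuousOn_const.mul ((hcont' z₀ hz₀).mul (by fun_prop)))
  · refine Eventually.of_forall fun t ht z hz => ?_
    rw [huI] at ht
    have hK1 : c + (t : ℂ) * (z - c) ∈ K := ⟨(z, t), ⟨hz, ⟨ht.1.le, ht.2⟩⟩, rfl⟩
    have b1 := hM₁ _ hK1
    have b2 := hM₂ _ hK1
    have hM2 : 0 ≤ M₂ := (norm_nonneg _).trans b2
    have b3 : ‖z - c‖ ≤ ‖z₀ - c‖ + ε / 2 := by
      rw [mem_closedBall, dist_eq_norm] at hz
      have := norm_sub_le_norm_sub_add_norm_sub z z₀ c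
      linarith
    have b4 : ‖(t : ℂ)‖ ≤ 1 := by
      rw [norm_real, Real.norm_eq_abs, abs_of_nonneg ht.1.le]
      exact ht.2
    refine (norm_add_le _ _).trans (add_le_add b1 ?_)
    rw [norm_mul, norm_mul]
    have b5 : ‖deriv f (c + (t : ℂ) * (z - c))‖ * ‖(t : ℂ)‖ ≤ M₂ := by
      calc _ ≤ M₂ * 1 := by gcongr
        _ = M₂ := mul_one _
    gcongr
  · exact intervalIntegrable_const
  · refine Eventually.of_forall fun t ht z hz => ?_
    rw [huI] at ht
    have e2 : HasDerivAt (fun z : ℂ => c + (t : ℂ) * (z - c)) (t : ℂ) z := by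
      have := (((hasDerivAt_id z).sub_const c).const_mul (t : ℂ)).const_add c
      simpa using this
    have e3 := (hda _ (hmem z (hcb hz) t ⟨ht.1.le, ht.2⟩)).comp z e2
    have e4 := ((hasDerivAt_id z).sub_const c).mul e3
    refine e4.congr_deriv ?_
    simp only [Function.comp, id, one_mul]


/-- sawtooth domain: union of the truncated cones with vertices in `K` -/
def saw (k h : ℝ) (K : Set ℝ) : Set ℂ := ⋃ x ∈ K, cone k h x

theorem mem_saw {k h : ℝ} {K : Set ℝ} {z : ℂ} : z ∈ saw k h K ↔ ∃ x ∈ K, z ∈ cone k h x := by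
  simp [saw]

theorem isOpen_saw (k h : ℝ) (K : Set ℝ) : IsOpen (saw k h K) :=
  isOpen_biUnion fun x _ => isOpen_cone k h x

theorem saw_im_pos {k h : ℝ} {K : Set ℝ} (hk : 0 < k) {z : ℂ} (hz : z ∈ saw k h K) :
    0 < z.im := by
  obtain ⟨x, _, hx⟩ := mem_saw.mp hz
  exact cone_im_pos hk hx

theorem saw_mono {k k' h h' : ℝ} {K K' : Set ℝ} (hk : 0 < k) (hkk : k ≤ k') (hh : h ≤ h')
    (hK : K ⊆ K') : saw k h K ⊆ saw k' h' K' := by
  intro z hz
  obtain ⟨x, hxK, hx⟩ := mem_saw.mp hz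
  exact mem_saw.mpr ⟨x, hK hxK, cone_mono hk hkk hh hx⟩

theorem isBounded_saw {k h : ℝ} {K : Set ℝ} (hk : 0 < k) (hK : Bornology.IsBounded K) :
    Bornology.IsBounded (saw k h K) := by
  obtain ⟨R, hR⟩ := hK.exists_norm_le
  rw [isBounded_iff_forall_norm_le]
  refine ⟨|R| + k * |h| + |h|, fun z hz => ?_⟩
  obtain ⟨x, hxK, hx⟩ := mem_saw.mp hz
  have h1 := cone_im_pos hk hx
  have h2 : |x| ≤ |R| := (hR x hxK).trans (le_abs_self _)
  have h3 : z.im ≤ |h| := hx.2.le.trans (le_abs_self _)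
  have h4 : |z.re| ≤ |z.re - x| + |x| := by
    have := abs_add_le (z.re - x) x
    simpa using this
  have h5 : |z.re - x| ≤ k * |h| := hx.1.le.trans (mul_le_mul_of_nonneg_left h3 hk.le)
  have h6 : ‖z‖ ≤ |z.re| + |z.im| := Complex.norm_le_abs_re_add_abs_im z
  rw [abs_of_pos h1] at h6
  linarith

/-- closure of a sawtooth domain with compact base -/
theorem closure_saw {k h : ℝ} {K : Set ℝ} (hK : IsCompact K) {z : ℂ}
    (hz : z ∈ closure (saw k h K)) : ∃ x ∈ K, |z.re - x| ≤ k * z.im ∧ z.im ≤ h := by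
  obtain ⟨u, hu, huz⟩ := mem_closure_iff_seq_limit.mp hz
  have h1 : ∀ n, ∃ x ∈ K, u n ∈ cone k h x := fun n => mem_saw.mp (hu n)
  choose x hxK hx using h1
  obtain ⟨y, hyK, φ, hφ, hy⟩ := hK.tendsto_subseq hxK
  refine ⟨y, hyK, ?_, ?_⟩
  · have h2 : Tendsto (fun n => |(u (φ n)).re - x (φ n)|) atTop (𝓝 |z.re - y|) :=
      (((Complex.continuous_re.tendsto z).comp (huz.comp hφ.tendsto_atTop)).sub hy).abs
    have h3 : Tendsto (fun n => k * (u (φ n)).im) atTop (𝓝 (k * z.im)) :=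
      ((Complex.continuous_im.tendsto z).comp (huz.comp hφ.tendsto_atTop)).const_mul k
    exact le_of_tendsto_of_tendsto' h2 h3 fun n => (hx (φ n)).1.le
  · have h3 : Tendsto (fun n => (u n).im) atTop (𝓝 z.im) :=
      (Complex.continuous_im.tendsto z).comp huz
    exact le_of_tendsto' h3 fun n => (hx n).2.le

/-- a sawtooth with a short base is star shaped -/
theorem starConvex_saw {k h : ℝ} {K : Set ℝ} {c : ℂ} (hc : ∀ x ∈ K, c ∈ cone k h x) :
    StarConvex ℝ c (saw k h K) := by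
  intro z hz a b ha hb hab
  obtain ⟨x, hxK, hx⟩ := mem_saw.mp hz
  exact mem_saw.mpr ⟨x, hxK, (convex_cone k h x) (hc x hxK) hx ha hb hab⟩

/-- the set of points over which `f` is defined and bounded by `M` on the cone is closed -/
theorem isClosed_coneBound {k h M : ℝ} {D : Set ℂ} {f : ℂ → ℂ} :
    IsClosed {x : ℝ | cone k h x ⊆ D ∧ ∀ z ∈ cone k h x, ‖f z‖ ≤ M} := by
  rw [← isOpen_compl_iff, isOpen_iff_mem_nhds]
  intro x hx
  simp only [mem_compl_iff, mem_ofPred_eq, not_and_or, not_subset, not_forall] at hx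
  have hop : ∀ z : ℂ, z ∈ cone k h x → ∀ᶠ y in 𝓝 x, z ∈ cone k h y := by
    intro z hz
    have h1 : ∀ᶠ y in 𝓝 x, |z.re - y| < k * z.im :=
      (isOpen_lt (by fun_prop) (by fun_prop)).mem_nhds hz.1
    filter_upwards [h1] with y hy using ⟨hy, hz.2⟩
  rcases hx with ⟨z, hz, hzD⟩ | ⟨z, hz, hzM⟩
  · filter_upwards [hop z hz] with y hy hcon
    exact hzD (hcon.1 hy)
  · filter_upwards [hop z hz] with y hy hcon
    exact hzM (hcon.2 z hy)

end Vale.Agent.P097.H877.Bd
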