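import Vale.Agent.P097.H877.Bd.Saw

/-!
Schwarz reflection for bounded holomorphic functions with real boundary values almost everywhere,
and the Hopf lemma.
-/

open Complex Metric Filter Topology Set MeasureTheory

namespace Vale.Agent.P097.H877.Bd

/-- open square with centre `y₀` on the real axis -/
def sq (y₀ r : ℝ) : Set ℂ := {z | |z.re - y₀| < r ∧ |z.im| < r}

/-- upper half of the open square -/
def sqp (y₀ r : ℝ) : Set ℂ := {z | |z.re - y₀| < r ∧ 0 < z.im ∧ z.im < r}

theorem isOpen_sq (y₀ r : ℝ) : IsOpen (sq y₀ r) := by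
  have h1 : IsOpen {z : ℂ | |z.re - y₀| < r} := isOpen_lt (by fun_prop) (by fun_prop)
  have h2 : IsOpen {z : ℂ | |z.im| < r} := isOpen_lt (by fun_prop) (by fun_prop)
  exact h1.inter h2

theorem isOpen_sqp (y₀ r : ℝ) : IsOpen (sqp y₀ r) := by
  have h1 : IsOpen {z : ℂ | |z.re - y₀| < r} := isOpen_lt (by fun_prop) (by fun_prop)
  have h2 : IsOpen {z : ℂ | 0 < z.im} := isOpen_lt (by fun_prop) (by fun_prop)
  have h3 : IsOpen {z : ℂ | z.im < r} := isOpen_lt (by fun_prop) (by fun_prop)
  exact h1.inter (h2.inter h3)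

theorem sqp_subset (y₀ r : ℝ) : sqp y₀ r ⊆ sq y₀ r := fun z hz =>
  ⟨hz.1, by rw [abs_of_pos hz.2.1]; exact hz.2.2⟩

theorem convex_sqp (y₀ r : ℝ) : Convex ℝ (sqp y₀ r) := by
  have e : sqp y₀ r = (Complex.reLm ⁻¹' (Ioo (y₀ - r) (y₀ + r))) ∩ (Complex.imLm ⁻¹' (Ioo 0 r)) := by
    ext z
    simp only [sqp, mem_inter_iff, mem_preimage, mem_Ioo, abs_lt, Complex.reLm_coe,
      Complex.imLm_coe]
    constructor
    · rintro ⟨⟨h1, h2⟩, h3, h4⟩
      exact ⟨⟨by linarith, by linarith⟩, h3, h4⟩
    · rintro ⟨⟨h1, h2⟩, h3, h4⟩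
      exact ⟨⟨by linarith, by linarith⟩, h3, h4⟩
  rw [e]
  exact ((convex_Ioo _ _).linear_preimage _).inter ((convex_Ioo _ _).linear_preimage _)

/-- Morera: a continuous function, holomorphic off the real axis, is holomorphic -/
theorem morera_line {U : Set ℂ} (hU : IsOpen U) {F : ℂ → ℂ} (hc : ContinuousOn F U)
    (hd : ∀ z ∈ U, z.im ≠ 0 → DifferentiableAt ℂ F z) : DifferentiableOn ℂ F U := by
  rw [← isConservativeOn_and_continuousOn_iff_isDifferentiableOn hU]
  refine ⟨?_, hc⟩
  -- rectangles on one side of the axis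
  have hside : ∀ z w : ℂ, Rectangle z w ⊆ U →
      (0 ≤ min z.im w.im ∨ max z.im w.im ≤ 0) →
      (∫ x : ℝ in z.re..w.re, F (x + z.im * I)) - (∫ x : ℝ in z.re..w.re, F (x + w.im * I)) +
      I • (∫ y : ℝ in z.im..w.im, F (w.re + y * I)) -
      I • (∫ y : ℝ in z.im..w.im, F (z.re + y * I)) = 0 := by
    intro z w hzw hcase
    refine Complex.integral_boundary_rect_eq_zero_of_continuousOn_of_differentiableOn F z w
      (hc.mono hzw) ?_
    intro x hx
    have hxR : x ∈ Rectangle z w := by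
      rw [Rectangle, Complex.mem_reProdIm]
      rw [Complex.mem_reProdIm] at hx
      exact ⟨by rw [uIcc]; exact Ioo_subset_Icc_self hx.1, by rw [uIcc]; exact Ioo_subset_Icc_self hx.2⟩
    refine (hd x (hzw hxR) ?_).differentiableWithinAt
    rw [Complex.mem_reProdIm] at hx
    rcases hcase with h | h
    · exact (h.trans_lt hx.2.1).ne'
    · exact (hx.2.2.trans_le h).ne
  have hall : ∀ z w : ℂ, Rectangle z w ⊆ U →
      (∫ x : ℝ in z.re..w.re, F (x + z.im * I)) - (∫ x : ℝ in z.re..w.re, F (x + w.im * I)) +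
      I • (∫ y : ℝ in z.im..w.im, F (w.re + y * I)) -
      I • (∫ y : ℝ in z.im..w.im, F (z.re + y * I)) = 0 := by
    intro z w hzw
    by_cases hcase : 0 ≤ min z.im w.im ∨ max z.im w.im ≤ 0
    · exact hside z w hzw hcase
    push Not at hcase
    have hmem : (0 : ℝ) ∈ uIcc z.im w.im := ⟨hcase.1.le, hcase.2.le⟩
    -- two sub-rectangles
    set p : ℂ := ⟨w.re, 0⟩ with hp
    set q : ℂ := ⟨z.re, 0⟩ with hq
    have hsub1 : Rectangle z p ⊆ Rectangle z w := by
      intro x hx
      rw [Rectangle, Complex.mem_reProdIm] at hx ⊢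
      exact ⟨hx.1, uIcc_subset_uIcc_left hmem hx.2⟩
    have hsub2 : Rectangle q w ⊆ Rectangle z w := by
      intro x hx
      rw [Rectangle, Complex.mem_reProdIm] at hx ⊢
      exact ⟨hx.1, uIcc_subset_uIcc_right hmem hx.2⟩
    have h1 := hside z p (hsub1.trans hzw) (by
      show 0 ≤ min z.im 0 ∨ max z.im 0 ≤ 0
      rcases le_total 0 z.im with h | h
      · left; exact le_min h le_rfl
      · right; exact max_le h le_rfl)
    have h2 := hside q w (hsub2.trans hzw) (by
      show 0 ≤ min 0 w.im ∨ max 0 w.im ≤ 0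
      rcases le_total 0 w.im with h | h
      · left; exact le_min le_rfl h
      · right; exact max_le le_rfl h)
    have hint : ∀ a : ℝ, a ∈ uIcc z.re w.re → ∀ s t : ℝ, s ∈ uIcc z.im w.im →
        t ∈ uIcc z.im w.im → IntervalIntegrable (fun y : ℝ => F (a + y * I)) volume s t := by
      intro a ha s t hs ht
      refine ContinuousOn.intervalIntegrable ?_
      refine (hc.mono hzw).comp (by fun_prop) ?_
      intro y hy
      rw [Rectangle, Complex.mem_reProdIm]
      refine ⟨by simpa using ha, ?_⟩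
      have : uIcc s t ⊆ uIcc z.im w.im := uIcc_subset_uIcc hs ht
      simpa using this hy
    have e1 := intervalIntegral.integral_add_adjacent_intervals
      (hint w.re right_mem_uIcc z.im 0 left_mem_uIcc hmem)
      (hint w.re right_mem_uIcc 0 w.im hmem right_mem_uIcc)
    have e2 := intervalIntegral.integral_add_adjacent_intervals
      (hint z.re left_mem_uIcc z.im 0 left_mem_uIcc hmem)
      (hint z.re left_mem_uIcc 0 w.im hmem right_mem_uIcc)
    rw [← e1, ← e2]
    simp only [hp, hq, smul_eq_mul, Complex.ofReal_zero, zero_mul, add_zero] at h1 h2 ⊢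
    linear_combination h1 + h2
  intro z w hzw
  have h1 := wedgeIntegral_add_wedgeIntegral_eq z w F
  rw [hall z w hzw] at h1
  exact eq_neg_of_add_eq_zero_left h1

/-- **Schwarz reflection principle** for bounded holomorphic functions whose imaginary part has
vertical boundary values `0` almost everywhere -/
theorem schwarz_flat {y₀ r : ℝ} (hr : 0 < r) {θ : ℂ → ℂ} (hθ : DifferentiableOn ℂ θ (sqp y₀ r))
    {M : ℝ} (hb : ∀ z ∈ sqp y₀ r, ‖θ z‖ ≤ M)
    (hbd : ∀ᵐ x : ℝ, |x - y₀| < r →
      Tendsto (fun η : ℝ => (θ (x + η * I)).im) (𝓝[>] 0) (𝓝 0)) :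
    ∃ Θ : ℂ → ℂ, DifferentiableOn ℂ Θ (sq y₀ r) ∧ EqOn Θ θ (sqp y₀ r) ∧
      (∀ x : ℝ, |x - y₀| < r → (Θ x).im = 0) ∧
      ∀ z ∈ sq y₀ r, Θ ((starRingEnd ℂ) z) = (starRingEnd ℂ) (Θ z) := by
  have hM : 0 ≤ M := by
    have h0 : (⟨y₀, r / 2⟩ : ℂ) ∈ sqp y₀ r := ⟨by simpa using hr, by simpa using hr, by
      show r / 2 < r
      linarith⟩
    exact (norm_nonneg _).trans (hb _ h0)
  obtain ⟨c₀, hc₀⟩ : ∃ c₀ : ℂ, c₀ ∈ sqp y₀ r := ⟨⟨y₀, r / 2⟩, by simpa using hr, by simpa using hr, by
      show r / 2 < r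
      linarith⟩
  obtain ⟨G, hG⟩ := prim_star (isOpen_sqp y₀ r) ((convex_sqp y₀ r).starConvex hc₀) hθ
  have hGl : LipschitzOnWith (Real.toNNReal M) G (sqp y₀ r) := by
    refine (convex_sqp y₀ r).lipschitzOnWith_of_nnnorm_hasDerivWithin_le
      (f' := θ) (fun z hz => (hG z hz).hasDerivWithinAt) ?_
    intro z hz
    rw [← NNReal.coe_le_coe, coe_nnnorm, Real.coe_toNNReal M hM]
    exact hb z hz
  obtain ⟨g, hgl, hgG⟩ := hGl.extend_finite_dimension
  have hgc : Continuous g := hgl.continuous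
  have hgd : ∀ z ∈ sqp y₀ r, HasDerivAt g (θ z) z := by
    intro z hz
    refine (hG z hz).congr_of_eventuallyEq ?_
    filter_upwards [(isOpen_sqp y₀ r).mem_nhds hz] with w hw
    exact (hgG hw).symm
  -- the imaginary part of `g` is constant on the real segment
  have hconst : ∀ x₁ x₂ : ℝ, |x₁ - y₀| < r → |x₂ - y₀| < r → (g x₁).im = (g x₂).im := by
    intro x₁ x₂ h1 h2
    have hseg : ∀ x ∈ uIcc x₁ x₂, |x - y₀| < r := by
      intro x hx
      rw [abs_lt] at h1 h2 ⊢
      rcases le_total x₁ x₂ with h | h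
      · rw [uIcc_of_le h] at hx
        constructor <;> linarith [hx.1, hx.2]
      · rw [uIcc_of_ge h] at hx
        constructor <;> linarith [hx.1, hx.2]
    -- for small `η > 0`
    have hη : ∀ η : ℝ, 0 < η → η < r →
        (g (x₂ + η * I)).im - (g (x₁ + η * I)).im = ∫ x in x₁..x₂, (θ (x + η * I)).im := by
      intro η hη0 hηr
      have hmem : ∀ x ∈ uIcc x₁ x₂, ((x : ℂ) + η * I) ∈ sqp y₀ r := by
        intro x hx
        refine ⟨by simpa using hseg x hx, by simpa using hη0, by simpa using hηr⟩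
      have hd : ∀ x ∈ uIcc x₁ x₂,
          HasDerivAt (fun x : ℝ => (g (x + η * I)).im) ((θ (x + η * I)).im) x := by
        intro x hx
        have h3 : HasDerivAt (fun x : ℝ => (x : ℂ) + η * I) 1 x := by
          simpa using (Complex.ofRealCLM.hasDerivAt (x := x)).add_const ((η : ℂ) * I)
        have h4 : HasDerivAt (fun x : ℝ => g (x + η * I)) (θ (x + η * I)) x := by
          have := (hgd _ (hmem x hx)).comp x h3
          simpa [Function.comp_def] using this
        have h5 := (Complex.imCLM.hasFDerivAt (x := g (x + η * I))).comp_hasDerivAt x h4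
        simpa [Function.comp_def] using h5
      rw [intervalIntegral.integral_eq_sub_of_hasDerivAt hd]
      refine ContinuousOn.intervalIntegrable ?_
      refine Complex.continuous_im.comp_continuousOn ?_
      exact hθ.continuousOn.comp (by fun_prop) hmem
    have hlim : Tendsto (fun η : ℝ => ∫ x in x₁..x₂, (θ (x + η * I)).im) (𝓝[>] 0)
        (𝓝 (∫ _x in x₁..x₂, (0 : ℝ))) := by
      refine intervalIntegral.tendsto_integral_filter_of_dominated_convergence (fun _ => M) ?_ ?_
        (by simp) ?_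
      · have h3 : ∀ᶠ η : ℝ in 𝓝[>] 0, η ∈ Ioo 0 r := Ioo_mem_nhdsGT hr
        filter_upwards [h3] with η hη1
        refine ContinuousOn.aestronglyMeasurable ?_ measurableSet_uIoc
        refine Complex.continuous_im.comp_continuousOn ?_
        refine hθ.continuousOn.comp (by fun_prop) ?_
        intro x hx
        exact ⟨by simpa using hseg x (uIoc_subset_uIcc hx), by simpa using hη1.1,
          by simpa using hη1.2⟩
      · have h3 : ∀ᶠ η : ℝ in 𝓝[>] 0, η ∈ Ioo 0 r := Ioo_mem_nhdsGT hr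
        filter_upwards [h3] with η hη1
        refine Eventually.of_forall fun x hx => ?_
        rw [Real.norm_eq_abs]
        refine (Complex.abs_im_le_norm _).trans (hb _ ?_)
        exact ⟨by simpa using hseg x (uIoc_subset_uIcc hx), by simpa using hη1.1,
          by simpa using hη1.2⟩
      · filter_upwards [hbd] with x hx hxI
        exact hx (hseg x (uIoc_subset_uIcc hxI))
    have hlim2 : Tendsto (fun η : ℝ => (g (x₂ + η * I)).im - (g (x₁ + η * I)).im) (𝓝[>] 0)
        (𝓝 ((g x₂).im - (g x₁).im)) := by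
      have h3 : Continuous (fun η : ℝ => (g (x₂ + η * I)).im - (g (x₁ + η * I)).im) := by
        fun_prop
      have h4 := (h3.tendsto 0).mono_left (nhdsWithin_le_nhds (s := Ioi (0:ℝ)))
      simpa using h4
    have heq : (fun η : ℝ => (g (x₂ + η * I)).im - (g (x₁ + η * I)).im) =ᶠ[𝓝[>] 0]
        fun η : ℝ => ∫ x in x₁..x₂, (θ (x + η * I)).im := by
      have h3 : ∀ᶠ η : ℝ in 𝓝[>] 0, η ∈ Ioo 0 r := Ioo_mem_nhdsGT hr
      filter_upwards [h3] with η hη1
      exact hη η hη1.1 hη1.2
    have h5 := tendsto_nhds_unique (hlim2.congr' heq) hlim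
    simp only [intervalIntegral.integral_zero] at h5
    linarith
  set c : ℝ := (g y₀).im with hc
  have hreal : ∀ x : ℝ, |x - y₀| < r → (g x).im = c := fun x hx =>
    hconst x y₀ hx (by simpa using hr)
  -- the reflected function
  set F₀ : ℂ → ℂ := fun z => g z - c * I with hF₀
  set F : ℂ → ℂ := fun z => if 0 ≤ z.im then F₀ z else (starRingEnd ℂ) (F₀ ((starRingEnd ℂ) z))
    with hF
  have hF₀c : Continuous F₀ := by rw [hF₀]; fun_prop
  have hF₀r : ∀ z ∈ sq y₀ r, z.im = 0 → (starRingEnd ℂ) (F₀ z) = F₀ z := by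
    intro z hz hz0
    have e1 : z = (z.re : ℂ) := Complex.ext (by simp) (by simpa using hz0)
    rw [Complex.conj_eq_iff_im]
    rw [e1]
    simp only [hF₀, Complex.sub_im, Complex.mul_im, Complex.ofReal_re, Complex.I_im, mul_one,
      Complex.ofReal_im, Complex.I_re, mul_zero, add_zero]
    rw [hreal z.re hz.1, sub_self]
  have hconj : ∀ z ∈ sq y₀ r, (starRingEnd ℂ) z ∈ sq y₀ r := by
    intro z hz
    exact ⟨by simpa using hz.1, by simpa using hz.2⟩
  have hFconj : ∀ z ∈ sq y₀ r, F ((starRingEnd ℂ) z) = (starRingEnd ℂ) (F z) := by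
    intro z hz
    simp only [hF, Complex.conj_im, Left.nonneg_neg_iff, Complex.conj_conj]
    rcases lt_trichotomy z.im 0 with h | h | h
    · rw [if_pos h.le, if_neg (not_le.mpr h), Complex.conj_conj]
    · rw [if_pos h.le, if_pos h.ge]
      have e1 : (starRingEnd ℂ) z = z := Complex.conj_eq_iff_im.mpr h
      rw [e1, hF₀r z hz h]
    · rw [if_neg (not_le.mpr h), if_pos h.le]
  have hFc : ContinuousOn F (sq y₀ r) := by
    have h1 : ContinuousOn F (sq y₀ r ∩ {z | 0 ≤ z.im}) := by
      refine hF₀c.continuousOn.congr ?_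
      intro z hz
      have h0 : 0 ≤ z.im := hz.2
      simp only [hF]
      rw [if_pos h0]
    have h2 : ContinuousOn F (sq y₀ r ∩ {z | z.im ≤ 0}) := by
      have h3 : Continuous fun z => (starRingEnd ℂ) (F₀ ((starRingEnd ℂ) z)) :=
        Complex.continuous_conj.comp (hF₀c.comp Complex.continuous_conj)
      refine h3.continuousOn.congr ?_
      intro z hz
      have h0 : z.im ≤ 0 := hz.2
      simp only [hF]
      rcases h0.eq_or_lt with h | h
      · rw [if_pos h.ge, Complex.conj_eq_iff_im.mpr h]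
        exact (hF₀r z hz.1 h).symm
      · rw [if_neg (not_le.mpr h)]
    intro z hz
    have hcl1 : IsClosed {z : ℂ | 0 ≤ z.im} := isClosed_le continuous_const (by fun_prop)
    have hcl2 : IsClosed {z : ℂ | z.im ≤ 0} := isClosed_le (by fun_prop) continuous_const
    rcases lt_trichotomy z.im 0 with h | h | h
    · have h4 := (h2 z ⟨hz, h.le⟩)
      refine h4.mono_of_mem_nhdsWithin ?_
      have : {z : ℂ | z.im < 0} ∈ 𝓝 z :=
        (isOpen_lt Complex.continuous_im continuous_const).mem_nhds h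
      exact Filter.inter_mem self_mem_nhdsWithin
        (mem_nhdsWithin_of_mem_nhds (Filter.mem_of_superset this
          fun w (hw : w.im < 0) => show w.im ≤ 0 from hw.le))
    · have h4 := (h1 z ⟨hz, h.ge⟩).union (h2 z ⟨hz, h.le⟩)
      refine h4.mono ?_
      intro w hw
      rcases le_total 0 w.im with h5 | h5
      · exact Or.inl ⟨hw, h5⟩
      · exact Or.inr ⟨hw, h5⟩
    · have h4 := (h1 z ⟨hz, h.le⟩)
      refine h4.mono_of_mem_nhdsWithin ?_
      have : {z : ℂ | 0 < z.im} ∈ 𝓝 z :=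
        (isOpen_lt continuous_const Complex.continuous_im).mem_nhds h
      exact Filter.inter_mem self_mem_nhdsWithin
        (mem_nhdsWithin_of_mem_nhds (Filter.mem_of_superset this
          fun w (hw : 0 < w.im) => show 0 ≤ w.im from hw.le))
  have hFup : ∀ z ∈ sqp y₀ r, HasDerivAt F (θ z) z := by
    intro z hz
    have h1 : HasDerivAt F₀ (θ z) z := (hgd z hz).sub_const _
    refine h1.congr_of_eventuallyEq ?_
    filter_upwards [(isOpen_sqp y₀ r).mem_nhds hz] with w hw
    simp only [hF]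
    rw [if_pos hw.2.1.le]
  have hFd : DifferentiableOn ℂ F (sq y₀ r) := by
    refine morera_line (isOpen_sq y₀ r) hFc ?_
    intro z hz hz0
    rcases lt_or_gt_of_ne hz0 with h | h
    · -- lower half
      have hz' : (starRingEnd ℂ) z ∈ sqp y₀ r := by
        refine ⟨by simpa using hz.1, by simpa using h, ?_⟩
        have := hz.2
        rw [abs_of_neg h] at this
        simpa using this
      have h1 : DifferentiableAt ℂ F₀ ((starRingEnd ℂ) z) :=
        ((hgd _ hz').sub_const _).differentiableAt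
      have h2 : DifferentiableAt ℂ ((starRingEnd ℂ) ∘ F₀ ∘ (starRingEnd ℂ)) z :=
        differentiableAt_conj_conj_iff.mpr h1
      refine h2.congr_of_eventuallyEq ?_
      have : {z : ℂ | z.im < 0} ∈ 𝓝 z :=
        (isOpen_lt Complex.continuous_im continuous_const).mem_nhds h
      filter_upwards [this] with w hw
      simp only [hF, Function.comp_apply]
      rw [if_neg (not_le.mpr hw)]
    · have hz' : z ∈ sqp y₀ r := ⟨hz.1, h, by
        have := hz.2
        rwa [abs_of_pos h] at this⟩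
      exact (hFup z hz').differentiableAt
  refine ⟨deriv F, hFd.deriv (isOpen_sq y₀ r), fun z hz => (hFup z hz).deriv, ?_, ?_⟩
  · intro x hx
    have hxs : (x : ℂ) ∈ sq y₀ r := ⟨by simpa using hx, by simpa using hr⟩
    have h1 : HasDerivAt F (deriv F x) (x : ℂ) :=
      (hFd.differentiableAt ((isOpen_sq y₀ r).mem_nhds hxs)).hasDerivAt
    have h2 : HasDerivAt (fun t : ℝ => (F t).im) ((deriv F x).im) x := by
      have h3 : HasDerivAt (fun t : ℝ => F t) (deriv F x) x := h1.comp_ofReal
      have h5 := (Complex.imCLM.hasFDerivAt (x := F x)).comp_hasDerivAt x h3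
      simpa [Function.comp_def] using h5
    have h6 : (fun t : ℝ => (F t).im) =ᶠ[𝓝 x] fun _ => (0 : ℝ) := by
      have h7 : {t : ℝ | |t - y₀| < r} ∈ 𝓝 x :=
        (isOpen_lt (by fun_prop) continuous_const).mem_nhds hx
      filter_upwards [h7] with t ht
      have h8 := hFconj (t : ℂ) ⟨by simpa using ht, by simpa using hr⟩
      rw [Complex.conj_ofReal] at h8
      exact Complex.conj_eq_iff_im.mp h8.symm
    have h9 : HasDerivAt (fun t : ℝ => (F t).im) 0 x :=
      (hasDerivAt_const x (0 : ℝ)).congr_of_eventuallyEq h6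
    exact h2.unique h9
  · intro z hz
    have h1 : HasDerivAt F (deriv F z) z :=
      (hFd.differentiableAt ((isOpen_sq y₀ r).mem_nhds hz)).hasDerivAt
    have h2 := h1.conj_conj
    have h3 : F =ᶠ[𝓝 ((starRingEnd ℂ) z)] (starRingEnd ℂ) ∘ F ∘ (starRingEnd ℂ) := by
      filter_upwards [(isOpen_sq y₀ r).mem_nhds (hconj z hz)] with w hw
      rw [Function.comp_apply, Function.comp_apply, hFconj w hw, Complex.conj_conj]
    exact (h2.congr_of_eventuallyEq h3).deriv

/-- **Hopf lemma**: a holomorphic function which is real on the real axis and has positive imaginary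
part above it has a positive derivative at the real points -/
theorem hopf {Θ : ℂ → ℂ} {x : ℝ} (hΘ : AnalyticAt ℂ Θ x) (hre : ∀ᶠ t : ℝ in 𝓝 x, (Θ t).im = 0)
    (hpos : ∀ᶠ z : ℂ in 𝓝 (x : ℂ), 0 < z.im → 0 < (Θ z).im) :
    (deriv Θ x).im = 0 ∧ 0 < (deriv Θ x).re := by
  have hx0 : (Θ x).im = 0 := hre.self_of_nhds
  -- the derivative is real
  have hd : HasDerivAt Θ (deriv Θ x) (x : ℂ) := hΘ.differentiableAt.hasDerivAt
  have him : (deriv Θ x).im = 0 := by
    have h3 : HasDerivAt (fun t : ℝ => Θ t) (deriv Θ x) x := hd.comp_ofReal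
    have h5 : HasDerivAt (fun t : ℝ => (Θ t).im) ((deriv Θ x).im) x := by
      have := (Complex.imCLM.hasFDerivAt (x := Θ x)).comp_hasDerivAt x h3
      simpa [Function.comp_def] using this
    have h6 : (fun t : ℝ => (Θ t).im) =ᶠ[𝓝 x] fun _ => (0 : ℝ) := hre
    exact h5.unique ((hasDerivAt_const x (0 : ℝ)).congr_of_eventuallyEq h6)
  refine ⟨him, ?_⟩
  -- `φ = Θ - Θ x` is not identically zero
  have hφ : AnalyticAt ℂ (fun z => Θ z - Θ x) x := hΘ.sub analyticAt_const
  have hnz : ¬ ∀ᶠ z in 𝓝 (x : ℂ), Θ z - Θ x = 0 := by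
    intro h
    obtain ⟨ε, hε, h1⟩ := Metric.eventually_nhds_iff.mp (h.and hpos)
    have h2 : dist (x + (ε / 2 : ℝ) * I : ℂ) x < ε := by
      rw [dist_eq_norm, add_sub_cancel_left, norm_mul, Complex.norm_I, mul_one, Complex.norm_real,
        Real.norm_eq_abs, abs_of_pos (by positivity)]
      linarith
    obtain ⟨h3, h4⟩ := h1 h2
    have h5 := h4 (by simpa using hε)
    rw [sub_eq_zero] at h3
    rw [h3, hx0] at h5
    exact lt_irrefl _ h5
  obtain ⟨k, g, hg, hg0, hgk⟩ := hφ.exists_eventuallyEq_pow_smul_nonzero_iff.mpr hnz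
  -- the cone inequality
  have key : ∀ e : ℂ, 0 < e.im → 0 ≤ (e ^ k * g x).im := by
    intro e he
    have hc : Tendsto (fun t : ℝ => (x : ℂ) + t * e) (𝓝[>] 0) (𝓝 (x : ℂ)) := by
      have h1 : Continuous fun t : ℝ => (x : ℂ) + t * e := by fun_prop
      have h2 := (h1.tendsto 0).mono_left (nhdsWithin_le_nhds (s := Ioi (0:ℝ)))
      simpa using h2
    have h3 : Tendsto (fun t : ℝ => (e ^ k * g (x + t * e)).im) (𝓝[>] 0) (𝓝 (e ^ k * g x).im) := by
      have h4 : Tendsto (fun t : ℝ => e ^ k * g (x + t * e)) (𝓝[>] 0) (𝓝 (e ^ k * g x)) :=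
        (hg.continuousAt.tendsto.comp hc).const_mul _
      exact (Complex.continuous_im.tendsto _).comp h4
    refine ge_of_tendsto h3 ?_
    filter_upwards [hc.eventually hgk, hc.eventually hpos, self_mem_nhdsWithin] with t h5 h6 h7
    have ht : (0:ℝ) < t := h7
    have h8 : 0 < (Θ (x + t * e)).im := h6 (by simpa using mul_pos ht he)
    have h9 : (Θ (x + t * e)).im = t ^ k * (e ^ k * g (x + t * e)).im := by
      have h10 : Θ (x + t * e) = Θ x + ((t : ℝ) ^ k : ℝ) * (e ^ k * g (x + t * e)) := by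
        rw [add_sub_cancel_left, smul_eq_mul, sub_eq_iff_eq_add] at h5
        rw [h5]
        push_cast
        ring
      rw [h10]
      simp only [Complex.add_im, hx0, zero_add, Complex.im_ofReal_mul]
    rw [h9] at h8
    exact ((mul_pos_iff_of_pos_left (pow_pos ht k)).mp h8).le
  have hk0 : k ≠ 0 := by
    intro h
    subst h
    have h1 := hgk.self_of_nhds
    simp at h1
    exact hg0 h1.symm
  have hk1 : k = 1 := by
    by_contra hne
    have hk2 : 2 ≤ k := by omega
    have hkR : (2 : ℝ) ≤ k := by exact_mod_cast hk2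
    -- the four directions
    have h4 : ∀ j : ℕ, j ≤ 3 → 0 ≤ ((Complex.exp ((Real.pi / 4 + j * (Real.pi / 2) : ℝ) * I)) * g x).im := by
      intro j hj
      have hjR : (j : ℝ) ≤ 3 := by exact_mod_cast hj
      have hj0 : (0 : ℝ) ≤ j := Nat.cast_nonneg j
      have h5 := key (Complex.exp (((Real.pi / 4 + j * (Real.pi / 2)) / k : ℝ) * I)) (by
        rw [Complex.exp_ofReal_mul_I_im]
        apply Real.sin_pos_of_pos_of_lt_pi
        · have := Real.pi_pos
          positivity
        · rw [div_lt_iff₀ (by linarith)]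
          nlinarith [Real.pi_pos])
      rw [← Complex.exp_nat_mul] at h5
      have h6 : (k : ℂ) * ((((Real.pi / 4 + j * (Real.pi / 2)) / k : ℝ) : ℂ) * I) =
          ((Real.pi / 4 + j * (Real.pi / 2) : ℝ) : ℂ) * I := by
        rw [← mul_assoc]
        congr 1
        have : (k : ℂ) = ((k : ℝ) : ℂ) := by push_cast; rfl
        rw [this, ← Complex.ofReal_mul]
        congr 1
        field_simp
      rwa [h6] at h5
    have hr : ∀ j : ℕ, Complex.exp ((Real.pi / 4 + j * (Real.pi / 2) : ℝ) * I) =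
        I ^ j * Complex.exp ((Real.pi / 4 : ℝ) * I) := by
      intro j
      have h5 : ((Real.pi / 4 + j * (Real.pi / 2) : ℝ) : ℂ) * I =
          (j : ℂ) * ((Real.pi : ℂ) / 2 * I) + ((Real.pi / 4 : ℝ) : ℂ) * I := by
        push_cast; ring
      rw [h5, Complex.exp_add, Complex.exp_nat_mul, Complex.exp_pi_div_two_mul_I]
    set h := Complex.exp ((Real.pi / 4 : ℝ) * I) * g x with hh
    have e0 := h4 0 (by norm_num)
    have e1 := h4 1 (by norm_num)
    have e2 := h4 2 (by norm_num)
    have e3 := h4 3 (by norm_num)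
    rw [hr, mul_assoc, ← hh] at e0 e1 e2 e3
    have i3 : I ^ 3 = -I := by rw [pow_succ, I_sq]; ring
    rw [pow_zero, one_mul] at e0
    rw [pow_one, Complex.mul_im, Complex.I_re, Complex.I_im, zero_mul, one_mul, zero_add] at e1
    rw [I_sq, neg_one_mul, Complex.neg_im] at e2
    rw [i3, neg_mul, Complex.neg_im, Complex.mul_im, Complex.I_re, Complex.I_im, zero_mul, one_mul,
      zero_add] at e3
    have hzero : h = 0 := Complex.ext (by rw [Complex.zero_re]; linarith)
      (by rw [Complex.zero_im]; linarith)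
    rw [hh, mul_eq_zero] at hzero
    rcases hzero with h6 | h6
    · exact Complex.exp_ne_zero _ h6
    · exact hg0 h6
  subst hk1
  -- the derivative is `g x`
  have hdg : deriv Θ x = g x := by
    have h1 : HasDerivAt (fun z : ℂ => (z - x) ^ 1 • g z) (g x) (x : ℂ) := by
      have h2 : HasDerivAt (fun z : ℂ => (z - x) * g z) (1 * g x + ((x : ℂ) - x) * deriv g x) (x : ℂ) :=
        ((hasDerivAt_id (x : ℂ)).sub_const (x : ℂ)).mul hg.differentiableAt.hasDerivAt
      have h3 : (fun z : ℂ => (z - x) ^ 1 • g z) = fun z : ℂ => (z - x) * g z := by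
        ext z; simp
      rw [h3]
      refine h2.congr_deriv ?_
      ring
    have h4 : HasDerivAt (fun z => Θ z - Θ x) (g x) (x : ℂ) := h1.congr_of_eventuallyEq hgk
    have h5 : HasDerivAt (fun z => Θ z - Θ x) (deriv Θ x) (x : ℂ) := hd.sub_const _
    exact h5.unique h4
  have h1 := key I (by simp)
  rw [pow_one, Complex.mul_im, Complex.I_re, Complex.I_im, zero_mul, one_mul, zero_add] at h1
  rw [hdg] at him ⊢
  rcases h1.eq_or_lt with h2 | h2
  · exact absurd (Complex.ext h2.symm (by rw [Complex.zero_im]; exact him)) hg0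
  · exact h2

/-- Schwarz reflection and Hopf lemma at the top edge `Im t = h`, values below `Im = H` -/
theorem schwarz_top {y₀ h H r : ℝ} (hr : 0 < r) {θ : ℂ → ℂ}
    (hθ : DifferentiableOn ℂ θ {t | |t.re - y₀| < r ∧ h - r < t.im ∧ t.im < h})
    {M : ℝ} (hb : ∀ t : ℂ, |t.re - y₀| < r → h - r < t.im → t.im < h → ‖θ t‖ ≤ M)
    (hlt : ∀ t : ℂ, |t.re - y₀| < r → h - r < t.im → t.im < h → (θ t).im < H)
    (hbd : ∀ᵐ x : ℝ, |x - y₀| < r →
      Tendsto (fun η : ℝ => (θ (x + (h - η : ℝ) * I)).im) (𝓝[>] 0) (𝓝 H)) :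
    ∃ Θ : ℂ → ℂ, DifferentiableOn ℂ Θ {t | |t.re - y₀| < r ∧ |t.im - h| < r} ∧
      (∀ t : ℂ, |t.re - y₀| < r → h - r < t.im → t.im < h → Θ t = θ t) ∧
      (∀ x : ℝ, |x - y₀| < r → (Θ (x + h * I)).im = H ∧ (deriv Θ (x + h * I)).im = 0 ∧
        0 < (deriv Θ (x + h * I)).re) ∧
      ∀ t : ℂ, |t.re - y₀| < r → h < t.im → t.im < h + r → H < (Θ t).im := by
  set θ₀ : ℂ → ℂ := fun z => (starRingEnd ℂ) (θ ((starRingEnd ℂ) (z - h * I))) + H * I with hθ₀
  have hmem : ∀ z : ℂ, z ∈ sqp y₀ r → |((starRingEnd ℂ) (z - h * I)).re - y₀| < r ∧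
      h - r < ((starRingEnd ℂ) (z - h * I)).im ∧ ((starRingEnd ℂ) (z - h * I)).im < h := by
    intro z hz
    refine ⟨by simpa using hz.1, ?_, ?_⟩
    · have := hz.2.2
      simp only [map_sub, map_mul, Complex.conj_ofReal, Complex.conj_I, Complex.sub_im,
        Complex.conj_im, Complex.mul_im, Complex.ofReal_re, Complex.neg_im, Complex.I_im,
        Complex.ofReal_im, Complex.neg_re, Complex.I_re]
      linarith
    · have := hz.2.1
      simp only [map_sub, map_mul, Complex.conj_ofReal, Complex.conj_I, Complex.sub_im,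
        Complex.conj_im, Complex.mul_im, Complex.ofReal_re, Complex.neg_im, Complex.I_im,
        Complex.ofReal_im, Complex.neg_re, Complex.I_re]
      linarith
  have hopen : IsOpen {t : ℂ | |t.re - y₀| < r ∧ h - r < t.im ∧ t.im < h} := by
    have h1 : IsOpen {z : ℂ | |z.re - y₀| < r} := isOpen_lt (by fun_prop) (by fun_prop)
    have h2 : IsOpen {z : ℂ | h - r < z.im} := isOpen_lt (by fun_prop) (by fun_prop)
    have h3 : IsOpen {z : ℂ | z.im < h} := isOpen_lt (by fun_prop) (by fun_prop)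
    exact h1.inter (h2.inter h3)
  have hθ₀d : DifferentiableOn ℂ θ₀ (sqp y₀ r) := by
    intro z hz
    have h1 : DifferentiableAt ℂ θ ((starRingEnd ℂ) (z - h * I)) :=
      hθ.differentiableAt (hopen.mem_nhds (hmem z hz))
    have h2 : DifferentiableAt ℂ ((starRingEnd ℂ) ∘ θ ∘ (starRingEnd ℂ)) (z - h * I) :=
      differentiableAt_conj_conj_iff.mpr h1
    have h3 : DifferentiableAt ℂ
        (((starRingEnd ℂ) ∘ θ ∘ (starRingEnd ℂ)) ∘ fun z : ℂ => z - h * I) z :=
      DifferentiableAt.comp (g := (starRingEnd ℂ) ∘ θ ∘ (starRingEnd ℂ)) z h2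
        ((differentiableAt_id).sub_const _)
    exact (h3.add_const (H * I)).differentiableWithinAt
  have hθ₀b : ∀ z ∈ sqp y₀ r, ‖θ₀ z‖ ≤ M + |H| := by
    intro z hz
    obtain ⟨h1, h2, h3⟩ := hmem z hz
    refine (norm_add_le _ _).trans ?_
    rw [RCLike.norm_conj, norm_mul, Complex.norm_I, mul_one, Complex.norm_real, Real.norm_eq_abs]
    linarith [hb _ h1 h2 h3]
  have hθ₀im : ∀ z ∈ sqp y₀ r, 0 < (θ₀ z).im := by
    intro z hz
    obtain ⟨h1, h2, h3⟩ := hmem z hz
    have := hlt _ h1 h2 h3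
    simp only [hθ₀, Complex.add_im, Complex.conj_im, Complex.mul_im, Complex.ofReal_re,
      Complex.I_im, Complex.ofReal_im, Complex.I_re]
    linarith
  have hθ₀bd : ∀ᵐ x : ℝ, |x - y₀| < r →
      Tendsto (fun η : ℝ => (θ₀ (x + η * I)).im) (𝓝[>] 0) (𝓝 0) := by
    filter_upwards [hbd] with x hx hxr
    have h1 := (hx hxr).const_sub H
    rw [sub_self] at h1
    refine h1.congr fun η => ?_
    have h2 : (starRingEnd ℂ) ((x : ℂ) + η * I - h * I) = x + (h - η : ℝ) * I := by
      simp only [map_sub, map_add, map_mul, Complex.conj_ofReal, Complex.conj_I]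
      push_cast
      ring
    simp only [hθ₀, Complex.add_im, Complex.conj_im, Complex.mul_im, Complex.ofReal_re,
      Complex.I_im, Complex.ofReal_im, Complex.I_re, h2]
    ring
  obtain ⟨Θ₀, hd, heq, hre, hsym⟩ := schwarz_flat hr hθ₀d hθ₀b hθ₀bd
  have hEq : ∀ t : ℂ, |t.re - y₀| < r → h - r < t.im → t.im < h →
      Θ₀ (t - h * I) + H * I = θ t := by
    intro t h1 h2 h3
    have h4 : (starRingEnd ℂ) (t - h * I) ∈ sqp y₀ r := by
      refine ⟨by simpa using h1, ?_, ?_⟩
      · simp only [map_sub, map_mul, Complex.conj_ofReal, Complex.conj_I, Complex.sub_im,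
          Complex.conj_im, Complex.mul_im, Complex.ofReal_re, Complex.neg_im, Complex.I_im,
          Complex.ofReal_im, Complex.neg_re, Complex.I_re]
        linarith
      · simp only [map_sub, map_mul, Complex.conj_ofReal, Complex.conj_I, Complex.sub_im,
          Complex.conj_im, Complex.mul_im, Complex.ofReal_re, Complex.neg_im, Complex.I_im,
          Complex.ofReal_im, Complex.neg_re, Complex.I_re]
        linarith
    have h5 := hsym _ (sqp_subset _ _ h4)
    rw [Complex.conj_conj, heq h4] at h5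
    rw [h5]
    simp only [hθ₀]
    have h6 : (starRingEnd ℂ) ((starRingEnd ℂ) (t - h * I) - h * I) = t := by
      simp only [map_sub, map_mul, Complex.conj_ofReal, Complex.conj_I, Complex.conj_conj, map_neg]
      ring
    rw [h6, map_add, Complex.conj_conj, map_mul, Complex.conj_ofReal, Complex.conj_I]
    ring
  refine ⟨fun t => Θ₀ (t - h * I) + H * I, ?_, hEq, ?_, ?_⟩
  · intro t ht
    have h1 : t - h * I ∈ sq y₀ r := ⟨by simpa using ht.1, by simpa using ht.2⟩
    have h2 : DifferentiableAt ℂ Θ₀ (t - h * I) :=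
      hd.differentiableAt ((isOpen_sq y₀ r).mem_nhds h1)
    have h3 : DifferentiableAt ℂ (fun t : ℂ => Θ₀ (t - h * I)) t :=
      DifferentiableAt.comp t h2 ((differentiableAt_id).sub_const _)
    exact (h3.add_const (H * I)).differentiableWithinAt
  · intro x hx
    have hxs : (x : ℂ) ∈ sq y₀ r := ⟨by simpa using hx, by simpa using hr⟩
    have hda : AnalyticAt ℂ Θ₀ x := hd.analyticAt ((isOpen_sq y₀ r).mem_nhds hxs)
    have hre' : ∀ᶠ t : ℝ in 𝓝 x, (Θ₀ t).im = 0 := by
      have h7 : {t : ℝ | |t - y₀| < r} ∈ 𝓝 x :=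
        (isOpen_lt (by fun_prop) continuous_const).mem_nhds hx
      filter_upwards [h7] with t ht
      exact hre t ht
    have hpos : ∀ᶠ z : ℂ in 𝓝 (x : ℂ), 0 < z.im → 0 < (Θ₀ z).im := by
      filter_upwards [(isOpen_sq y₀ r).mem_nhds hxs] with z hz hzi
      have hz' : z ∈ sqp y₀ r := ⟨hz.1, hzi, by
        have := hz.2
        rwa [abs_of_pos hzi] at this⟩
      rw [heq hz']
      exact hθ₀im z hz'
    obtain ⟨h8, h9⟩ := hopf hda hre' hpos
    have h10 : deriv (fun t : ℂ => Θ₀ (t - h * I) + H * I) (x + h * I) = deriv Θ₀ x := by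
      have h11 : HasDerivAt (fun t : ℂ => Θ₀ (t - h * I)) (deriv Θ₀ x) (x + h * I) := by
        have h12 : HasDerivAt Θ₀ (deriv Θ₀ x) ((x : ℂ) + h * I - h * I) := by
          rw [add_sub_cancel_right]
          exact hda.differentiableAt.hasDerivAt
        have h13 := h12.comp ((x : ℂ) + h * I) ((hasDerivAt_id _).sub_const (h * I : ℂ))
        simpa [Function.comp_def] using h13
      exact (h11.add_const _).deriv
    refine ⟨?_, ?_, ?_⟩
    · show (Θ₀ ((x : ℂ) + h * I - h * I) + H * I).im = H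
      rw [add_sub_cancel_right, Complex.add_im, hre x hx]
      simp
    · rw [h10]; exact h8
    · rw [h10]; exact h9
  · intro t h1 h2 h3
    have h4 : t - h * I ∈ sqp y₀ r := by
      refine ⟨by simpa using h1, ?_, ?_⟩
      · simpa using h2
      · simp only [Complex.sub_im, Complex.mul_im, Complex.ofReal_re, Complex.I_im,
          Complex.ofReal_im, Complex.I_re]
        linarith
    have h5 : 0 < (Θ₀ (t - h * I)).im := by
      rw [heq h4]
      exact hθ₀im _ h4
    simp only [Complex.add_im, Complex.mul_im, Complex.ofReal_re, Complex.I_im,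
      Complex.ofReal_im, Complex.I_re]
    linarith

end Vale.Agent.P097.H877.Bd
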