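import Vale.Agent.P097.H877.Bd.Schw
import Vale.Agent.P097.H877.Bd.Hart2

/-!
(A6), part 1: a holomorphic function with values in a strip `|Im| < H` and with vertical boundary
values on the top line a.e. is bounded near the edge (conformal change of the strip to a half disc).
-/

open Complex Metric Filter Topology Set MeasureTheory

namespace Vale.Agent.P097.H877.Bd

theorem wall_bdd {y₀ h H r : ℝ} (hH : 0 < H) (hr : 0 < r) {θ : ℂ → ℂ}
    (hθ : DifferentiableOn ℂ θ {t | |t.re - y₀| < r ∧ h - r < t.im ∧ t.im < h})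
    (hlow : ∀ t : ℂ, |t.re - y₀| < r → h - r < t.im → t.im < h → -H < (θ t).im)
    (hlt : ∀ t : ℂ, |t.re - y₀| < r → h - r < t.im → t.im < h → (θ t).im < H)
    (hbd : ∀ᵐ x : ℝ, |x - y₀| < r →
      Tendsto (fun η : ℝ => (θ (x + (h - η : ℝ) * I)).im) (𝓝[>] 0) (𝓝 H)) :
    ∃ r' > 0, r' ≤ r ∧ ∃ M : ℝ, ∀ t : ℂ, |t.re - y₀| < r' → h - r' < t.im → t.im < h →
      ‖θ t‖ ≤ M := by
  set c : ℝ := Real.pi / (4 * H) with hc
  have hc0 : 0 < c := by rw [hc]; positivity
  have hcH : c * (2 * H) = Real.pi / 2 := by rw [hc]; field_simp; ring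
  set Q : ℂ → ℂ := fun t => exp (c * (θ t - I * H)) with hQ
  set V : ℂ → ℂ := fun t => (Q t - 1) / (Q t + 1) with hV
  -- elementary facts on `Q`
  have hQre : ∀ t, (Q t).re = Real.exp (c * (θ t).re) * Real.cos (c * ((θ t).im - H)) := by
    intro t
    rw [hQ]
    simp only [Complex.exp_re]
    simp
  have hQim : ∀ t, (Q t).im = Real.exp (c * (θ t).re) * Real.sin (c * ((θ t).im - H)) := by
    intro t
    rw [hQ]
    simp only [Complex.exp_im]
    simp
  have hQn : ∀ t, ‖Q t‖ = Real.exp (c * (θ t).re) := by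
    intro t
    rw [hQ]
    simp only [Complex.norm_exp]
    simp
  have hφ : ∀ t : ℂ, |t.re - y₀| < r → h - r < t.im → t.im < h →
      -(Real.pi / 2) < c * ((θ t).im - H) ∧ c * ((θ t).im - H) < 0 := by
    intro t h1 h2 h3
    have e1 := hlow t h1 h2 h3
    have e2 := hlt t h1 h2 h3
    constructor
    · have : c * (-(2 * H)) < c * ((θ t).im - H) := mul_lt_mul_of_pos_left (by linarith) hc0
      linarith [hcH]
    · exact mul_neg_of_pos_of_neg hc0 (by linarith)
  have hQre0 : ∀ t : ℂ, |t.re - y₀| < r → h - r < t.im → t.im < h → 0 < (Q t).re := by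
    intro t h1 h2 h3
    obtain ⟨e1, e2⟩ := hφ t h1 h2 h3
    rw [hQre]
    exact mul_pos (Real.exp_pos _) (Real.cos_pos_of_mem_Ioo ⟨e1, by linarith [Real.pi_pos]⟩)
  have hQim0 : ∀ t : ℂ, |t.re - y₀| < r → h - r < t.im → t.im < h → (Q t).im < 0 := by
    intro t h1 h2 h3
    obtain ⟨e1, e2⟩ := hφ t h1 h2 h3
    rw [hQim]
    exact mul_neg_of_pos_of_neg (Real.exp_pos _)
      (Real.sin_neg_of_neg_of_neg_pi_lt e2 (by linarith [Real.pi_pos]))
  have hne : ∀ t : ℂ, |t.re - y₀| < r → h - r < t.im → t.im < h → Q t + 1 ≠ 0 := by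
    intro t h1 h2 h3 h0
    have := congrArg Complex.re h0
    simp only [add_re, one_re, zero_re] at this
    linarith [hQre0 t h1 h2 h3]
  have hV1 : ∀ t : ℂ, |t.re - y₀| < r → h - r < t.im → t.im < h → ‖V t‖ ≤ 1 := by
    intro t h1 h2 h3
    rw [hV]
    simp only [norm_div]
    rw [div_le_one (norm_pos_iff.mpr (hne t h1 h2 h3))]
    rw [← sq_le_sq₀ (norm_nonneg _) (norm_nonneg _), ← Complex.normSq_eq_norm_sq,
      ← Complex.normSq_eq_norm_sq, Complex.normSq_apply, Complex.normSq_apply]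
    simp only [sub_re, add_re, sub_im, add_im, one_re, one_im, sub_zero, add_zero]
    nlinarith [hQre0 t h1 h2 h3]
  have hVim : ∀ t : ℂ, |t.re - y₀| < r → h - r < t.im → t.im < h →
      (V t).im = 2 * (Q t).im / Complex.normSq (Q t + 1) := by
    intro t h1 h2 h3
    have hN : Complex.normSq (Q t + 1) ≠ 0 := by
      rw [Ne, Complex.normSq_eq_zero]
      exact hne t h1 h2 h3
    rw [hV]
    simp only [Complex.div_im, sub_re, add_re, sub_im, add_im, one_re, one_im, sub_zero, add_zero]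
    field_simp
    ring
  have hNpos : ∀ t : ℂ, |t.re - y₀| < r → h - r < t.im → t.im < h →
      2 * ‖Q t‖ ≤ Complex.normSq (Q t + 1) := by
    intro t h1 h2 h3
    rw [Complex.normSq_apply]
    simp only [add_re, add_im, one_re, one_im, add_zero]
    have e1 : ‖Q t‖ ^ 2 = (Q t).re * (Q t).re + (Q t).im * (Q t).im := by
      rw [← Complex.normSq_eq_norm_sq, Complex.normSq_apply]
    nlinarith [hQre0 t h1 h2 h3, sq_nonneg (‖Q t‖ - 1)]
  have hVneg : ∀ t : ℂ, |t.re - y₀| < r → h - r < t.im → t.im < h → (V t).im < 0 := by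
    intro t h1 h2 h3
    rw [hVim t h1 h2 h3]
    apply div_neg_of_neg_of_pos
    · linarith [hQim0 t h1 h2 h3]
    · apply lt_of_lt_of_le _ (hNpos t h1 h2 h3)
      rw [hQn]
      positivity
  have hVsmall : ∀ t : ℂ, |t.re - y₀| < r → h - r < t.im → t.im < h →
      |(V t).im| ≤ c * (H - (θ t).im) := by
    intro t h1 h2 h3
    rw [hVim t h1 h2 h3, abs_div, abs_mul, abs_two]
    have e0 : 0 < 2 * ‖Q t‖ := by rw [hQn]; positivity
    have e1 := hNpos t h1 h2 h3
    have e2 : 0 < Complex.normSq (Q t + 1) := lt_of_lt_of_le e0 e1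
    rw [abs_of_pos e2, div_le_iff₀ e2, hQim, abs_mul, abs_of_pos (Real.exp_pos _)]
    have e3 : |Real.sin (c * ((θ t).im - H))| ≤ c * (H - (θ t).im) := by
      refine (Real.abs_sin_le_abs).trans ?_
      rw [abs_of_neg (hφ t h1 h2 h3).2]
      apply le_of_eq; ring
    have e4 : 0 ≤ c * (H - (θ t).im) := (abs_nonneg _).trans e3
    rw [hQn] at e1
    nlinarith [mul_le_mul_of_nonneg_left e3 (Real.exp_pos (c * (θ t).re)).le,
      mul_le_mul_of_nonneg_left e1 e4]
  -- Schwarz reflection for `V`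
  have hVd : DifferentiableOn ℂ V {t | |t.re - y₀| < r ∧ h - r < t.im ∧ t.im < h} := by
    have h1 : DifferentiableOn ℂ Q {t | |t.re - y₀| < r ∧ h - r < t.im ∧ t.im < h} :=
      ((hθ.sub_const _).const_mul (c : ℂ)).cexp
    exact (h1.sub_const 1).div (h1.add_const 1) fun t ht => hne t ht.1 ht.2.1 ht.2.2
  obtain ⟨Θ, hΘd, hΘe, hΘr, -⟩ := schwarz_top (H := 0) hr hVd (M := 1) hV1 hVneg (by
    filter_upwards [hbd] with x hx hxr
    have h1 := hx hxr
    have h2 : Tendsto (fun η : ℝ => c * (H - (θ (x + (h - η : ℝ) * I)).im)) (𝓝[>] 0) (𝓝 0) := by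
      have := (h1.const_sub H).const_mul c
      simpa using this
    refine squeeze_zero_norm' ?_ h2
    have h3 : ∀ᶠ η : ℝ in 𝓝[>] 0, 0 < η ∧ η < r := by
      filter_upwards [self_mem_nhdsWithin, nhdsWithin_le_nhds (Iio_mem_nhds hr)] with η e1 e2
      exact ⟨e1, e2⟩
    filter_upwards [h3] with η hη
    rw [Real.norm_eq_abs]
    apply hVsmall
    · simpa using hxr
    · simp; exact hη.2
    · simp; exact hη.1)
  -- the edge
  have hopen : IsOpen {t : ℂ | |t.re - y₀| < r ∧ |t.im - h| < r} := by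
    have a1 : IsOpen {t : ℂ | |t.re - y₀| < r} := isOpen_lt (by fun_prop) continuous_const
    have a2 : IsOpen {t : ℂ | |t.im - h| < r} := isOpen_lt (by fun_prop) continuous_const
    exact a1.inter a2
  have hmemE : ∀ x : ℝ, |x - y₀| < r → ((x : ℂ) + h * I) ∈ {t : ℂ | |t.re - y₀| < r ∧ |t.im - h| < r} := by
    intro x hx
    exact ⟨by simpa using hx, by simpa using hr⟩
  have hΘc : ∀ x : ℝ, |x - y₀| < r → ContinuousAt Θ ((x : ℂ) + h * I) := fun x hx =>
    (hΘd.differentiableAt (hopen.mem_nhds (hmemE x hx))).continuousAt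
  have hle1 : ∀ x : ℝ, |x - y₀| < r → ‖Θ ((x : ℂ) + h * I)‖ ≤ 1 := by
    intro x hx
    have h1 : Tendsto (fun η : ℝ => (x : ℂ) + (h - η : ℝ) * I) (𝓝[>] 0) (𝓝 ((x : ℂ) + h * I)) := by
      have : Continuous fun η : ℝ => (x : ℂ) + (h - η : ℝ) * I := by fun_prop
      have h2 := this.tendsto 0
      simp only [sub_zero] at h2
      exact h2.mono_left nhdsWithin_le_nhds
    have h2 : Tendsto (fun η : ℝ => ‖Θ ((x : ℂ) + (h - η : ℝ) * I)‖) (𝓝[>] 0)
        (𝓝 ‖Θ ((x : ℂ) + h * I)‖) := ((hΘc x hx).tendsto.comp h1).norm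
    refine le_of_tendsto h2 ?_
    filter_upwards [self_mem_nhdsWithin, nhdsWithin_le_nhds (Iio_mem_nhds hr)] with η e1 e2
    have a1 : |((x : ℂ) + (h - η : ℝ) * I).re - y₀| < r := by simpa using hx
    have a2 : h - r < ((x : ℂ) + (h - η : ℝ) * I).im := by
      simp; exact e2
    have a3 : ((x : ℂ) + (h - η : ℝ) * I).im < h := by
      simp; exact e1
    rw [hΘe _ a1 a2 a3]
    exact hV1 _ a1 a2 a3
  have hy₀ : |y₀ - y₀| < r := by simpa using hr
  have hreal : ∀ x : ℝ, |x - y₀| < r → ‖Θ ((x : ℂ) + h * I)‖ = |(Θ ((x : ℂ) + h * I)).re| := by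
    intro x hx
    have := (hΘr x hx).1
    have e : Θ ((x : ℂ) + h * I) = ((Θ ((x : ℂ) + h * I)).re : ℂ) := by
      apply Complex.ext
      · simp
      · simpa using this
    rw [e, Complex.norm_real, Real.norm_eq_abs, Complex.ofReal_re]
  -- derivative along the edge
  have hder : HasDerivAt (fun x : ℝ => (Θ ((x : ℂ) + h * I)).re)
      (deriv Θ ((y₀ : ℂ) + h * I)).re y₀ := by
    have h1 : HasDerivAt Θ (deriv Θ ((y₀ : ℂ) + h * I)) ((y₀ : ℂ) + h * I) :=
      (hΘd.differentiableAt (hopen.mem_nhds (hmemE y₀ hy₀))).hasDerivAt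
    have h2 : HasDerivAt (fun z : ℂ => Θ (z + h * I)) (deriv Θ ((y₀ : ℂ) + h * I)) (y₀ : ℂ) := by
      have h3 : HasDerivAt (fun z : ℂ => z + h * I) 1 (y₀ : ℂ) := (hasDerivAt_id _).add_const _
      have := HasDerivAt.comp (y₀ : ℂ) (h₂ := Θ) h1 h3
      rw [mul_one] at this
      exact this
    exact h2.real_of_complex
  have hlt1 : ‖Θ ((y₀ : ℂ) + h * I)‖ < 1 := by
    refine lt_of_le_of_ne (hle1 y₀ hy₀) ?_
    intro h1
    rw [hreal y₀ hy₀] at h1
    have hnear : ∀ᶠ x : ℝ in 𝓝 y₀, |x - y₀| < r := by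
      filter_upwards [Metric.ball_mem_nhds y₀ hr] with x hx
      simpa [Real.dist_eq] using hx
    have hd0 : (deriv Θ ((y₀ : ℂ) + h * I)).re = 0 := by
      rcases le_or_gt 0 (Θ ((y₀ : ℂ) + h * I)).re with h2 | h2
      · rw [abs_of_nonneg h2] at h1
        have hmax : IsLocalMax (fun x : ℝ => (Θ ((x : ℂ) + h * I)).re) y₀ := by
          filter_upwards [hnear] with x hx
          have := hle1 x hx
          rw [hreal x hx] at this
          rw [h1]
          exact (le_abs_self _).trans this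
        exact hmax.hasDerivAt_eq_zero hder
      · rw [abs_of_neg h2] at h1
        have hmin : IsLocalMin (fun x : ℝ => (Θ ((x : ℂ) + h * I)).re) y₀ := by
          filter_upwards [hnear] with x hx
          have := hle1 x hx
          rw [hreal x hx] at this
          have e : (Θ ((y₀ : ℂ) + h * I)).re = -1 := by linarith
          rw [e]
          linarith [neg_abs_le (Θ ((x : ℂ) + h * I)).re]
        exact hmin.hasDerivAt_eq_zero hder
    linarith [(hΘr y₀ hy₀).2.2]
  -- the bound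
  obtain ⟨q, hq1, hq2⟩ := exists_between hlt1
  have hq0 : 0 ≤ q := (norm_nonneg _).trans hq1.le
  have hev : ∀ᶠ t in 𝓝 ((y₀ : ℂ) + h * I), ‖Θ t‖ < q :=
    (hΘc y₀ hy₀).norm.eventually_lt continuousAt_const hq1
  obtain ⟨s, hs0, hs⟩ := Metric.eventually_nhds_iff.mp hev
  refine ⟨min r (s / 2), lt_min hr (by positivity), min_le_left _ _,
    Real.log (2 / (1 - q)) / c + H, ?_⟩
  intro t h1 h2 h3
  have b1 : |t.re - y₀| < r := h1.trans_le (min_le_left _ _)
  have b2 : |t.re - y₀| < s / 2 := h1.trans_le (min_le_right _ _)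
  have b3 : h - r < t.im := by linarith [min_le_left r (s / 2)]
  have b4 : h - s / 2 < t.im := by linarith [min_le_right r (s / 2)]
  have hdist : dist t ((y₀ : ℂ) + h * I) < s := by
    rw [dist_eq_norm]
    refine (Complex.norm_le_abs_re_add_abs_im _).trans_lt ?_
    have e1 : (t - ((y₀ : ℂ) + h * I)).re = t.re - y₀ := by simp
    have e2 : (t - ((y₀ : ℂ) + h * I)).im = t.im - h := by simp
    rw [e1, e2, abs_of_neg (by linarith : t.im - h < 0)]
    linarith
  have hVq : ‖V t‖ < q := by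
    rw [← hΘe t b1 b3 h3]
    exact hs hdist
  have hQV : Q t * (1 - V t) = 1 + V t := by
    have := hne t b1 b3 h3
    rw [hV]
    field_simp
    ring
  have c1 : 1 - q ≤ ‖1 - V t‖ := by
    have := norm_sub_norm_le (1 : ℂ) (V t)
    rw [norm_one] at this
    linarith
  have c2 : ‖1 + V t‖ ≤ 2 := by
    have := norm_add_le (1 : ℂ) (V t)
    rw [norm_one] at this
    linarith
  have c3 : 1 - q ≤ ‖1 + V t‖ := by
    have := norm_sub_norm_le (1 : ℂ) (-V t)
    rw [norm_one, norm_neg, sub_neg_eq_add] at this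
    linarith
  have c4 : ‖1 - V t‖ ≤ 2 := by
    have := norm_sub_le (1 : ℂ) (V t)
    rw [norm_one] at this
    linarith
  have hn := congrArg norm hQV
  rw [norm_mul, hQn] at hn
  have hE := Real.exp_pos (c * (θ t).re)
  have d1 : Real.exp (c * (θ t).re) ≤ 2 / (1 - q) := by
    rw [le_div_iff₀ (by linarith)]
    nlinarith
  have d2 : (1 - q) / 2 ≤ Real.exp (c * (θ t).re) := by
    rw [div_le_iff₀ (by norm_num)]
    nlinarith
  have hq3 : 0 < 1 - q := by linarith
  have d3 : c * (θ t).re ≤ Real.log (2 / (1 - q)) := by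
    rw [Real.le_log_iff_exp_le (by positivity)]
    exact d1
  have d4 : -Real.log (2 / (1 - q)) ≤ c * (θ t).re := by
    rw [← Real.log_inv, inv_div, Real.log_le_iff_le_exp (by positivity)]
    exact d2
  have d5 : |(θ t).re| ≤ Real.log (2 / (1 - q)) / c := by
    rw [le_div_iff₀ hc0]
    have e : |(θ t).re| * c = |c * (θ t).re| := by rw [abs_mul, abs_of_pos hc0, mul_comm]
    rw [e, abs_le]
    exact ⟨d4, d3⟩
  have d6 : |(θ t).im| ≤ H := abs_le.2 ⟨(hlow t b1 b3 h3).le, (hlt t b1 b3 h3).le⟩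
  exact (Complex.norm_le_abs_re_add_abs_im _).trans (by linarith)

end Vale.Agent.P097.H877.Bd
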