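import Vale.Agent.P097.H877.Bd.WallA

/-!
(A6), part 2: the inverse of one slice near a point of a top wall, with countable data.
-/

open Complex Metric Filter Topology Set MeasureTheory

namespace Vale.Agent.P097.H877.Bd

/-- local inverse of a holomorphic function of one variable -/
theorem loc_inv {Θ : ℂ → ℂ} {U : Set ℂ} (hU : IsOpen U) (hΘ : DifferentiableOn ℂ Θ U) {t₀ : ℂ}
    (ht₀ : t₀ ∈ U) (hd : deriv Θ t₀ ≠ 0) :
    ∃ ρ > 0, ∃ g : ℂ → ℂ, DifferentiableOn ℂ g (ball (Θ t₀) ρ) ∧ g (Θ t₀) = t₀ ∧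
      ∀ ξ ∈ ball (Θ t₀) ρ, g ξ ∈ U ∧ Θ (g ξ) = ξ ∧ deriv Θ (g ξ) ≠ 0 ∧
        deriv g ξ = (deriv Θ (g ξ))⁻¹ := by
  have han : AnalyticAt ℂ Θ t₀ := hΘ.analyticAt (hU.mem_nhds ht₀)
  have hsd : HasStrictDerivAt Θ (deriv Θ t₀) t₀ := han.hasStrictDerivAt
  set g := hsd.localInverse Θ (deriv Θ t₀) t₀ hd with hg
  have hga : AnalyticAt ℂ g (Θ t₀) := han.analyticAt_localInverse hd
  have hg0 : g (Θ t₀) = t₀ := (hsd.hasStrictFDerivAt_equiv hd).localInverse_apply_image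
  have hg2 : ∀ᶠ w in 𝓝 (Θ t₀), Θ (g w) = w :=
    (hsd.hasStrictFDerivAt_equiv hd).eventually_right_inverse
  have hcont : Tendsto g (𝓝 (Θ t₀)) (𝓝 t₀) := by
    have := hga.continuousAt.tendsto
    rwa [hg0] at this
  have hdc : ContinuousAt (deriv Θ) t₀ := han.deriv.continuousAt
  have h0 : ∀ᶠ t in 𝓝 t₀, t ∈ U := hU.mem_nhds ht₀
  have h1 : ∀ᶠ t in 𝓝 t₀, t ∈ U ∧ deriv Θ t ≠ 0 := h0.and (hdc.eventually_ne hd)
  have h2 : ∀ᶠ w in 𝓝 (Θ t₀), g w ∈ U ∧ deriv Θ (g w) ≠ 0 := hcont.eventually h1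
  have h3 : ∀ᶠ w in 𝓝 (Θ t₀), AnalyticAt ℂ g w := hga.eventually_analyticAt
  obtain ⟨ρ, hρ, hρ'⟩ := Metric.eventually_nhds_iff_ball.mp (hg2.and (h2.and h3))
  refine ⟨ρ, hρ, g, ?_, hg0, ?_⟩
  · intro w hw
    exact (hρ' w hw).2.2.differentiableAt.differentiableWithinAt
  · intro w hw
    obtain ⟨a1, ⟨a2, a3⟩, a4⟩ := hρ' w hw
    refine ⟨a2, a1, a3, ?_⟩
    have e1 : HasDerivAt (fun x => Θ (g x)) (deriv Θ (g w) * deriv g w) w := by
      have b1 : HasDerivAt Θ (deriv Θ (g w)) (g w) :=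
        (hΘ.differentiableAt (hU.mem_nhds a2)).hasDerivAt
      exact b1.comp w a4.differentiableAt.hasDerivAt
    have e2 : HasDerivAt (fun x => Θ (g x)) 1 w := by
      refine (hasDerivAt_id w).congr_of_eventuallyEq ?_
      filter_upwards [isOpen_ball.mem_nhds hw] with x hx
      exact (hρ' x hx).1
    have e3 := e1.unique e2
    exact (eq_inv_of_mul_eq_one_right e3)

/-- the data of the inverse of one slice near a wall point -/
structure SL (θ : ℂ → ℂ) (y₀ r h H : ℝ) (N : ℕ) (ξ₁ t₁ : ℂ) (ρ ρ₁ r₁ : ℝ) (g : ℂ → ℂ) : Prop where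
  ρ0 : 0 < ρ
  ρ1 : ρ < ρ₁
  r1 : 0 < r₁
  lo : ξ₁.im < H
  hi : H < ξ₁.im + ρ
  d : DifferentiableOn ℂ g (ball ξ₁ ρ₁)
  N : ∀ ξ ∈ ball ξ₁ ρ₁, ‖g ξ‖ ≤ N
  d0 : ∀ ξ ∈ ball ξ₁ ρ₁, deriv g ξ ≠ 0
  below : ∀ ξ ∈ ball ξ₁ ρ₁, ξ.im < H →
    |(g ξ).re - y₀| < r ∧ h - r < (g ξ).im ∧ (g ξ).im < h ∧ θ (g ξ) = ξ
  edge : ∀ ξ ∈ ball ξ₁ ρ₁, ξ.im = H → |(g ξ).re - y₀| < r ∧ (g ξ).im = h ∧
    (deriv g ξ).im = 0 ∧ 0 < (deriv g ξ).re
  near : dist (g ξ₁) t₁ < r₁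
  win : ∀ t ∈ ball t₁ (2 * r₁), |t.re - y₀| < r ∧ h - r < t.im ∧ t.im < h
  inj : InjOn θ (ball t₁ (2 * r₁))

/-- the inverse of one slice near a wall point exists, with parameters in countable sets -/
theorem slice_inv {y₀ h H r : ℝ} (hH : 0 < H) (hr : 0 < r) {θ : ℂ → ℂ}
    (hθ : DifferentiableOn ℂ θ {t | |t.re - y₀| < r ∧ h - r < t.im ∧ t.im < h})
    (hlow : ∀ t : ℂ, |t.re - y₀| < r → h - r < t.im → t.im < h → -H < (θ t).im)
    (hlt : ∀ t : ℂ, |t.re - y₀| < r → h - r < t.im → t.im < h → (θ t).im < H)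
    (hbd : ∀ᵐ x : ℝ, |x - y₀| < r →
      Tendsto (fun η : ℝ => (θ (x + (h - η : ℝ) * I)).im) (𝓝[>] 0) (𝓝 H)) :
    ∃ (N i j : ℕ) (ρ ρ₁ r₁ : ℚ) (g : ℂ → ℂ),
      SL θ y₀ r h H N (TopologicalSpace.denseSeq ℂ i) (TopologicalSpace.denseSeq ℂ j) ρ ρ₁ r₁ g := by
  obtain ⟨r', hr', hrr, M, hM⟩ := wall_bdd hH hr hθ hlow hlt hbd
  have hsub : ∀ t : ℂ, |t.re - y₀| < r' → h - r' < t.im → t.im < h →
      |t.re - y₀| < r ∧ h - r < t.im := fun t h1 h2 h3 => ⟨by linarith, by linarith⟩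
  obtain ⟨Θ, hΘd, hΘe, hΘr, hΘa⟩ := schwarz_top (H := H) hr'
    (hθ.mono fun t ht => ⟨(hsub t ht.1 ht.2.1 ht.2.2).1, (hsub t ht.1 ht.2.1 ht.2.2).2, ht.2.2⟩) hM
    (fun t h1 h2 h3 => hlt t (hsub t h1 h2 h3).1 (hsub t h1 h2 h3).2 h3)
    (by
      filter_upwards [hbd] with x hx hxr
      exact hx (by linarith))
  set U : Set ℂ := {t : ℂ | |t.re - y₀| < r' ∧ |t.im - h| < r'} with hU
  have hUo : IsOpen U := by
    have a1 : IsOpen {t : ℂ | |t.re - y₀| < r'} := isOpen_lt (by fun_prop) continuous_const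
    have a2 : IsOpen {t : ℂ | |t.im - h| < r'} := isOpen_lt (by fun_prop) continuous_const
    exact a1.inter a2
  have hUb : ∀ t ∈ U, ‖t‖ ≤ |y₀| + |h| + 2 * r' := by
    intro t ht
    refine (Complex.norm_le_abs_re_add_abs_im t).trans ?_
    have e1 : |t.re| ≤ |t.re - y₀| + |y₀| := by
      have := abs_add_le (t.re - y₀) y₀
      rwa [sub_add_cancel] at this
    have e2 : |t.im| ≤ |t.im - h| + |h| := by
      have := abs_add_le (t.im - h) h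
      rwa [sub_add_cancel] at this
    linarith [ht.1, ht.2]
  set t₀ : ℂ := (y₀ : ℂ) + h * I with ht₀
  have ht₀U : t₀ ∈ U := ⟨by simpa [ht₀] using hr', by simpa [ht₀] using hr'⟩
  have hy₀ : |y₀ - y₀| < r' := by simpa using hr'
  obtain ⟨c1, c2, c3⟩ := hΘr y₀ hy₀
  have hd0 : deriv Θ t₀ ≠ 0 := by
    intro h0
    rw [ht₀] at h0
    rw [h0] at c3
    simp at c3
  obtain ⟨ρ', hρ', g, hgd, hg0, hg⟩ := loc_inv hUo hΘd ht₀U hd0
  set β : ℂ := Θ t₀ with hβ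
  have hβim : β.im = H := c1
  -- position of the image
  have hpos : ∀ t ∈ U, ((Θ t).im < H → t.im < h) ∧ ((Θ t).im = H → t.im = h) := by
    intro t ht
    have b1 := abs_lt.1 ht.2
    rcases lt_trichotomy t.im h with h1 | h1 | h1
    · have e : (Θ t).im < H := by
        rw [hΘe t ht.1 (by linarith) h1]
        exact hlt t (hsub t ht.1 (by linarith) h1).1 (hsub t ht.1 (by linarith) h1).2 h1
      exact ⟨fun _ => h1, fun h2 => absurd h2 e.ne⟩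
    · have e : t = (t.re : ℂ) + h * I := by
        apply Complex.ext
        · simp
        · simp [h1]
      have e2 := (hΘr t.re ht.1).1
      rw [← e] at e2
      exact ⟨fun h2 => absurd e2 h2.ne, fun _ => h1⟩
    · have e := hΘa t ht.1 h1 (by linarith)
      exact ⟨fun h2 => absurd h2 (not_lt.2 e.le), fun h2 => absurd h2 e.ne'⟩
  -- the base value `ξ₁`
  obtain ⟨i, hi⟩ : ∃ i, TopologicalSpace.denseSeq ℂ i ∈ ball (β - (ρ' / 16 : ℝ) * I) (ρ' / 32) := by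
    have := (TopologicalSpace.denseRange_denseSeq ℂ).exists_mem_open (isOpen_ball (x := β - (ρ' / 16 : ℝ) * I)
      (ε := ρ' / 32)) ⟨_, mem_ball_self (by positivity)⟩
    exact this
  set ξ₁ := TopologicalSpace.denseSeq ℂ i with hξ₁
  have hi' : ‖ξ₁ - β + (ρ' / 16 : ℝ) * I‖ < ρ' / 32 := by
    rw [mem_ball, dist_eq_norm] at hi
    have e : ξ₁ - β + (ρ' / 16 : ℝ) * I = ξ₁ - (β - (ρ' / 16 : ℝ) * I) := by ring
    rwa [e]
  have hξim : |ξ₁.im - H + ρ' / 16| < ρ' / 32 := by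
    have e := (Complex.abs_im_le_norm (ξ₁ - β + (ρ' / 16 : ℝ) * I)).trans_lt hi'
    simpa [hβim] using e
  have hξim' := abs_lt.1 hξim
  have hξd : dist ξ₁ β < ρ' / 8 := by
    rw [dist_eq_norm]
    have e1 : ξ₁ - β = (ξ₁ - β + (ρ' / 16 : ℝ) * I) - (ρ' / 16 : ℝ) * I := by ring
    rw [e1]
    refine (norm_sub_le _ _).trans_lt ?_
    have e2 : ‖((ρ' / 16 : ℝ) : ℂ) * I‖ = ρ' / 16 := by
      rw [norm_mul, Complex.norm_I, mul_one, Complex.norm_real, Real.norm_eq_abs,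
        abs_of_pos (by positivity)]
    rw [e2]
    linarith
  obtain ⟨ρ₁, hρ1a, hρ1b⟩ := exists_rat_btwn (show 3 * ρ' / 8 < ρ' / 2 by linarith)
  obtain ⟨ρ, hρa, hρb⟩ := exists_rat_btwn (show ρ' / 4 < 3 * ρ' / 8 by linarith)
  have hball : ball ξ₁ ρ₁ ⊆ ball β ρ' := by
    intro x hx
    rw [mem_ball] at hx ⊢
    have := dist_triangle x ξ₁ β
    linarith
  have hξ₁β : ξ₁ ∈ ball β ρ' := by
    rw [mem_ball]; linarith
  -- the base point
  set τ : ℂ := g ξ₁ with hτ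
  obtain ⟨d1, d2, d3, d4⟩ := hg ξ₁ hξ₁β
  have hτim : τ.im < h := (hpos τ d1).1 (by rw [d2]; linarith [hξim'.2])
  have hτw : |τ.re - y₀| < r' ∧ h - r' < τ.im ∧ τ.im < h := by
    have b1 := abs_lt.1 d1.2
    exact ⟨d1.1, by linarith, hτim⟩
  have hWo : IsOpen {t : ℂ | |t.re - y₀| < r' ∧ h - r' < t.im ∧ t.im < h} := by
    have a1 : IsOpen {t : ℂ | |t.re - y₀| < r'} := isOpen_lt (by fun_prop) continuous_const
    have a2 : IsOpen {t : ℂ | h - r' < t.im} := isOpen_lt continuous_const continuous_im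
    have a3 : IsOpen {t : ℂ | t.im < h} := isOpen_lt continuous_im continuous_const
    exact a1.inter (a2.inter a3)
  have hΘτ : AnalyticAt ℂ Θ τ := hΘd.analyticAt (hUo.mem_nhds d1)
  have hΘinj : ∀ᶠ p in 𝓝 (τ, τ), Θ (p : ℂ × ℂ).1 = Θ p.2 → p.1 = p.2 := by
    have hsd : HasStrictDerivAt Θ (deriv Θ τ) τ := hΘτ.hasStrictDerivAt
    have hli := (hsd.hasStrictFDerivAt_equiv d3).eventually_left_inverse
    filter_upwards [(continuous_fst.tendsto (τ, τ)).eventually hli,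
      (continuous_snd.tendsto (τ, τ)).eventually hli] with p h1 h2 h3
    rw [← h1, ← h2, h3]
  obtain ⟨V₁, hV₁, hV₁'⟩ : ∃ ε > 0, ∀ s ∈ ball τ ε, ∀ t ∈ ball τ ε, Θ s = Θ t → s = t := by
    obtain ⟨ε, hε, hh⟩ := Metric.eventually_nhds_iff_ball.mp hΘinj
    refine ⟨ε, hε, ?_⟩
    intro s hs t ht hst
    have hmem : ((s, t) : ℂ × ℂ) ∈ ball (τ, τ) ε := by
      rw [← ball_prod_same]
      exact ⟨hs, ht⟩
    exact hh (s, t) hmem hst
  obtain ⟨ε₂, hε₂, hε₂'⟩ := Metric.isOpen_iff.1 hWo τ hτw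
  obtain ⟨r₁, hr₁a, hr₁b⟩ := exists_rat_btwn (show 0 < min V₁ ε₂ / 4 by
    have := lt_min hV₁ hε₂
    positivity)
  have hr₁0 : (0 : ℝ) < r₁ := by simpa using hr₁a
  obtain ⟨j, hj⟩ : ∃ j, TopologicalSpace.denseSeq ℂ j ∈ ball τ r₁ :=
    (TopologicalSpace.denseRange_denseSeq ℂ).exists_mem_open isOpen_ball ⟨_, mem_ball_self hr₁0⟩
  set t₁ := TopologicalSpace.denseSeq ℂ j with ht₁
  have hball2 : ∀ t ∈ ball t₁ (2 * r₁), t ∈ ball τ (min V₁ ε₂) := by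
    intro t ht
    rw [mem_ball] at ht hj ⊢
    have := dist_triangle t t₁ τ
    linarith
  obtain ⟨N, hN⟩ := exists_nat_ge (|y₀| + |h| + 2 * r')
  refine ⟨N, i, j, ρ, ρ₁, r₁, g, ?_, ?_, hr₁0, ?_, ?_, hgd.mono hball, ?_, ?_, ?_, ?_, ?_, ?_, ?_⟩
  · linarith
  · linarith
  · linarith [hξim'.2]
  · linarith [hξim'.1]
  · intro ξ hξ
    exact (hUb _ (hg ξ (hball hξ)).1).trans hN
  · intro ξ hξ
    obtain ⟨-, -, a3, a4⟩ := hg ξ (hball hξ)
    rw [a4]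
    exact inv_ne_zero a3
  · intro ξ hξ hlt'
    obtain ⟨a1, a2, -, -⟩ := hg ξ (hball hξ)
    have b1 : (g ξ).im < h := (hpos _ a1).1 (by rw [a2]; exact hlt')
    have b2 := abs_lt.1 a1.2
    refine ⟨a1.1.trans_le hrr, by linarith, b1, ?_⟩
    rw [← hΘe (g ξ) a1.1 (by linarith) b1]
    exact a2
  · intro ξ hξ heq
    obtain ⟨a1, a2, a3, a4⟩ := hg ξ (hball hξ)
    have b1 : (g ξ).im = h := (hpos _ a1).2 (by rw [a2]; exact heq)
    have e : g ξ = ((g ξ).re : ℂ) + h * I := by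
      apply Complex.ext
      · simp
      · simp [b1]
    obtain ⟨-, f2, f3⟩ := hΘr (g ξ).re a1.1
    rw [← e] at f2 f3
    have e2 : deriv Θ (g ξ) = ((deriv Θ (g ξ)).re : ℂ) := by
      apply Complex.ext
      · simp
      · simpa using f2
    refine ⟨a1.1.trans_le hrr, b1, ?_, ?_⟩
    · rw [a4, e2, ← Complex.ofReal_inv, Complex.ofReal_im]
    · rw [a4, e2, ← Complex.ofReal_inv, Complex.ofReal_re]
      exact inv_pos.2 f3
  · rw [dist_comm]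
    exact mem_ball.1 hj
  · intro t ht
    have := hε₂' (ball_subset_ball (min_le_right _ _) (hball2 t ht))
    exact ⟨this.1.trans_le hrr, by linarith [this.2.1], this.2.2⟩
  · intro s hs t ht hst
    have a1 := hε₂' (ball_subset_ball (min_le_right _ _) (hball2 s hs))
    have a2 := hε₂' (ball_subset_ball (min_le_right _ _) (hball2 t ht))
    apply hV₁' s (ball_subset_ball (min_le_left _ _) (hball2 s hs)) t
      (ball_subset_ball (min_le_left _ _) (hball2 t ht))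
    rw [hΘe s a1.1 a1.2.1 a1.2.2, hΘe t a2.1 a2.2.1 a2.2.2, hst]

end Vale.Agent.P097.H877.Bd
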