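import Vale.Agent.P097.H877.Bd.WallB

/-!
(A6), part 3: the joint local inverse, and the extension theorem `hart` for arbitrary sets of
positive outer measure.
-/

open Complex Metric Filter Topology Set MeasureTheory

namespace Vale.Agent.P097.H877.Bd

/-- the joint local inverse of `t ↦ θ (t, w)` -/
theorem impl2 {W : Set (ℂ × ℂ)} (hW : IsOpen W) {θ : ℂ × ℂ → ℂ} (hθ : DifferentiableOn ℂ θ W)
    {t₀ w₀ : ℂ} (h0 : (t₀, w₀) ∈ W) (hd : deriv (fun t => θ (t, w₀)) t₀ ≠ 0) :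
    ∃ d > 0, ∃ δ > 0, ∃ f : ℂ × ℂ → ℂ,
      DifferentiableOn ℂ f (ball (θ (t₀, w₀)) d ×ˢ ball w₀ δ) ∧ f (θ (t₀, w₀), w₀) = t₀ ∧
      ∀ ξ ∈ ball (θ (t₀, w₀)) d, ∀ w ∈ ball w₀ δ, (f (ξ, w), w) ∈ W ∧ θ (f (ξ, w), w) = ξ := by
  have hθa : AnalyticAt ℂ θ (t₀, w₀) :=
    Vale.Agent.P097.Hol.analyticOnNhd_of_differentiableOn hW hθ _ h0
  set F : ℂ × ℂ → ℂ × ℂ := fun p => (θ p, p.2) with hF
  have hFa : AnalyticAt ℂ F (t₀, w₀) := hθa.prod analyticAt_snd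
  set T := fderiv ℂ θ (t₀, w₀) with hT
  have hT1 : T (1, 0) ≠ 0 := by
    have h1 : HasFDerivAt θ T (t₀, w₀) := hθa.differentiableAt.hasFDerivAt
    have h2 : HasDerivAt (fun t : ℂ => (t, w₀)) ((1 : ℂ), (0 : ℂ)) t₀ :=
      (hasDerivAt_id t₀).prodMk (hasDerivAt_const t₀ w₀)
    have h3 : HasDerivAt (fun t => θ (t, w₀)) (T (1, 0)) t₀ :=
      HasFDerivAt.comp_hasDerivAt t₀ (f := fun t : ℂ => (t, w₀)) h1 h2
    rw [← h3.deriv]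
    exact hd
  set M : ℂ × ℂ →L[ℂ] ℂ × ℂ := T.prod (ContinuousLinearMap.snd ℂ ℂ ℂ) with hM
  have hinj : Function.Injective (M : ℂ × ℂ →ₗ[ℂ] ℂ × ℂ) := by
    rw [injective_iff_map_eq_zero]
    rintro ⟨a, b⟩ hab
    have h1 : T (a, b) = 0 := congrArg Prod.fst hab
    have h2 : b = 0 := congrArg Prod.snd hab
    subst h2
    have hdec : ((a, 0) : ℂ × ℂ) = a • ((1, 0) : ℂ × ℂ) := by simp
    rw [hdec, map_smul, smul_eq_mul] at h1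
    rw [(mul_eq_zero.1 h1).resolve_right hT1]
    rfl
  set L : (ℂ × ℂ) ≃L[ℂ] (ℂ × ℂ) :=
    (LinearEquiv.ofInjectiveEndo (M : ℂ × ℂ →ₗ[ℂ] ℂ × ℂ) hinj).toContinuousLinearEquiv with hL
  have hLM : (L : ℂ × ℂ →L[ℂ] ℂ × ℂ) = M := by
    ext <;> rfl
  have hFd : HasFDerivAt F (L : ℂ × ℂ →L[ℂ] ℂ × ℂ) (t₀, w₀) := by
    rw [hLM]
    exact hθa.differentiableAt.hasFDerivAt.prodMk hasFDerivAt_snd
  have hn : (⊤ : WithTop ℕ∞) ≠ 0 := by simp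
  have hFc : ContDiffAt ℂ (⊤ : WithTop ℕ∞) F (t₀, w₀) := hFa.contDiffAt
  have hst : HasStrictFDerivAt F (L : ℂ × ℂ →L[ℂ] ℂ × ℂ) (t₀, w₀) :=
    hFc.hasStrictFDerivAt' hFd hn
  set G := hst.localInverse F L (t₀, w₀) with hG
  have hGa : AnalyticAt ℂ G (F (t₀, w₀)) := (hFc.to_localInverse hFd hn).analyticAt
  have hG0 : G (F (t₀, w₀)) = (t₀, w₀) := hst.localInverse_apply_image
  have hr : ∀ᶠ l in 𝓝 (F (t₀, w₀)), F (G l) = l := hst.eventually_right_inverse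
  have hc : Tendsto G (𝓝 (F (t₀, w₀))) (𝓝 (t₀, w₀)) := by
    have := hGa.continuousAt.tendsto
    rwa [hG0] at this
  have hWe : ∀ᶠ l in 𝓝 (F (t₀, w₀)), G l ∈ W := hc.eventually (hW.mem_nhds h0)
  have hGe : ∀ᶠ l in 𝓝 (F (t₀, w₀)), AnalyticAt ℂ G l := hGa.eventually_analyticAt
  obtain ⟨ε, hε, hh⟩ := Metric.eventually_nhds_iff_ball.mp (hr.and (hWe.and hGe))
  have hmem : ∀ ξ ∈ ball (θ (t₀, w₀)) ε, ∀ w ∈ ball w₀ ε, ((ξ, w) : ℂ × ℂ) ∈ ball (F (t₀, w₀)) ε := by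
    intro ξ hξ w hw
    rw [hF]
    simp only
    rw [← ball_prod_same]
    exact ⟨hξ, hw⟩
  refine ⟨ε, hε, ε, hε, fun l => (G l).1, ?_, ?_, ?_⟩
  · rintro ⟨ξ, w⟩ hl
    have := (hh (ξ, w) (hmem ξ hl.1 w hl.2)).2.2
    exact this.differentiableAt.fst.differentiableWithinAt
  · simp only
    have : G (θ (t₀, w₀), w₀) = (t₀, w₀) := hG0
    rw [this]
  · intro ξ hξ w hw
    obtain ⟨a1, a2, -⟩ := hh (ξ, w) (hmem ξ hξ w hw)
    have b1 : θ (G (ξ, w)) = ξ := congrArg Prod.fst a1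
    have b2 : (G (ξ, w)).2 = w := congrArg Prod.snd a1
    have b3 : ((G (ξ, w)).1, w) = G (ξ, w) := Prod.ext rfl b2.symm
    simp only
    rw [b3]
    exact ⟨a2, b1⟩

/-- `hart` for an arbitrary set of real labels, with uniform bounds -/
theorem hart_out {ξ₁ : ℂ} {u₁ d δ ρ₁ N : ℝ} (hd : 0 < d) {f : ℂ × ℂ → ℂ}
    (hf : DifferentiableOn ℂ f (ball ξ₁ d ×ˢ ball (u₁ : ℂ) δ)) {B : Set ℝ}
    (hBd : ∀ u ∈ B, |u - u₁| < δ) {g : ℝ → ℂ → ℂ}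
    (hg : ∀ u ∈ B, DifferentiableOn ℂ (g u) (ball ξ₁ ρ₁) ∧ (∀ ξ ∈ ball ξ₁ ρ₁, ‖g u ξ‖ ≤ N) ∧
      ∀ᶠ ξ in 𝓝 ξ₁, g u ξ = f (ξ, u))
    {ρ : ℝ} (hρ : 0 < ρ) (hρ1 : ρ < ρ₁) :
    ∀ᵐ u₀ : ℝ, u₀ ∈ B → ∃ δ' > 0, (∀ w ∈ ball (u₀ : ℂ) δ', w ∈ ball (u₁ : ℂ) δ) ∧
      ∃ F : ℂ × ℂ → ℂ, DifferentiableOn ℂ F (ball ξ₁ ρ ×ˢ ball (u₀ : ℂ) δ') ∧
      (∀ ξ w, ξ ∈ ball ξ₁ (min d ρ) → w ∈ ball (u₀ : ℂ) δ' → F (ξ, w) = f (ξ, w)) ∧
      ∀ u ∈ B, |u - u₀| < δ' → ∀ ξ ∈ ball ξ₁ ρ, F (ξ, u) = g u ξ := by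
  obtain ⟨ρ₂, hρ₂, hρ₂'⟩ := exists_between hρ1
  obtain ⟨ρ₃, hρ₃, hρ₃'⟩ := exists_between hρ₂
  have hρ₃0 : 0 < ρ₃ := hρ.trans hρ₃
  have hρ₂0 : 0 < ρ₂ := hρ₃0.trans hρ₃'
  set d₁ : ℝ := d / 2 with hd₁
  have hd₁0 : 0 < d₁ := by positivity
  have hd₁d : d₁ < d := by rw [hd₁]; linarith
  have hmemδ : ∀ u : ℝ, |u - u₁| < δ → (u : ℂ) ∈ ball (u₁ : ℂ) δ := by
    intro u hu
    rw [mem_ball, dist_eq_norm, ← Complex.ofReal_sub, Complex.norm_real, Real.norm_eq_abs]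
    exact hu
  have hslice : ∀ w ∈ ball (u₁ : ℂ) δ, DifferentiableOn ℂ (fun ξ => f (ξ, w)) (ball ξ₁ d) := by
    intro w hw
    refine hf.comp (differentiable_id.prodMk (differentiable_const w)).differentiableOn ?_
    intro z hz
    exact ⟨hz, hw⟩
  have hsl : ∀ w ∈ ball (u₁ : ℂ) δ, DifferentiableOn ℂ (fun ξ => f (ξ, w)) (closedBall ξ₁ d₁) :=
    fun w hw => (hslice w hw).mono (closedBall_subset_ball hd₁d)
  have hc : ∀ n, DifferentiableOn ℂ (tc f ξ₁ d₁ n) (ball (u₁ : ℂ) δ) := fun n =>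
    differentiableOn_tc hd₁0 hd₁d isOpen_ball hf n
  set A' : Set ℝ := {u | |u - u₁| < δ ∧ ∀ n, ‖tc f ξ₁ d₁ n u‖ ≤ N * (ρ₂⁻¹) ^ n} with hA'
  have hA'm : MeasurableSet A' := by
    have hI : IsOpen {u : ℝ | |u - u₁| < δ} := isOpen_lt (by fun_prop) continuous_const
    have hcc : ∀ n, ContinuousOn (fun u : ℝ => ‖tc f ξ₁ d₁ n u‖) {u : ℝ | |u - u₁| < δ} := by
      intro n
      refine (((hc n).continuousOn).comp Complex.continuous_ofReal.continuousOn ?_).norm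
      intro u hu
      exact hmemδ u hu
    have h1 : ∀ n, MeasurableSet {u : ℝ | |u - u₁| < δ ∧ ‖tc f ξ₁ d₁ n u‖ ≤ N * (ρ₂⁻¹) ^ n} := by
      intro n
      have h2 : {u : ℝ | |u - u₁| < δ ∧ ‖tc f ξ₁ d₁ n u‖ ≤ N * (ρ₂⁻¹) ^ n} =
          {u : ℝ | |u - u₁| < δ} \ ({u : ℝ | |u - u₁| < δ} ∩
            (fun u : ℝ => ‖tc f ξ₁ d₁ n u‖) ⁻¹' Ioi (N * (ρ₂⁻¹) ^ n)) := by
        ext u
        simp only [Set.mem_ofPred_eq, Set.mem_sdiff, Set.mem_inter_iff, mem_preimage, mem_Ioi, not_and, not_lt]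
        constructor
        · rintro ⟨a, b⟩
          exact ⟨a, fun _ => b⟩
        · rintro ⟨a, b⟩
          exact ⟨a, b a⟩
      rw [h2]
      exact hI.measurableSet.diff ((hcc n).isOpen_inter_preimage hI isOpen_Ioi).measurableSet
    have h3 : A' = {u : ℝ | |u - u₁| < δ} ∩ ⋂ n, {u : ℝ | |u - u₁| < δ ∧
        ‖tc f ξ₁ d₁ n u‖ ≤ N * (ρ₂⁻¹) ^ n} := by
      ext u
      simp only [hA', mem_ofPred_eq, mem_inter_iff, mem_iInter]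
      constructor
      · rintro ⟨a, b⟩
        exact ⟨a, fun n => ⟨a, b n⟩⟩
      · rintro ⟨a, b⟩
        exact ⟨a, fun n => (b n).2⟩
    rw [h3]
    exact hI.measurableSet.inter (MeasurableSet.iInter h1)
  have hBA : B ⊆ A' := by
    intro u hu
    refine ⟨hBd u hu, fun n => ?_⟩
    obtain ⟨g1, g2, g3⟩ := hg u hu
    have e1 : tc f ξ₁ d₁ n u = (cauchyPowerSeries (g u) ξ₁ ρ₂).coeff n := by
      refine coeff_congr hd₁0 hρ₂0 (hsl u (hmemδ u (hBd u hu)))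
        (g1.mono (closedBall_subset_ball hρ₂')) ?_ n
      filter_upwards [g3] with z hz using hz.symm
    rw [e1]
    exact norm_coeff_le _ hρ₂0 (fun z hz => g2 z (closedBall_subset_ball hρ₂'
      (sphere_subset_closedBall hz))) n
  filter_upwards [ae_dens hA'm] with u₀ hu₀ huB
  have hdens := hu₀ (hBA huB)
  set δ₀ : ℝ := δ - |u₀ - u₁| with hδ₀
  have hδ₀0 : 0 < δ₀ := by
    have := hBd u₀ huB
    rw [hδ₀]; linarith
  have hballs : ∀ w ∈ ball (u₀ : ℂ) δ₀, w ∈ ball (u₁ : ℂ) δ := by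
    intro w hw
    rw [mem_ball] at hw ⊢
    have h1 := dist_triangle w (u₀ : ℂ) (u₁ : ℂ)
    have h2 : dist (u₀ : ℂ) (u₁ : ℂ) = |u₀ - u₁| := by
      rw [dist_eq_norm, ← Complex.ofReal_sub, Complex.norm_real, Real.norm_eq_abs]
    rw [h2] at h1
    rw [hδ₀] at hw
    linarith
  set g' : ℝ → ℂ → ℂ := fun u ξ => ∑' n, tc f ξ₁ d₁ n u * (ξ - ξ₁) ^ n with hg'
  have hg'd : ∀ u ∈ A', DifferentiableOn ℂ (g' u) (ball ξ₁ ρ₃) := by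
    intro u hu
    refine differentiableOn_tsum_dom isOpen_ball (u := fun n => N * (ρ₂⁻¹ * ρ₃) ^ n) ?_ ?_ ?_
    · intro n
      exact ((differentiable_id.sub_const ξ₁).pow n).differentiableOn.const_mul _
    · refine (summable_geometric_of_lt_one (by positivity) ?_).mul_left N
      rw [inv_mul_lt_iff₀ hρ₂0]
      linarith
    · intro n x hx
      have h1 : ‖x - ξ₁‖ ≤ ρ₃ := by
        rw [mem_ball, dist_eq_norm] at hx
        exact hx.le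
      rw [norm_mul, norm_pow, mul_pow, ← mul_assoc]
      exact mul_le_mul (hu.2 n) (pow_le_pow_left₀ (norm_nonneg _) h1 n) (by positivity)
        ((norm_nonneg _).trans (hu.2 n))
  have hg'f : ∀ u ∈ A', ∀ ξ ∈ ball ξ₁ d₁, g' u ξ = f (ξ, u) := by
    intro u hu ξ hξ
    exact (hasSum_coeff hd₁0 (hsl u (hmemδ u hu.1)) hξ).tsum_eq
  obtain ⟨δ', hδ'0, hδ'le, F, hF1, hF2, hF3⟩ := hart (f := f) (g := g') (ρ₁ := ρ₃) hd hδ₀0
    (hf.mono (prod_mono le_rfl fun w hw => hballs w hw)) hdens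
    (by
      intro u hu _
      refine ⟨hg'd u hu, ?_⟩
      filter_upwards [isOpen_ball.mem_nhds (mem_ball_self hd₁0)] with ξ hξ
      exact hg'f u hu ξ hξ) hρ hρ₃
  refine ⟨δ', hδ'0, fun w hw => hballs w (ball_subset_ball hδ'le hw), F, hF1, hF2, ?_⟩
  intro u hu huδ ξ hξ
  rw [hF3 u (hBA hu) huδ ξ hξ]
  obtain ⟨g1, -, g3⟩ := hg u hu
  have a1 : AnalyticOnNhd ℂ (g' u) (ball ξ₁ ρ) :=
    ((hg'd u (hBA hu)).mono (ball_subset_ball hρ₃.le)).analyticOnNhd isOpen_ball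
  have a2 : AnalyticOnNhd ℂ (g u) (ball ξ₁ ρ) :=
    (g1.mono (ball_subset_ball hρ1.le)).analyticOnNhd isOpen_ball
  refine a1.eqOn_of_preconnected_of_eventuallyEq a2 (convex_ball _ _).isPreconnected
    (mem_ball_self hρ) ?_ hξ
  filter_upwards [g3, isOpen_ball.mem_nhds (mem_ball_self hd₁0)] with z hz hz2
  rw [hz, hg'f u (hBA hu) z hz2]

end Vale.Agent.P097.H877.Bd
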